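import Vale.Agent.P066.A.Basic

/-!
P066 part A, file Alt (TASK A2): the projector `Alt` and isotypic polynomials.
* `chi_sq`: `g ∈ GS S` is a product of colour preserving swaps (induction on the number of moved
  points: multiply by `swap s (g s)`), every `g : Gf V` lies in `GS` of its finite support.
* `alt_act`: reindex the sum over the group `GS S` by right multiplication.
* `iso_act`: for `h ∈ GS (img g A)`, `g⁻¹ * h * g ∈ GS A` has the same character.
* `iso_sign`: `g'⁻¹ * g` stabilises `A`; use `exists_restrict`, `act_congr`.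
* `act_prod_iso`: `h` is the product of its restrictions `h_j ∈ GS (B j)`; easiest by induction on
  `r` (generalising `S`, `h`), splitting off one block with `exists_restrict`.
* `alt_prod`: iterate `alt_mul_alt`; an element of `GS (B j)` fixes polynomials in `RS (B j')`.
-/

namespace Vale.Agent.P066.A
open MvPolynomial Finset
noncomputable section

variable {V : Type} [DecidableEq V] {a : V → V → ℕ} {η k : V → ℤ} {A B S : Finset (Vx V)}
  {f : R V} {g g' : Gf V}

theorem alt_chi_aux (k : V → ℤ) (S : Finset (Vx V)) :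
    ∀ g ∈ GS S, chi k g = 1 ∨ chi k g = -1 := by
  induction S using Finset.induction_on with
  | empty =>
    intro g hg
    have : g = 1 := Subtype.ext (Equiv.ext fun s => mem_GS.1 hg s (notMem_empty s))
    rw [this, map_one]
    exact Or.inl rfl
  | insert s S hs ih =>
    intro g hg
    by_cases h : g.1 s = s
    · refine ih g (mem_GS.2 fun x hx => ?_)
      by_cases hxs : x = s
      · rw [hxs, h]
      · exact mem_GS.1 hg x (by simp [hx, hxs])
    · have h1 : basicSwp s (g.1 s) (g.2.1 s) * g ∈ GS S := mem_GS.2 fun x hx => by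
        change Equiv.swap s (g.1 s) (g.1 x) = x
        by_cases hxs : x = s
        · rw [hxs, Equiv.swap_apply_right]
        · have h2 : g.1 x = x := mem_GS.1 hg x (by simp [hx, hxs])
          rw [h2, Equiv.swap_apply_of_ne_of_ne hxs fun e => hxs (g.1.injective (h2.trans e))]
      have h2 := ih _ h1
      rw [map_mul, chi_swap k _ s (g.1 s) (Ne.symm h) rfl] at h2
      split_ifs at h2
      · rcases h2 with h2 | h2
        · right; linarith
        · left; linarith
      · rwa [one_mul] at h2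
theorem chi_sq (k : V → ℤ) (g : Gf V) : chi k g = 1 ∨ chi k g = -1 :=
  alt_chi_aux k g.2.2.toFinset g (mem_GS.2 fun s hs => by simpa using hs)
theorem alt_chi_mul_self (k : V → ℤ) (g : Gf V) : chi k g * chi k g = 1 := by
  rcases chi_sq k g with h | h <;> rw [h] <;> norm_num
theorem chi_inv (k : V → ℤ) (g : Gf V) : chi k g⁻¹ = chi k g := by
  rw [← mul_one (chi k g⁻¹), ← alt_chi_mul_self k g, ← mul_assoc, ← map_mul, inv_mul_cancel,
    map_one, one_mul]
omit [DecidableEq V] in
theorem act_congr (hf : f ∈ RS A) (h : ∀ s ∈ A, g.1 s = g'.1 s) : act g f = act g' f :=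
  basic_RS_ext (fun s hs => by rw [act_X, act_X, h s hs]) hf
omit [DecidableEq V] in
theorem act_of_fix (hf : f ∈ RS A) (h : ∀ s ∈ A, g.1 s = s) : act g f = f :=
  (act_congr (g' := 1) hf h).trans (act_one f)
omit [DecidableEq V] in
theorem act_of_disjoint (hf : f ∈ RS B) (hg : g ∈ GS A) (h : Disjoint A B) : act g f = f :=
  act_of_fix hf fun s hs => mem_GS.1 hg s (disjoint_right.1 h hs)
theorem act_mem_RS (g : Gf V) (hf : f ∈ RS A) : act g f ∈ RS (img g A) :=
  basic_RS_map (fun s hs => by rw [act_X]; exact X_mem_RS (basic_apply_mem_img.2 hs)) hf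
omit [DecidableEq V] in
theorem act_hom (g : Gf V) {D : ℕ} (hf : f.IsHomogeneous D) : (act g f).IsHomogeneous D :=
  hf.rename_isHomogeneous
omit [DecidableEq V] in
theorem act_scale (g : Gf V) (f : R V) : act g (scale f) = scale (act g f) := by
  have : (act g).comp scale = scale.comp (act g) :=
    algHom_ext fun s => by simp [scale, act_X]
  exact DFunLike.congr_fun this f
omit [DecidableEq V] in
theorem scale_mem_RS (hf : f ∈ RS A) : scale f ∈ RS A :=
  basic_RS_map (fun s hs => by
    rw [scale, aeval_X]; exact Subalgebra.smul_mem _ (X_mem_RS hs) _) hf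
theorem alt_apply (f : R V) :
    Alt k S f = ((GS S).card : ℚ)⁻¹ • ∑ g ∈ GS S, chi k g • act g f := by
  simp [Alt, LinearMap.sum_apply]
omit [DecidableEq V] in
theorem card_GS_ne (S : Finset (Vx V)) : ((GS S).card : ℚ) ≠ 0 :=
  Nat.cast_ne_zero.2 (card_pos.2 ⟨1, one_mem_GS⟩).ne'
theorem alt_mem (W : Submodule ℚ (R V)) (hW : ∀ g ∈ GS S, ∀ f ∈ W, act g f ∈ W) (hf : f ∈ W) :
    Alt k S f ∈ W := by
  rw [alt_apply]
  exact W.smul_mem _ (sum_mem fun g hg => W.smul_mem _ (hW g hg f hf))
theorem alt_mem_iso (hf : f ∈ RS S) : Alt k S f ∈ Iso k S := by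
  refine ⟨alt_mem (Subalgebra.toSubmodule (RS S)) (fun g hg f hf => ?_) hf, fun g hg => ?_⟩
  · have := act_mem_RS g hf
    rwa [img_of_mem_GS hg] at this
  · rw [alt_apply, map_smul, smul_comm, map_sum, smul_sum (r := chi k g)]
    congr 1
    refine sum_nbij' (fun h => g * h) (fun h => g⁻¹ * h) (fun h hh => mul_mem_GS hg hh)
      (fun h hh => mul_mem_GS (inv_mem_GS hg) hh) (fun h _ => inv_mul_cancel_left g h)
      (fun h _ => mul_inv_cancel_left g h) fun h _ => ?_
    rw [map_smul, ← act_mul, smul_smul, map_mul, ← mul_assoc, alt_chi_mul_self, one_mul]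
theorem alt_avg (F : Gf V → R V) (h : ∀ g ∈ GS S, F g = f) :
    ((GS S).card : ℚ)⁻¹ • ∑ g ∈ GS S, F g = f := by
  rw [sum_congr rfl h, sum_const, ← Nat.cast_smul_eq_nsmul ℚ, smul_smul,
    inv_mul_cancel₀ (card_GS_ne S), one_smul]
theorem alt_of_iso (hf : f ∈ Iso k S) : Alt k S f = f := by
  rw [alt_apply]
  exact alt_avg _ fun g hg => by rw [hf.2 g hg, smul_smul, alt_chi_mul_self, one_smul]
theorem alt_act (hg : g ∈ GS S) (f : R V) : Alt k S (act g f) = chi k g • Alt k S f := by
  rw [alt_apply, alt_apply, smul_comm (chi k g), smul_sum (r := chi k g)]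
  congr 1
  refine sum_nbij' (fun h => h * g) (fun h => h * g⁻¹) (fun h hh => mul_mem_GS hh hg)
    (fun h hh => mul_mem_GS hh (inv_mem_GS hg)) (fun h _ => mul_inv_cancel_right h g)
    (fun h _ => inv_mul_cancel_right h g) fun h _ => ?_
  rw [← act_mul, smul_smul, map_mul, mul_comm (chi k h), ← mul_assoc, alt_chi_mul_self, one_mul]
theorem alt_mul_alt (hA : A ⊆ S) {h : R V} (hh : ∀ g ∈ GS A, act g h = h) (f : R V) :
    Alt k S (h * Alt k A f) = Alt k S (h * f) := by
  rw [alt_apply (S := A), mul_smul_comm, map_smul, mul_sum, map_sum]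
  refine alt_avg _ fun g hg => ?_
  have : h * act g f = act g (h * f) := by rw [map_mul, hh g hg]
  rw [mul_smul_comm, map_smul, this, alt_act (GS_mono hA hg), smul_smul, alt_chi_mul_self, one_smul]
theorem alt_hom {D : ℕ} (hf : f.IsHomogeneous D) : (Alt k S f).IsHomogeneous D :=
  alt_mem (homogeneousSubmodule _ ℚ D) (fun g _ _ hf => act_hom g hf) hf
theorem alt_mem_ideal (J : Ideal (R V)) (hJ : ∀ g ∈ GS S, ∀ f ∈ J, act g f ∈ J) (hf : f ∈ J) :
    Alt k S f ∈ J := alt_mem (J.restrictScalars ℚ) hJ hf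
theorem iso_act (g : Gf V) (hf : f ∈ Iso k A) : act g f ∈ Iso k (img g A) := by
  refine ⟨act_mem_RS g hf.1, fun h hh => ?_⟩
  have h1 : g⁻¹ * h * g ∈ GS A := mem_GS.2 fun s hs => by
    change g⁻¹.1 (h.1 (g.1 s)) = s
    rw [mem_GS.1 hh _ fun hc => hs (basic_apply_mem_img.1 hc)]
    simp
  have h2 := congrArg (act g) (hf.2 _ h1)
  rw [← act_mul, ← mul_assoc, mul_inv_cancel_left, act_mul, map_smul, map_mul, map_mul, chi_inv,
    mul_right_comm, alt_chi_mul_self, one_mul] at h2
  exact h2
theorem iso_scale (hf : f ∈ Iso k A) : scale f ∈ Iso k A :=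
  ⟨scale_mem_RS hf.1, fun g hg => by rw [act_scale, hf.2 g hg, map_smul]⟩
theorem iso_sign (k : V → ℤ) (h : img g A = img g' A) :
    ∃ ε : ℚ, (ε = 1 ∨ ε = -1) ∧ ∀ f ∈ Iso k A, act g f = ε • act g' f := by
  obtain ⟨u, hu, hu'⟩ := exists_restrict (g := g'⁻¹ * g) (A := A)
    (by rw [img_mul, h, ← img_mul, inv_mul_cancel, img_one])
  refine ⟨chi k u, chi_sq k u, fun f hf => ?_⟩
  rw [← map_smul, ← hf.2 u hu, act_congr hf.1 hu', ← act_mul, mul_inv_cancel_left]
theorem act_prod_iso {r : ℕ} {B : Fin r → Finset (Vx V)} (hB : OP S B) {h : Gf V}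
    (hh : h ∈ GS S) (hs : ∀ j, img h (B j) = B j) {w : Fin r → R V}
    (hw : ∀ j, w j ∈ Iso k (B j)) : act h (∏ j, w j) = chi k h • ∏ j, w j := by
  induction r generalizing S h with
  | zero =>
    have : h = 1 := Subtype.ext (Equiv.ext fun s => mem_GS.1 hh s fun hc => by
      obtain ⟨j, -⟩ := hB.basic_mem_iff.1 hc
      exact j.elim0)
    rw [this, act_one, map_one, one_smul]
  | succ r ih =>
    obtain ⟨u, hu, hu'⟩ := exists_restrict (hs 0)
    have h1 : u⁻¹ * h ∈ GS (S \ B 0) := mem_GS.2 fun s hs => by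
      change u⁻¹.1 (h.1 s) = s
      by_cases h0 : s ∈ B 0
      · rw [← hu' s h0]; simp
      · rw [mem_GS.1 hh s fun hc => hs (mem_sdiff.2 ⟨hc, h0⟩), mem_GS.1 (inv_mem_GS hu) s h0]
    have hd : ∀ j : Fin r, Disjoint (B 0) (B j.succ) := fun j =>
      hB.1 _ _ (Fin.succ_ne_zero j).symm
    have h2 := ih hB.basic_tail h1
      (fun j => by rw [img_mul, hs, img_of_disjoint (inv_mem_GS hu) (hd j)]) fun j => hw j.succ
    have h3 : act u (∏ j : Fin r, w j.succ) = ∏ j : Fin r, w j.succ := by
      rw [map_prod]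
      exact prod_congr rfl fun j _ => act_of_disjoint (hw _).1 hu (hd j)
    have h4 := congrArg (act u) h2
    rw [← act_mul, mul_inv_cancel_left, map_smul, h3] at h4
    rw [Fin.prod_univ_succ, map_mul, h4, ← act_congr (hw 0).1 hu', (hw 0).2 u hu,
      smul_mul_smul_comm, ← map_mul, mul_inv_cancel_left]
theorem alt_prod {r : ℕ} {B : Fin r → Finset (Vx V)} (hB : OP S B) {h : R V}
    (hh : ∀ j, ∀ g ∈ GS (B j), act g h = h) {w : Fin r → R V} (hw : ∀ j, w j ∈ RS (B j)) :
    Alt k S (h * ∏ j, w j) = Alt k S (h * ∏ j, Alt k (B j) (w j)) := by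
  have key : ∀ T : Finset (Fin r), Alt k S (h * ∏ j, w j) =
      Alt k S (h * ∏ j, if j ∈ T then Alt k (B j) (w j) else w j) := by
    intro T
    induction T using Finset.induction_on with
    | empty => simp
    | insert i T hi ih =>
      have e : ∏ j ∈ univ.erase i, (if j ∈ insert i T then Alt k (B j) (w j) else w j) =
          ∏ j ∈ univ.erase i, if j ∈ T then Alt k (B j) (w j) else w j :=
        prod_congr rfl fun j hj => by simp only [mem_insert, ne_of_mem_erase hj, false_or]
      rw [ih, ← prod_erase_mul _ _ (mem_univ i), ← prod_erase_mul _ _ (mem_univ i), e, if_neg hi,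
        if_pos (mem_insert_self i T), ← mul_assoc, ← mul_assoc]
      refine (alt_mul_alt (hB.subset i) (fun g hg => ?_) _).symm
      rw [map_mul, hh i g hg, map_prod]
      congr 1
      refine prod_congr rfl fun j hj => act_of_disjoint (B := B j) ?_ hg
        (hB.1 _ _ (ne_of_mem_erase hj).symm)
      split_ifs
      exacts [(alt_mem_iso (hw j)).1, hw j]
  simpa using key univ

end
end Vale.Agent.P066.A
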