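import Vale.Agent.P066.A.Alt

/-!
P066 part A, file Bas (TASK A3): graded bases modulo an ideal.
* `hc_mem`: strong induction on a bound `n` for the total degree: `scale f - 2^n • f` lies in `W`,
  has degree `< n` and components `(2^d - 2^n) • f_d`; so `f_d ∈ W` for `d < n`, then `f_n ∈ W`.
* `exists_bas`: lift a basis (`Basis.ofVectorSpace`) of the image of `W` in `R ⧸ J`.
* `exists_GBas`: use `exists_bas` for `W ⊓ homogeneousSubmodule D` and take the sigma type; for
  independence and spanning take homogeneous components.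
* `GBas.equiv`: for each `D` the two subfamilies of degree `D` map to two bases of the image of
  `W ⊓ homogeneousSubmodule D` in `R ⧸ J`; `Basis.indexEquiv`, then `Equiv.sigmaFiberEquiv`.
-/

namespace Vale.Agent.P066.A
open MvPolynomial Finset
noncomputable section

variable {V : Type} [DecidableEq V] {I I' : Type} {W W' : Submodule ℚ (R V)}
  {J J' : Ideal (R V)}

omit [DecidableEq V] in
theorem bas_scale_monomial (m : Vx V →₀ ℕ) (c : ℚ) :
    scale (monomial m c : R V) = (2 : ℚ) ^ m.degree • monomial m c := by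
  rw [scale, aeval_monomial, monomial_eq]
  simp only [smul_pow, Finsupp.prod, Finset.prod_smul, prod_pow_eq_pow_sum, algebraMap_eq,
    mul_smul_comm]
  rfl
omit [DecidableEq V] in
theorem bas_coeff_scale (f : R V) (m : Vx V →₀ ℕ) :
    coeff m (scale f) = (2 : ℚ) ^ m.degree * coeff m f := by
  classical
  induction f using MvPolynomial.induction_on' with
  | monomial u a =>
    rw [bas_scale_monomial, coeff_smul, coeff_monomial, smul_eq_mul]
    split_ifs with h
    · rw [h]
    · rw [mul_zero, mul_zero]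
  | add p q hp hq => rw [map_add, coeff_add, coeff_add, hp, hq, mul_add]
omit [DecidableEq V] in
theorem scale_hom {f : R V} {D : ℕ} (hf : f.IsHomogeneous D) : scale f = (2 : ℚ) ^ D • f := by
  ext m
  rw [bas_coeff_scale, coeff_smul, smul_eq_mul]
  by_cases h : m.degree = D
  · rw [h]
  · rw [hf.coeff_eq_zero h, mul_zero, mul_zero]
omit [DecidableEq V] in
theorem bas_hc_scale (f : R V) (D : ℕ) :
    homogeneousComponent D (scale f) = (2 : ℚ) ^ D • homogeneousComponent D f := by
  ext m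
  rw [coeff_smul, coeff_homogeneousComponent, coeff_homogeneousComponent, bas_coeff_scale,
    smul_eq_mul]
  split_ifs with h
  · rw [h]
  · rw [mul_zero]
omit [DecidableEq V] in
theorem bas_hc_aux (hW : ∀ f ∈ W, scale f ∈ W) (n : ℕ) :
    ∀ f ∈ W, (∀ d, n ≤ d → homogeneousComponent d f = 0) →
      ∀ D, homogeneousComponent D f ∈ W := by
  induction n with
  | zero =>
    intro f _ h D
    rw [h D (Nat.zero_le _)]
    exact W.zero_mem
  | succ n ih =>
    intro f hf h
    have hc : ∀ d, homogeneousComponent d (scale f - (2 : ℚ) ^ n • f) =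
        ((2 : ℚ) ^ d - 2 ^ n) • homogeneousComponent d f := fun d => by
      rw [map_sub, map_smul, bas_hc_scale, sub_smul]
    have h1 := ih _ (W.sub_mem (hW f hf) (W.smul_mem ((2 : ℚ) ^ n) hf)) fun d hd => by
      rw [hc]
      rcases hd.eq_or_lt with e | e
      · rw [e, sub_self, zero_smul]
      · rw [h d e, smul_zero]
    have h2 : ∀ d, d ≠ n → homogeneousComponent d f ∈ W := fun d hd => by
      have h3 := h1 d
      rw [hc] at h3
      exact (W.smul_mem_iff (sub_ne_zero.2 fun e =>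
        hd (pow_right_injective₀ (by norm_num) (by norm_num) e))).1 h3
    intro D
    by_cases hD : D = n
    · by_cases hm : D ∈ range (f.totalDegree + 1)
      · have h3 := sum_homogeneousComponent f
        rw [← add_sum_erase _ _ hm] at h3
        rw [eq_sub_of_add_eq h3]
        exact W.sub_mem hf (W.sum_mem fun d hd => h2 d (hD ▸ ne_of_mem_erase hd))
      · rw [homogeneousComponent_eq_zero _ _ (by simpa using hm)]
        exact W.zero_mem
    · exact h2 D hD
omit [DecidableEq V] in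
theorem hc_mem (hW : ∀ f ∈ W, scale f ∈ W) {f : R V} (hf : f ∈ W) (D : ℕ) :
    homogeneousComponent D f ∈ W :=
  bas_hc_aux hW (f.totalDegree + 1) f hf (fun _ hd => homogeneousComponent_eq_zero _ _ hd) D
omit [DecidableEq V] in
theorem hc_mem_ideal (hJ : ∀ f ∈ J, scale f ∈ J) {f : R V} (hf : f ∈ J) (D : ℕ) :
    homogeneousComponent D f ∈ J :=
  hc_mem (W := J.restrictScalars ℚ) hJ hf D
omit [DecidableEq V] in
theorem scale_span {G : Set (R V)} (hG : ∀ x ∈ G, ∃ D, x.IsHomogeneous D) :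
    ∀ f ∈ Ideal.span G, scale f ∈ Ideal.span G := by
  have : Ideal.span G ≤ (Ideal.span G).comap (scale : R V →ₐ[ℚ] R V) :=
    Ideal.span_le.2 fun x hx => by
      obtain ⟨D, hD⟩ := hG x hx
      change scale x ∈ Ideal.span G
      rw [scale_hom hD]
      exact Submodule.smul_of_tower_mem _ _ (Ideal.subset_span hx)
  exact fun f hf => this hf
omit [DecidableEq V] in
theorem act_span {G G' : Set (R V)} (g : Gf V) (hG : ∀ x ∈ G, act g x ∈ Ideal.span G') :
    ∀ f ∈ Ideal.span G, act g f ∈ Ideal.span G' := by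
  have : Ideal.span G ≤ (Ideal.span G').comap (act g) := Ideal.span_le.2 fun x hx => hG x hx
  exact fun f hf => this hf

/-- the quotient map as a linear map -/
def basQ (J : Ideal (R V)) : R V →ₗ[ℚ] R V ⧸ J := (Ideal.Quotient.mkₐ ℚ J).toLinearMap
omit [DecidableEq V] in
theorem bas_Q_eq_zero {f : R V} : basQ J f = 0 ↔ f ∈ J := Ideal.Quotient.eq_zero_iff_mem
omit [DecidableEq V] in
theorem bas_ind_iff {b : I → R V} : IndMod J b ↔ LinearIndependent ℚ (basQ J ∘ b) := by
  rw [linearIndependent_iff]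
  refine forall_congr' fun c => ?_
  rw [← Finsupp.apply_linearCombination, bas_Q_eq_zero]
omit [DecidableEq V] in
theorem bas_span_iff {b : I → R V} {w : R V} :
    (∃ c : I →₀ ℚ, w - Finsupp.linearCombination ℚ b c ∈ J) ↔
      basQ J w ∈ Submodule.span ℚ (Set.range (basQ J ∘ b)) := by
  rw [← Finsupp.range_linearCombination, LinearMap.mem_range]
  refine exists_congr fun c => ?_
  rw [← Finsupp.apply_linearCombination, ← bas_Q_eq_zero, map_sub, sub_eq_zero, eq_comm]
omit [DecidableEq V] in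
theorem exists_bas (W : Submodule ℚ (R V)) (J : Ideal (R V)) :
    ∃ (I : Type) (b : I → R V), (∀ i, b i ∈ W) ∧ IndMod J b ∧
      ∀ w ∈ W, ∃ c : I →₀ ℚ, w - Finsupp.linearCombination ℚ b c ∈ J := by
  obtain ⟨κ, a, -, h1, h2⟩ := exists_linearIndependent' ℚ (fun w : W => basQ J w.1)
  refine ⟨κ, fun i => (a i).1, fun i => (a i).2, bas_ind_iff.2 h2, fun w hw => bas_span_iff.2 ?_⟩
  have h3 : basQ J w ∈ Submodule.span ℚ (Set.range fun w : W => basQ J w.1) :=
    Submodule.subset_span ⟨⟨w, hw⟩, rfl⟩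
  rw [← h1] at h3
  exact h3
omit [DecidableEq V] in
theorem bas_hc_lc {b : I → R V} {dg : I → ℕ} (hb : ∀ i, (b i).IsHomogeneous (dg i)) (D : ℕ)
    {f : I' → I} (hf : Function.Injective f) (hr : ∀ i, dg i = D ↔ i ∈ Set.range f)
    (c : I →₀ ℚ) :
    homogeneousComponent D (Finsupp.linearCombination ℚ b c) =
      Finsupp.linearCombination ℚ (b ∘ f) (c.comapDomain f hf.injOn) := by
  induction c using Finsupp.induction_linear with
  | zero => rw [Finsupp.comapDomain_zero, map_zero, map_zero, map_zero]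
  | add c c' h h' => rw [Finsupp.comapDomain_add_of_injective hf, map_add, map_add, map_add, h, h']
  | single i t =>
    rw [Finsupp.linearCombination_single, map_smul, homogeneousComponent_of_mem (hb i)]
    by_cases h : dg i = D
    · obtain ⟨x, rfl⟩ := (hr i).1 h
      rw [if_pos h.symm, Finsupp.comapDomain_single, Finsupp.linearCombination_single]
      rfl
    · rw [if_neg (Ne.symm h), Finsupp.comapDomain_single_of_not_mem_range (mt (hr i).2 h),
        map_zero, smul_zero]
omit [DecidableEq V] in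
theorem exists_GBas (hW : ∀ f ∈ W, scale f ∈ W) (hJ : ∀ f ∈ J, scale f ∈ J) :
    ∃ (I : Type) (b : I → R V) (dg : I → ℕ), GBas W J b dg := by
  choose I b h1 h2 h3 using fun D : ℕ => exists_bas (W ⊓ homogeneousSubmodule (Vx V) ℚ D) J
  have hh : ∀ x : Σ D, I D, (b x.1 x.2).IsHomogeneous x.1 := fun x => (h1 x.1 x.2).2
  refine ⟨Σ D, I D, fun x => b x.1 x.2, fun x => x.1, fun x => (h1 x.1 x.2).1, hh, ?_, ?_⟩
  · intro c hc
    ext ⟨D, i⟩
    have h4 := hc_mem_ideal hJ hc D
    rw [bas_hc_lc hh D (f := Sigma.mk D) sigma_mk_injective (fun x => ⟨fun h => by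
      obtain ⟨D', x⟩ := x
      subst h
      exact ⟨x, rfl⟩, fun ⟨_, h⟩ => h ▸ rfl⟩)] at h4
    exact DFunLike.congr_fun (h2 D _ h4) i
  · intro w hw
    rw [bas_span_iff, ← sum_homogeneousComponent w, map_sum]
    refine Submodule.sum_mem _ fun D _ => ?_
    refine Submodule.span_mono ?_
      (bas_span_iff.1 (h3 D _ ⟨hc_mem hW hw D, homogeneousComponent_mem _ _⟩))
    rintro _ ⟨i, rfl⟩
    exact ⟨⟨D, i⟩, rfl⟩
omit [DecidableEq V] in
theorem bas_fiber_span {b : I → R V} {dg : I → ℕ} (hJ : ∀ f ∈ J, scale f ∈ J)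
    (h : GBas W J b dg) (D : ℕ) :
    Submodule.span ℚ (Set.range (basQ J ∘ b ∘ (Subtype.val : {i // dg i = D} → I))) =
      (W ⊓ homogeneousSubmodule (Vx V) ℚ D).map (basQ J) := by
  refine le_antisymm (Submodule.span_le.2 ?_) ?_
  · rintro _ ⟨⟨i, rfl⟩, rfl⟩
    exact ⟨b i, ⟨h.mem i, h.hom i⟩, rfl⟩
  · rintro _ ⟨w, ⟨hw, hw'⟩, rfl⟩
    obtain ⟨c, hc⟩ := h.span w hw
    have h4 := hc_mem_ideal hJ hc D
    rw [map_sub, homogeneousComponent_of_mem hw', if_pos rfl,
      bas_hc_lc h.hom D (f := (Subtype.val : {i // dg i = D} → I)) Subtype.val_injective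
        (fun i => ⟨fun e => ⟨⟨i, e⟩, rfl⟩, fun ⟨x, e⟩ => e ▸ x.2⟩)] at h4
    exact bas_span_iff.1 ⟨_, h4⟩
omit [DecidableEq V] in
theorem GBas.equiv {b : I → R V} {dg : I → ℕ} {b' : I' → R V} {dg' : I' → ℕ}
    (hJ : ∀ f ∈ J, scale f ∈ J) (h : GBas W J b dg) (h' : GBas W J b' dg') :
    ∃ e : I ≃ I', ∀ i, dg' (e i) = dg i := by
  have e : ∀ D, {i // dg i = D} ≃ {i // dg' i = D} := fun D =>
    ((Module.Basis.span ((bas_ind_iff.1 h.ind).comp _ (Subtype.val_injective
      (p := fun i => dg i = D)))).map (LinearEquiv.ofEq _ _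
        ((bas_fiber_span hJ h D).trans (bas_fiber_span hJ h' D).symm))).indexEquiv
      (Module.Basis.span ((bas_ind_iff.1 h'.ind).comp _ (Subtype.val_injective
        (p := fun i => dg' i = D))))
  exact ⟨Equiv.ofFiberEquiv e, Equiv.ofFiberEquiv_map e⟩
omit [DecidableEq V] in
theorem GBas.act {b : I → R V} {dg : I → ℕ} (h : GBas W J b dg) (g : Gf V)
    (h1 : ∀ f ∈ W, act g f ∈ W') (h2 : ∀ f ∈ W', act g⁻¹ f ∈ W)
    (h3 : ∀ f ∈ J, act g f ∈ J') (h4 : ∀ f ∈ J', act g⁻¹ f ∈ J) :
    GBas W' J' (fun i => act g (b i)) dg := by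
  have hl : ∀ c : I →₀ ℚ, Finsupp.linearCombination ℚ (fun i => A.act g (b i)) c =
      A.act g (Finsupp.linearCombination ℚ b c) := fun c =>
    (Finsupp.apply_linearCombination ℚ (A.act g).toLinearMap b c).symm
  refine ⟨fun i => h1 _ (h.mem i), fun i => act_hom g (h.hom i), fun c hc => h.ind c ?_,
    fun w hw => ?_⟩
  · have h5 := h4 _ hc
    rwa [hl, ← act_mul, inv_mul_cancel, act_one] at h5
  · obtain ⟨c, hc⟩ := h.span _ (h2 w hw)
    have h5 := h3 _ hc
    rw [map_sub, ← act_mul, mul_inv_cancel, act_one, ← hl] at h5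
    exact ⟨c, h5⟩
omit [DecidableEq V] in
theorem GBas.reindex {b : I → R V} {dg : I → ℕ} (h : GBas W J b dg) (e : I' ≃ I) :
    GBas W J (fun i => b (e i)) fun i => dg (e i) := by
  refine ⟨fun i => h.mem _, fun i => h.hom _,
    bas_ind_iff.2 ((bas_ind_iff.1 h.ind).comp e e.injective), fun w hw => bas_span_iff.2 ?_⟩
  refine Submodule.span_mono ?_ (bas_span_iff.1 (h.span w hw))
  rintro _ ⟨i, rfl⟩
  exact ⟨e.symm i, by simp⟩
omit [DecidableEq V] in
theorem IndMod.exists_dual [DecidableEq I] {b : I → R V} (h : IndMod J b) (i0 : I) :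
    ∃ φ : R V →ₗ[ℚ] ℚ, (∀ f ∈ J, φ f = 0) ∧ ∀ i, φ (b i) = if i = i0 then 1 else 0 := by
  obtain ⟨g, hg⟩ := (Finsupp.linearCombination ℚ (basQ J ∘ b)).exists_leftInverse_of_injective
    (LinearMap.ker_eq_bot.2 (bas_ind_iff.1 h))
  refine ⟨(Finsupp.lapply i0).comp (g.comp (basQ J)), fun f hf => ?_, fun i => ?_⟩
  · rw [LinearMap.comp_apply, LinearMap.comp_apply, bas_Q_eq_zero.2 hf, map_zero, map_zero]
  · have h1 := DFunLike.congr_fun hg (Finsupp.single i 1)
    rw [LinearMap.comp_apply, Finsupp.linearCombination_single, one_smul, LinearMap.id_apply,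
      Function.comp_apply] at h1
    rw [LinearMap.comp_apply, LinearMap.comp_apply, h1, Finsupp.lapply_apply, Finsupp.single_apply]
omit [DecidableEq V] in
theorem GBas.isEmpty {b : I → R V} {dg : I → ℕ} (h : GBas W J b dg) (hW : ∀ f ∈ W, f ∈ J) :
    IsEmpty I :=
  ⟨fun i => (bas_ind_iff.1 h.ind).ne_zero i (bas_Q_eq_zero.2 (hW _ (h.mem i)))⟩
omit [DecidableEq V] in
/-- if `W` consists of the constants and `J = ⊥`, a graded basis has exactly one element, of
degree zero -/
theorem GBas.unique {b : I → R V} {dg : I → ℕ} (h : GBas W ⊥ b dg)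
    (hW : ∀ f, f ∈ W ↔ ∃ c : ℚ, f = C c) : ∃ i, dg i = 0 ∧ ∀ i', i' = i := by
  have h' : GBas W ⊥ (fun _ : Unit => (1 : R V)) fun _ => 0 := by
    refine ⟨fun _ => (hW _).2 ⟨1, C_1.symm⟩, fun _ => isHomogeneous_one _ _, fun c hc => ?_,
      fun w hw => ?_⟩
    · rw [Finsupp.linearCombination_unique, Ideal.mem_bot, smul_eq_zero] at hc
      ext
      exact hc.resolve_right one_ne_zero
    · obtain ⟨c, rfl⟩ := (hW w).1 hw
      refine ⟨Finsupp.single () c, ?_⟩
      rw [Finsupp.linearCombination_single, Ideal.mem_bot, C_eq_smul_one, sub_self]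
  obtain ⟨e, he⟩ := h.equiv (fun f hf => by rw [Ideal.mem_bot.1 hf, map_zero]; exact zero_mem _) h'
  exact ⟨e.symm (), (he _).symm, fun i' => e.injective rfl⟩

end
end Vale.Agent.P066.A
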