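import Vale.Agent.P066.A.Defs

/-!
P066 part A, file Basic (TASK A1): classes, kernels, permutations.  All elementary.
* `ext_perm`: the fibres of `s ↦ (l s, s.1)` and `s ↦ (l' s, s.1)` on `S` have equal cardinality
  (evaluate `h j` at a colour); glue fibrewise bijections (`Equiv.ofFiberEquiv` /
  `Equiv.sigmaFiberEquiv`) to a permutation of the subtype `S`, extend by `Equiv.Perm.ofSubtype`.
* `exists_img`: apply `ext_perm` on `A ∪ B` with labels `decide (s ∈ A)`, `decide (s ∈ B)`.
* `exists_swap`: induction on `A`, multiplying by one more swap (use `chi_swap`).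
-/

namespace Vale.Agent.P066.A
open MvPolynomial Finset
noncomputable section

variable {V : Type} [DecidableEq V] {a : V → V → ℕ} {η k : V → ℤ} {A A' B B' C S : Finset (Vx V)}

theorem cl_apply (S : Finset (Vx V)) (i : V) : cl S i = (S.filter fun s => s.1 = i).card := by
  simp only [cl, Finsupp.finsetSum_apply, Finsupp.single_apply, card_filter]
theorem basic_mem_std {β : V →₀ ℕ} {s : Vx V} : s ∈ std β ↔ s.2 < β s.1 := by
  simp only [std, mem_biUnion, mem_image, mem_range, Finsupp.mem_support_iff]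
  constructor
  · rintro ⟨i, -, j, hj, rfl⟩; exact hj
  · exact fun h => ⟨s.1, by omega, s.2, h, rfl⟩
theorem cl_std (β : V →₀ ℕ) : cl (std β) = β := by
  ext i
  have : ((std β).filter fun s => s.1 = i) = (range (β i)).image fun j => (i, j) := by
    ext s
    simp only [mem_filter, basic_mem_std, mem_image, mem_range]
    constructor
    · rintro ⟨h, rfl⟩; exact ⟨s.2, h, rfl⟩
    · rintro ⟨j, hj, rfl⟩; exact ⟨hj, rfl⟩
  rw [cl_apply, this, card_image_of_injective _ (Prod.mk_right_injective i), card_range]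
theorem std_zero : std (0 : V →₀ ℕ) = ∅ := by simp [std]
theorem cl_union (h : Disjoint A B) : cl (A ∪ B) = cl A + cl B := sum_union h
omit [DecidableEq V] in
theorem card_eq_degree (S : Finset (Vx V)) : S.card = (cl S).degree := by
  simp [cl, map_sum]
omit [DecidableEq V] in
theorem cl_eq_zero : cl S = 0 ↔ S = ∅ := by
  constructor
  · intro h
    rw [← card_eq_zero, card_eq_degree, h, map_zero]
  · rintro rfl; rfl
omit [DecidableEq V] in
theorem basic_sum_cl {M : Type} [AddCommMonoid M] (S : Finset (Vx V)) (F : V → ℕ → M)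
    (h0 : ∀ i, F i 0 = 0) (h1 : ∀ i n m, F i (n + m) = F i n + F i m) :
    (cl S).sum F = ∑ s ∈ S, F s.1 1 := by
  rw [cl, ← Finsupp.sum_finsetSum_index h0 h1]
  exact sum_congr rfl fun s _ => Finsupp.sum_single_index (h0 _)
omit [DecidableEq V] in
theorem etaS_eq (η : V → ℤ) (S : Finset (Vx V)) : etaS η S = etaC η (cl S) := by
  rw [etaC, basic_sum_cl _ _ (by simp) (by intros; push_cast; ring)]
  simp [etaS]
omit [DecidableEq V] in
theorem aS_eq (a : V → V → ℕ) (A B : Finset (Vx V)) : aS a A B = aC a (cl A) (cl B) := by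
  rw [aC, basic_sum_cl _ _ (by simp) (by intros; simp only [add_mul, Finsupp.sum_add])]
  refine sum_congr rfl fun s _ => ?_
  rw [basic_sum_cl _ _ (by simp) (by intros; ring)]
  simp
omit [DecidableEq V] in
theorem ferS_eq (k : V → ℤ) (A : Finset (Vx V)) : ferS k A = ferC k (cl A) := by
  rw [ferC, basic_sum_cl _ _ (by simp) (by intros; split_ifs <;> rfl), ferS, card_filter]
omit [DecidableEq V] in
theorem etaC_add (β β' : V →₀ ℕ) : etaC η (β + β') = etaC η β + etaC η β' :=
  Finsupp.sum_add_index' (by simp) (by intros; push_cast; ring)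
omit [DecidableEq V] in
theorem aC_add_left (β β' γ : V →₀ ℕ) : aC a (β + β') γ = aC a β γ + aC a β' γ :=
  Finsupp.sum_add_index' (by simp) (by intros; simp only [add_mul, Finsupp.sum_add])
omit [DecidableEq V] in
theorem aC_add_right (β β' γ : V →₀ ℕ) : aC a γ (β + β') = aC a γ β + aC a γ β' := by
  rw [aC, aC, aC, ← Finsupp.sum_add]
  exact Finsupp.sum_congr fun i _ => Finsupp.sum_add_index' (by simp) (by intros; ring)
omit [DecidableEq V] in
theorem ferC_add (β β' : V →₀ ℕ) : ferC k (β + β') = ferC k β + ferC k β' :=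
  Finsupp.sum_add_index' (by simp) (by intros; split_ifs <;> rfl)
theorem etaS_union (h : Disjoint A B) : etaS η (A ∪ B) = etaS η A + etaS η B := sum_union h
theorem etaS_sdiff (h : A ⊆ B) : etaS η (B \ A) = etaS η B - etaS η A :=
  eq_sub_of_add_eq (sum_sdiff h)
theorem aS_union_left (h : Disjoint A A') : aS a (A ∪ A') B = aS a A B + aS a A' B := sum_union h
theorem aS_union_right (h : Disjoint B B') : aS a A (B ∪ B') = aS a A B + aS a A B' := by
  simp only [aS, sum_union h, sum_add_distrib]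
omit [DecidableEq V] in
theorem sym_of_class (h : ∀ β β', etaC η β = 0 → etaC η β' = 0 → aC a β β' = aC a β' β) :
    Sym a η := fun A B hA hB => by
  rw [aS_eq, aS_eq]
  exact h _ _ (by rw [← etaS_eq, hA]) (by rw [← etaS_eq, hB])

omit [DecidableEq V] in
theorem Kr_empty_left : Kr a ∅ B = 1 := by simp [Kr]
omit [DecidableEq V] in
theorem Kr_empty_right : Kr a A ∅ = 1 := by simp [Kr]
theorem Kr_union_left (h : Disjoint A A') : Kr a (A ∪ A') B = Kr a A B * Kr a A' B := prod_union h
theorem Kr_union_right (h : Disjoint B B') : Kr a A (B ∪ B') = Kr a A B * Kr a A B' := by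
  simp only [Kr, prod_union h, prod_mul_distrib]
omit [DecidableEq V] in
theorem Kr_dvd (hA : A ⊆ A') (hB : B ⊆ B') : Kr a A B ∣ Kr a A' B' :=
  (prod_dvd_prod_of_dvd _ _ fun _ _ => prod_dvd_prod_of_subset _ _ _ hB).trans
    (prod_dvd_prod_of_subset _ _ _ hA)
omit [DecidableEq V] in
theorem RS_mono (h : A ⊆ B) : RS A ≤ RS B := supported_mono h
omit [DecidableEq V] in
theorem RS_le_RC (h : Disjoint A B) : RS A ≤ RC B :=
  supported_mono fun _ hs => disjoint_left.1 h hs
omit [DecidableEq V] in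
theorem X_mem_RS {s : Vx V} (h : s ∈ S) : (X s : R V) ∈ RS S := X_mem_supported.2 h
omit [DecidableEq V] in
theorem Kr_mem (hA : A ⊆ S) (hB : B ⊆ S) : Kr a A B ∈ RS S :=
  prod_mem fun _ hs => prod_mem fun _ ht =>
    pow_mem (sub_mem (X_mem_RS (hA hs)) (X_mem_RS (hB ht))) _
omit [DecidableEq V] in
theorem Kr_hom (a : V → V → ℕ) (A B : Finset (Vx V)) : (Kr a A B).IsHomogeneous (aS a A B) :=
  IsHomogeneous.prod _ _ _ fun s _ => IsHomogeneous.prod _ _ _ fun t _ => by
    simpa using ((isHomogeneous_X ℚ s).sub (isHomogeneous_X ℚ t)).pow (a s.1 t.1)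
omit [DecidableEq V] in
theorem pw_mem (B : Finset (Vx V)) : pw B ∈ RS B := sum_mem fun _ hs => X_mem_RS hs
omit [DecidableEq V] in
theorem pw_hom (B : Finset (Vx V)) : (pw B).IsHomogeneous 1 :=
  IsHomogeneous.sum _ _ _ fun s _ => isHomogeneous_X ℚ s
omit [DecidableEq V] in
/-- two algebra maps which agree on the variables of `S` agree on `RS S` -/
theorem basic_RS_ext {T : Type} [CommRing T] [Algebra ℚ T] {φ ψ : R V →ₐ[ℚ] T}
    (h : ∀ s ∈ S, φ (X s) = ψ (X s)) {f : R V} (hf : f ∈ RS S) : φ f = ψ f := by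
  have : RS S ≤ AlgHom.equalizer φ ψ := by
    rw [RS, supported_eq_adjoin_X, Algebra.adjoin_le_iff]
    rintro _ ⟨s, hs, rfl⟩
    exact h s hs
  exact this hf
omit [DecidableEq V] in
/-- an algebra map sends `RS S` into `W` if it does so for the variables -/
theorem basic_RS_map {T : Type} [CommRing T] [Algebra ℚ T] {φ : R V →ₐ[ℚ] T} {W : Subalgebra ℚ T}
    (h : ∀ s ∈ S, φ (X s) ∈ W) {f : R V} (hf : f ∈ RS S) : φ f ∈ W := by
  have : RS S ≤ W.comap φ := by
    rw [RS, supported_eq_adjoin_X, Algebra.adjoin_le_iff]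
    rintro _ ⟨s, hs, rfl⟩
    exact h s hs
  exact this hf
/-- a quotient of two elements of `RS S` can be chosen in `RS S` (kill the other variables) -/
theorem dvd_RS {x y : R V} (hx : x ∈ RS S) (hy : y ∈ RS S) (h : x ∣ y) :
    ∃ z ∈ RS S, y = x * z := by
  obtain ⟨z, hz⟩ := h
  let π : R V →ₐ[ℚ] R V := aeval fun s => if s ∈ S then X s else 0
  have h1 : ∀ f ∈ RS S, π f = f := fun f hf =>
    basic_RS_ext (ψ := AlgHom.id ℚ _) (fun s hs => by simp [π, hs]) hf
  have h2 : ∀ f, π f ∈ RS S := fun f => by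
    induction f using MvPolynomial.induction_on with
    | C c => rw [algHom_C]; exact Subalgebra.algebraMap_mem _ c
    | add f g hf hg => rw [map_add]; exact add_mem hf hg
    | mul_X f s hf =>
      rw [map_mul, aeval_X]
      refine mul_mem hf ?_
      split_ifs with hs
      exacts [X_mem_RS hs, zero_mem _]
  exact ⟨π z, h2 z, by rw [← h1 y hy, hz, map_mul, h1 x hx]⟩

omit [DecidableEq V] in
theorem act_one (f : R V) : act 1 f = f := rename_id_apply f
omit [DecidableEq V] in
theorem act_mul (g h : Gf V) (f : R V) : act (g * h) f = act g (act h f) :=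
  (rename_rename h.1 g.1 f).symm
omit [DecidableEq V] in
theorem act_X (g : Gf V) (s : Vx V) : act g (X s) = X (g.1 s) := rename_X _ s
theorem img_one (S : Finset (Vx V)) : img 1 S = S := image_id
theorem img_mul (g h : Gf V) (S : Finset (Vx V)) : img (g * h) S = img g (img h S) :=
  (image_image (f := h.1) (g := g.1)).symm
theorem mem_img {g : Gf V} {s : Vx V} : s ∈ img g S ↔ g⁻¹.1 s ∈ S := by
  rw [img, mem_image]
  constructor
  · rintro ⟨t, ht, rfl⟩; simpa using ht
  · exact fun h => ⟨_, h, by simp⟩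
theorem basic_apply_mem_img {g : Gf V} {s : Vx V} : g.1 s ∈ img g S ↔ s ∈ S := by simp [mem_img]
theorem img_inj (g : Gf V) : Function.Injective (img g) := image_injective g.1.injective
theorem img_sdiff (g : Gf V) : img g (A \ B) = img g A \ img g B := image_sdiff _ _ g.1.injective
theorem img_union (g : Gf V) : img g (A ∪ B) = img g A ∪ img g B := image_union _ _
theorem img_disjoint (g : Gf V) : Disjoint (img g A) (img g B) ↔ Disjoint A B :=
  disjoint_image g.1.injective
theorem img_subset (g : Gf V) : img g A ⊆ img g B ↔ A ⊆ B := image_subset_image_iff g.1.injective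
theorem basic_card_img (g : Gf V) (S : Finset (Vx V)) : (img g S).card = S.card :=
  card_image_of_injective _ g.1.injective
omit [DecidableEq V] in
theorem basic_apply_mem_of_mem_GS {g : Gf V} (hg : g ∈ GS S) {s : Vx V} (hs : s ∈ S) : g.1 s ∈ S := by
  by_contra hc
  exact hc ((g.1.injective (mem_GS.1 hg _ hc)).symm ▸ hs)
theorem basic_img_eq_of_maps {g : Gf V} (h : ∀ s ∈ A, g.1 s ∈ B) (hc : B.card ≤ A.card) :
    img g A = B :=
  eq_of_subset_of_card_le (image_subset_iff.2 h) (by rwa [basic_card_img])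
theorem img_of_mem_GS {g : Gf V} (hg : g ∈ GS S) : img g S = S :=
  basic_img_eq_of_maps (fun _ hs => basic_apply_mem_of_mem_GS hg hs) le_rfl
theorem img_of_disjoint {g : Gf V} (hg : g ∈ GS A) (h : Disjoint A B) : img g B = B :=
  basic_img_eq_of_maps (fun s hs => by rwa [mem_GS.1 hg s (disjoint_right.1 h hs)]) le_rfl
theorem cl_img (g : Gf V) (S : Finset (Vx V)) : cl (img g S) = cl S := by
  rw [cl, img, sum_image g.1.injective.injOn]
  exact sum_congr rfl fun s _ => by rw [g.2.1 s]
theorem act_Kr (g : Gf V) : act g (Kr a A B) = Kr a (img g A) (img g B) := by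
  simp only [Kr, img, prod_image g.1.injective.injOn, map_prod, map_pow, map_sub, act_X, g.2.1]
theorem act_pw (g : Gf V) : act g (pw B) = pw (img g B) := by
  simp only [pw, img, sum_image g.1.injective.injOn, map_sum, act_X]
omit [DecidableEq V] in
theorem one_mem_GS : (1 : Gf V) ∈ GS S := mem_GS.2 fun _ _ => rfl
omit [DecidableEq V] in
theorem mul_mem_GS {g h : Gf V} (hg : g ∈ GS S) (hh : h ∈ GS S) : g * h ∈ GS S :=
  mem_GS.2 fun s hs => by
    rw [Subgroup.coe_mul, Equiv.Perm.mul_apply, mem_GS.1 hh s hs, mem_GS.1 hg s hs]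
omit [DecidableEq V] in
theorem inv_mem_GS {g : Gf V} (hg : g ∈ GS S) : g⁻¹ ∈ GS S :=
  mem_GS.2 fun s hs => by
    rw [Subgroup.coe_inv, Equiv.Perm.inv_eq_iff_eq, mem_GS.1 hg s hs]
omit [DecidableEq V] in
theorem GS_mono (h : A ⊆ B) : GS A ⊆ GS B := fun _ hg =>
  mem_GS.2 fun s hs => mem_GS.1 hg s fun hA => hs (h hA)

theorem basic_cl_sdiff_add (h : A ⊆ B) : cl (B \ A) + cl A = cl B := sum_sdiff h
theorem exists_subset_cl {β β' : V →₀ ℕ} (h : cl S = β + β') :
    ∃ A, A ⊆ S ∧ cl A = β ∧ cl (S \ A) = β' := by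
  have h1 : ∀ i, ∃ t, t ⊆ (S.filter fun s => s.1 = i) ∧ t.card = β i := fun i =>
    exists_subset_card_eq (by rw [← cl_apply, h]; simp)
  choose f hf hf' using h1
  have h2 : cl (S.filter fun s => s ∈ f s.1) = β := by
    ext i
    rw [cl_apply, ← hf' i]
    congr 1
    ext s
    simp only [mem_filter]
    constructor
    · rintro ⟨⟨-, h⟩, rfl⟩; exact h
    · intro hs
      obtain ⟨h3, rfl⟩ := mem_filter.1 (hf i hs)
      exact ⟨⟨h3, hs⟩, rfl⟩
  refine ⟨_, filter_subset _ _, h2, ?_⟩
  have h3 := basic_cl_sdiff_add (filter_subset (fun s => s ∈ f s.1) S)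
  rw [h2, h, add_comm β] at h3
  exact add_right_cancel h3
theorem OP.basic_mem_iff {r : ℕ} {B : Fin r → Finset (Vx V)} (h : OP S B) {s : Vx V} :
    s ∈ S ↔ ∃ j, s ∈ B j := by
  rw [← h.2]; simp
theorem OP.subset {r : ℕ} {B : Fin r → Finset (Vx V)} (h : OP S B) (j : Fin r) : B j ⊆ S :=
  fun _ hs => h.basic_mem_iff.2 ⟨j, hs⟩
theorem OP.basic_cons {r : ℕ} {B : Fin r → Finset (Vx V)} (hA : A ⊆ S) (h : OP (S \ A) B) :
    OP S (Fin.cons A B : Fin (r + 1) → Finset (Vx V)) := by
  have hd : ∀ j, Disjoint A (B j) := fun j => disjoint_sdiff.mono_right (h.subset j)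
  refine ⟨fun j j' hj => ?_, ?_⟩
  · induction j using Fin.cases with
    | zero =>
      induction j' using Fin.cases with
      | zero => exact absurd rfl hj
      | succ j' => exact hd j'
    | succ j =>
      induction j' using Fin.cases with
      | zero => exact (hd j).symm
      | succ j' => exact h.1 j j' fun e => hj (by rw [e])
  · ext s
    simp only [mem_biUnion, mem_univ, true_and, Fin.exists_fin_succ, Fin.cons_zero, Fin.cons_succ,
      ← h.basic_mem_iff, mem_sdiff]
    have := @hA s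
    tauto
theorem OP.basic_tail {r : ℕ} {B : Fin (r + 1) → Finset (Vx V)} (h : OP S B) :
    OP (S \ B 0) fun j : Fin r => B j.succ := by
  refine ⟨fun j j' hj => h.1 _ _ fun e => hj (Fin.succ_injective _ e), ?_⟩
  ext s
  simp only [mem_biUnion, mem_univ, true_and, mem_sdiff, h.basic_mem_iff, Fin.exists_fin_succ]
  constructor
  · rintro ⟨j, hj⟩
    exact ⟨Or.inr ⟨j, hj⟩, disjoint_left.1 (h.1 _ _ (Fin.succ_ne_zero j)) hj⟩
  · tauto
theorem exists_OP {r : ℕ} (β : Fin r → V →₀ ℕ) (h : cl S = ∑ j, β j) :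
    ∃ B : Fin r → Finset (Vx V), OP S B ∧ ∀ j, cl (B j) = β j := by
  induction r generalizing S with
  | zero =>
    rw [Fin.sum_univ_zero, cl_eq_zero] at h
    exact ⟨Fin.elim0, ⟨fun j => j.elim0, by simp [h]⟩, fun j => j.elim0⟩
  | succ r ih =>
    rw [Fin.sum_univ_succ] at h
    obtain ⟨A, hA, h1, h2⟩ := exists_subset_cl h
    obtain ⟨B, hB, h3⟩ := ih _ h2
    exact ⟨Fin.cons A B, hB.basic_cons hA, fun j => Fin.cases h1 h3 j⟩
theorem OP.cl_eq {r : ℕ} {B : Fin r → Finset (Vx V)} (h : OP S B) : cl S = ∑ j, cl (B j) := by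
  rw [← h.2]
  exact sum_biUnion fun j _ j' _ hj => h.1 j j' hj
theorem OP.img {r : ℕ} {B : Fin r → Finset (Vx V)} (h : OP S B) (g : Gf V) :
    OP (img g S) fun j => img g (B j) :=
  ⟨fun j j' hj => (img_disjoint g).2 (h.1 j j' hj), by
    ext s
    simp only [mem_biUnion, mem_univ, true_and, mem_img, h.basic_mem_iff]⟩
theorem basic_exists_extend (S : Finset (Vx V)) (e : Equiv.Perm {s // s ∈ S})
    (he : ∀ s, (e s).1.1 = s.1.1) : ∃ g ∈ GS S, ∀ s (hs : s ∈ S), g.1 s = e ⟨s, hs⟩ := by
  refine ⟨⟨Equiv.Perm.ofSubtype e, fun s => ?_, S.finite_toSet.subset fun s hs => ?_⟩,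
    mem_GS.2 fun s hs => Equiv.Perm.ofSubtype_apply_of_not_mem e hs,
    fun s hs => Equiv.Perm.ofSubtype_apply_of_mem e hs⟩
  · by_cases hs : s ∈ S
    · rw [Equiv.Perm.ofSubtype_apply_of_mem e hs, he]
    · rw [Equiv.Perm.ofSubtype_apply_of_not_mem e hs]
  · by_contra hc
    exact hs (Equiv.Perm.ofSubtype_apply_of_not_mem e hc)
theorem ext_perm {ι : Type} [DecidableEq ι] (S : Finset (Vx V)) (l l' : Vx V → ι)
    (h : ∀ j, cl (S.filter fun s => l s = j) = cl (S.filter fun s => l' s = j)) :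
    ∃ g ∈ GS S, ∀ s ∈ S, l' (g.1 s) = l s := by
  have h1 : ∀ (l : Vx V → ι) (c : ι × V), Fintype.card {s : {s // s ∈ S} // (l s.1, s.1.1) = c}
      = cl (S.filter fun s => l s = c.1) c.2 := fun l c => by
    rw [Fintype.card_subtype, univ_eq_attach, filter_attach (fun s => (l s, s.1) = c), card_map,
      card_attach, cl_apply, filter_filter]
    simp only [Prod.ext_iff]
  let e : ∀ c : ι × V, {s : {s // s ∈ S} // (l s.1, s.1.1) = c} ≃
      {s : {s // s ∈ S} // (l' s.1, s.1.1) = c} :=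
    fun c => Fintype.equivOfCardEq (by rw [h1, h1, h])
  have h2 := fun s => Prod.ext_iff.1 (Equiv.ofFiberEquiv_map e s)
  obtain ⟨g, hg, hg'⟩ := basic_exists_extend S (Equiv.ofFiberEquiv e) fun s => (h2 s).2
  exact ⟨g, hg, fun s hs => by rw [hg' s hs]; exact (h2 ⟨s, hs⟩).1⟩
theorem exists_img (h : cl A = cl B) : ∃ g : Gf V, img g A = B := by
  have h1 : ∀ A S : Finset (Vx V), A ⊆ S → (S.filter fun s => decide (s ∈ A) = true) = A ∧
      (S.filter fun s => decide (s ∈ A) = false) = S \ A := fun A S hA =>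
    ⟨by ext s; simpa using @hA s, by ext s; simp⟩
  obtain ⟨g, -, hg⟩ := ext_perm (A ∪ B) (fun s => decide (s ∈ A)) (fun s => decide (s ∈ B))
    fun j => by
      cases j
      · rw [(h1 _ _ subset_union_left).2, (h1 _ _ subset_union_right).2]
        refine add_right_cancel (b := cl A) ?_
        rw [basic_cl_sdiff_add subset_union_left, h, basic_cl_sdiff_add subset_union_right]
      · rw [(h1 _ _ subset_union_left).1, (h1 _ _ subset_union_right).1, h]
  refine ⟨g, basic_img_eq_of_maps (fun s hs => ?_) (by rw [card_eq_degree, card_eq_degree, h])⟩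
  simpa [hs] using hg s (mem_union_left _ hs)
theorem OP.basic_label {r : ℕ} {B : Fin r → Finset (Vx V)} (h : OP S B) :
    ∃ l : Vx V → Option (Fin r), (S.filter fun s => l s = none) = ∅ ∧
      ∀ j, (S.filter fun s => l s = some j) = B j := by
  refine ⟨fun s => if hs : s ∈ S then some (h.basic_mem_iff.1 hs).choose else none, ?_, fun j => ?_⟩
  · exact filter_eq_empty_iff.2 fun s hs => by simp [hs]
  · ext s
    rw [mem_filter]
    constructor
    · rintro ⟨hs, h1⟩
      simp only [dif_pos hs, Option.some_inj] at h1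
      exact h1 ▸ (h.basic_mem_iff.1 hs).choose_spec
    · intro hs
      have h1 := h.subset j hs
      refine ⟨h1, ?_⟩
      simp only [dif_pos h1, Option.some_inj]
      by_contra hc
      exact disjoint_left.1 (h.1 _ _ hc) (h.basic_mem_iff.1 h1).choose_spec hs
theorem exists_blocks {r : ℕ} {B B' : Fin r → Finset (Vx V)} (hB : OP S B) (hB' : OP S B')
    (h : ∀ j, cl (B j) = cl (B' j)) : ∃ g ∈ GS S, ∀ j, img g (B j) = B' j := by
  obtain ⟨l, h1, h2⟩ := hB.basic_label
  obtain ⟨l', h1', h2'⟩ := hB'.basic_label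
  obtain ⟨g, hg, hg'⟩ := ext_perm S l l' fun j => by
    cases j
    · rw [h1, h1']
    · rw [h2, h2', h]
  refine ⟨g, hg, fun j => basic_img_eq_of_maps (fun s hs => ?_)
    (by rw [card_eq_degree, card_eq_degree, h])⟩
  rw [← h2, mem_filter] at hs
  rw [← h2', mem_filter, hg' s hs.1]
  exact ⟨basic_apply_mem_of_mem_GS hg hs.1, hs.2⟩
theorem exists_restrict {g : Gf V} (h : img g A = A) :
    ∃ g' ∈ GS A, ∀ s ∈ A, g'.1 s = g.1 s := by
  have h1 : ∀ s, g.1 s ∈ A ↔ s ∈ A := fun s => by rw [← basic_apply_mem_img (g := g) (s := s), h]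
  exact basic_exists_extend A (g.1.subtypePerm h1) fun s => g.2.1 s.1
/-- the swap of two variables of the same colour -/
def basicSwp (s t : Vx V) (h : t.1 = s.1) : Gf V :=
  ⟨Equiv.swap s t, fun x => by
    rw [Equiv.swap_apply_def]
    split_ifs with h1 h2
    · rw [h1, h]
    · rw [h2, h]
    · rfl, (Set.toFinite {s, t}).subset fun x hx => by
    by_contra hc
    simp only [Set.mem_insert_iff, Set.mem_singleton_iff, not_or] at hc
    exact hx (Equiv.swap_apply_of_ne_of_ne hc.1 hc.2)⟩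
theorem basic_swp_mem_GS {s t : Vx V} (h : t.1 = s.1) (hs : s ∈ S) (ht : t ∈ S) : basicSwp s t h ∈ GS S :=
  mem_GS.2 fun _ hx => Equiv.swap_apply_of_ne_of_ne (fun e => hx (e ▸ hs)) fun e => hx (e ▸ ht)
theorem exists_swap (k : V → ℤ) (φ : Gf V) (hd : Disjoint A (img φ A)) :
    ∃ h ∈ GS (A ∪ img φ A), (∀ s ∈ A, h.1 s = φ.1 s) ∧ (∀ s ∈ A, h.1 (φ.1 s) = s) ∧
      chi k h = (-1) ^ ferS k A := by
  induction A using Finset.induction_on with
  | empty => exact ⟨1, one_mem_GS, by simp, by simp, by simp [ferS]⟩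
  | insert s A hs ih =>
    have hsub : A ⊆ insert s A := subset_insert s A
    obtain ⟨h, hh, h1, h2, h3⟩ := ih (hd.mono hsub ((img_subset φ).2 hsub))
    have hne : ∀ x ∈ insert s A, ∀ y ∈ insert s A, φ.1 x ≠ y := fun x hx y hy e =>
      disjoint_left.1 hd hy (e ▸ basic_apply_mem_img.2 hx)
    have hs0 := mem_insert_self s A
    have e1 : h.1 s = s := mem_GS.1 hh s fun hc => (mem_union.1 hc).elim hs fun hc => by
      obtain ⟨x, hx, e⟩ := mem_image.1 hc
      exact hne x (hsub hx) s hs0 e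
    have e2 : h.1 (φ.1 s) = φ.1 s := mem_GS.1 hh _ fun hc => (mem_union.1 hc).elim
      (fun hc => hne s hs0 _ (hsub hc) rfl) fun hc => hs (basic_apply_mem_img.1 hc)
    refine ⟨basicSwp s (φ.1 s) (φ.2.1 s) * h, mul_mem_GS (basic_swp_mem_GS _ (mem_union_left _ hs0)
      (mem_union_right _ (basic_apply_mem_img.2 hs0)))
      (GS_mono (union_subset_union hsub ((img_subset φ).2 hsub)) hh), fun x hx => ?_,
      fun x hx => ?_, ?_⟩
    · change Equiv.swap s (φ.1 s) (h.1 x) = _
      rcases mem_insert.1 hx with rfl | hx'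
      · rw [e1, Equiv.swap_apply_left]
      · rw [h1 x hx', Equiv.swap_apply_of_ne_of_ne (hne x hx s hs0)
          fun e => hs (by rw [← φ.1.injective e]; exact hx')]
    · change Equiv.swap s (φ.1 s) (h.1 (φ.1 x)) = _
      rcases mem_insert.1 hx with rfl | hx'
      · rw [e2, Equiv.swap_apply_right]
      · rw [h2 x hx', Equiv.swap_apply_of_ne_of_ne (fun e => hs (by rw [← e]; exact hx'))
          (hne s hs0 x hx).symm]
    · rw [map_mul, h3, chi_swap k _ s (φ.1 s) (hne s hs0 s hs0).symm rfl, ferS, ferS, filter_insert]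
      split_ifs with ho
      · rw [card_insert_of_notMem fun hc => hs (mem_filter.1 hc).1, pow_succ']
      · rw [one_mul]

end
end Vale.Agent.P066.A
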