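import Mathlib

/-!
P066 part A, file Chi (TASK A0).  Finitary colour preserving permutations of the variable set
`V × ℕ` and the character `chi` (sign of the permutation restricted to fermionic colours, a colour
`i` being fermionic iff `k i` is odd).

Plan for `exists_chi`: for `g` in `Gf` and a finset `T` of fermionic variables containing all moved
fermionic variables, `g` restricts to a permutation of the subtype `T`; its sign does not depend
on `T` (for `T ⊆ T'` use `Equiv.Perm.sign_subtypePerm` inside the fintype `T'`, or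
`Equiv.Perm.sign_extendDomain` / `sign_ofSubtype`), hence it is multiplicative (take `T` large
enough for both factors).  For a swap take `T = {s,t}` or `T = ∅`.
-/

namespace Vale.Agent.P066.A

abbrev Vx (V : Type) := V × ℕ

/-- colour preserving permutations moving finitely many variables -/
def Gf (V : Type) : Subgroup (Equiv.Perm (Vx V)) where
  carrier := {g | (∀ s, (g s).1 = s.1) ∧ {s | g s ≠ s}.Finite}
  one_mem' := ⟨fun _ => rfl, by simp⟩
  mul_mem' := by
    rintro g h ⟨hg, hg'⟩ ⟨hh, hh'⟩
    refine ⟨fun s => by simp [hg, hh], (hg'.union hh').subset ?_⟩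
    intro s hs
    by_contra hc
    simp only [Set.mem_union, Set.mem_ofPred_eq, not_or, not_not] at hc
    exact hs (by simp [hc.2, hc.1])
  inv_mem' := by
    rintro g ⟨hg, hg'⟩
    refine ⟨fun s => ?_, hg'.subset ?_⟩
    · have := hg (g⁻¹ s); simpa using this.symm
    · intro s hs hc
      apply hs
      have : g⁻¹ (g s) = s := by simp
      rwa [hc] at this

namespace ChiAux

variable {V : Type} [DecidableEq V] (k : V → ℤ)

/-- `T` consists of fermionic variables and contains all those which are moved by `g` -/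
def Ok (g : Gf V) (T : Finset (Vx V)) : Prop :=
  (∀ x ∈ T, Odd (k x.1)) ∧ ∀ x, Odd (k x.1) → g.1 x ≠ x → x ∈ T

variable {k}

omit [DecidableEq V] in
theorem Ok.inv {g : Gf V} {T : Finset (Vx V)} (h : Ok k g T) (x : Vx V) : g.1 x ∈ T ↔ x ∈ T := by
  by_cases hx : g.1 x = x
  · rw [hx]
  · have h1 := g.2.1 x
    exact ⟨fun h2 => h.2 x (h1 ▸ h.1 _ h2) hx,
      fun h2 => h.2 _ (h1.symm ▸ h.1 _ h2) fun h3 => hx (g.1.injective h3)⟩

/-- the sign of the restriction to `T` -/
def sg {g : Gf V} {T : Finset (Vx V)} (h : Ok k g T) : ℤˣ :=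
  Equiv.Perm.sign (g.1.subtypePerm (p := fun x => x ∈ T) h.inv)

theorem sg_mono {g : Gf V} {T T' : Finset (Vx V)} (h : Ok k g T) (h' : Ok k g T') (hT : T ⊆ T') :
    sg h = sg h' := by
  rw [sg, sg, ← Equiv.Perm.sign_subtypePerm (g.1.subtypePerm (p := fun x => x ∈ T') h'.inv)
    (p := fun x => x.1 ∈ T) (fun x => h.inv x.1)
    fun x hx => h.2 x.1 (h'.1 _ x.2) fun h1 => hx (Subtype.ext h1)]
  exact (Equiv.Perm.sign_eq_sign_of_equiv _ _
    (Equiv.subtypeSubtypeEquivSubtype (p := fun x => x ∈ T') (q := fun x => x ∈ T)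
      fun h => hT h) fun x => rfl).symm

theorem Ok.union {g g' : Gf V} {T T' : Finset (Vx V)} (h : Ok k g T) (h' : Ok k g' T') :
    Ok k g (T ∪ T') :=
  ⟨fun x hx => (Finset.mem_union.1 hx).elim (h.1 x) (h'.1 x),
    fun x hx hx' => Finset.mem_union_left _ (h.2 x hx hx')⟩

theorem sg_eq {g : Gf V} {T T' : Finset (Vx V)} (h : Ok k g T) (h' : Ok k g T') : sg h = sg h' := by
  have h1 := h.union h'
  rw [sg_mono h h1 Finset.subset_union_left, sg_mono h' h1 Finset.subset_union_right]

variable (k) in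
omit [DecidableEq V] in
theorem exists_ok (g : Gf V) : ∃ T, Ok k g T := by
  classical
  exact ⟨g.2.2.toFinset.filter fun x => Odd (k x.1), fun x hx => (Finset.mem_filter.1 hx).2,
    fun x hx hx' => Finset.mem_filter.2 ⟨by simpa using hx', hx⟩⟩

variable (k) in
/-- the sign character -/
noncomputable def sgn : Gf V →* ℤˣ :=
  MonoidHom.mk' (fun g => sg (exists_ok k g).choose_spec) fun g g' => by
    obtain ⟨T, hT⟩ := exists_ok k g
    obtain ⟨T', hT'⟩ := exists_ok k g'
    have h1 := hT.union hT'
    have h2 : Ok k g' (T ∪ T') := Finset.union_comm T' T ▸ hT'.union hT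
    have h3 : Ok k (g * g') (T ∪ T') := ⟨h1.1, fun x hx hx' => by
      by_contra hc
      have e1 : g'.1 x = x := by by_contra h; exact hc (h2.2 x hx h)
      have e2 : g.1 x = x := by by_contra h; exact hc (h1.2 x hx h)
      exact hx' (by rw [Subgroup.coe_mul, Equiv.Perm.mul_apply, e1, e2])⟩
    rw [sg_eq _ h1, sg_eq _ h2, sg_eq _ h3, sg, sg, sg, ← map_mul]
    rfl

theorem sgn_eq {g : Gf V} {T : Finset (Vx V)} (h : Ok k g T) : sgn k g = sg h :=
  sg_eq (exists_ok k g).choose_spec h

end ChiAux

open ChiAux in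
theorem exists_chi {V : Type} [DecidableEq V] (k : V → ℤ) :
    ∃ χ : Gf V →* ℚ, ∀ (g : Gf V) (s t : Vx V), s ≠ t → g.1 = Equiv.swap s t →
      χ g = if Odd (k s.1) then -1 else 1 := by
  refine ⟨((Int.castRingHom ℚ).toMonoidHom.comp (Units.coeHom ℤ)).comp (sgn k),
    fun g s t hst hg => ?_⟩
  have hc : t.1 = s.1 := by
    have := g.2.1 s
    rwa [hg, Equiv.swap_apply_left] at this
  have hmv : ∀ x, g.1 x ≠ x → x = s ∨ x = t := fun x hx => by
    by_contra h
    rw [not_or] at h
    exact hx (by rw [hg, Equiv.swap_apply_of_ne_of_ne h.1 h.2])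
  change (((sgn k g : ℤˣ) : ℤ) : ℚ) = _
  split_ifs with h
  · have h1 : Ok k g {s, t} := ⟨fun x hx => by
      rcases Finset.mem_insert.1 hx with rfl | hx
      · exact h
      · rw [Finset.mem_singleton.1 hx, hc]; exact h, fun x _ hx => by simpa using hmv x hx⟩
    have h2 : g.1.subtypePerm (p := fun x => x ∈ ({s, t} : Finset (Vx V))) h1.inv =
        Equiv.swap ⟨s, by simp⟩ ⟨t, by simp⟩ := by
      refine Equiv.ext fun x => Subtype.ext ?_
      rw [Equiv.Perm.subtypePerm_apply, Subtype.val_injective.map_swap]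
      exact DFunLike.congr_fun hg x.1
    rw [sgn_eq h1, sg, h2, Equiv.Perm.sign_swap fun h => hst (congrArg Subtype.val h)]
    simp
  · have h1 : Ok k g ∅ := ⟨by simp, fun x hx hx' => by
      rcases hmv x hx' with rfl | rfl
      · exact absurd hx h
      · exact absurd (hc ▸ hx) h⟩
    rw [sgn_eq h1, sg, Subsingleton.elim (Equiv.Perm.subtypePerm _ _) 1]
    simp

end Vale.Agent.P066.A
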