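import Vale.Agent.P066.A.Basic

/-!
P066 part A, file Contr (TASK A4): contraction functionals, tensor independence, shifts give
non zero divisors.
* `exists_contr`: define `Φ` on monomials (`basisMonomials.constr`) by
  `x^m ↦ φ (x^(m restricted to A)) • x^(m restricted to the complement)`.  Every polynomial is a
  sum of products `f * h`, `f ∈ RS A`, `h ∈ RC A` (`span_prod_RC`).
* `exists_multi`: induction on `r` (contract the block `B 0`, then use the functional for the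
  remaining blocks), or define it directly on monomials.
* `mem_span_RS`: apply the algebra retraction `X s ↦ if s ∈ S then X s else 0`.
* `nzd_of_shift`: let `σ : R → Polynomial R`, `X s ↦ C (X s) + C (C (c s)) * X`; `σ` maps `J` into
  polynomials with coefficients in `J`; in `(R ⧸ J)[z]` the image of `X s - X t` has a unit leading
  coefficient, so it is not a zero divisor; finally evaluate at `z = 0`.
-/

namespace Vale.Agent.P066.A
open MvPolynomial Finset
noncomputable section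

variable {V : Type} [DecidableEq V] {A B S : Finset (Vx V)}

omit [DecidableEq V] in
theorem alg_eq_on {T : Type} [Semiring T] [Algebra ℚ T] (F G : R V →ₐ[ℚ] T) {s : Set (Vx V)}
    (h : ∀ v ∈ s, F (X v) = G (X v)) {f : R V} (hf : f ∈ supported ℚ s) : F f = G f := by
  rw [supported_eq_adjoin_X] at hf
  exact Algebra.adjoin_le (S := AlgHom.equalizer F G) (by rintro _ ⟨v, hv, rfl⟩; exact h v hv) hf

omit [DecidableEq V] in
theorem span_of_supported {Y : Set (R V)} (h1 : 1 ∈ Y) (hm : ∀ x ∈ Y, ∀ y ∈ Y, x * y ∈ Y)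
    {s : Set (Vx V)} (hX : ∀ v ∈ s, X v ∈ Y) {f : R V} (hf : f ∈ supported ℚ s) :
    f ∈ Submodule.span ℚ Y := by
  rw [supported_eq_adjoin_X, ← Subalgebra.mem_toSubmodule, Algebra.adjoin_eq_span] at hf
  refine Submodule.span_mono ?_ hf
  exact Submonoid.closure_le (S := ⟨⟨Y, fun {x y} hx hy => hm x hx y hy⟩, h1⟩) |>.2
    (by rintro _ ⟨v, hv, rfl⟩; exact hX v hv)

omit [DecidableEq V] in
theorem ideal_span_le {G : Set (R V)} {W : Submodule ℚ (R V)} (h : ∀ g ∈ G, ∀ r, r * g ∈ W)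
    {x : R V} (hx : x ∈ Ideal.span G) : x ∈ W := by
  suffices ∀ r, r * x ∈ W by simpa using this 1
  induction hx using Submodule.span_induction with
  | mem g hg => exact h g hg
  | zero => simp
  | add x y _ _ hx hy => exact fun r => by rw [mul_add]; exact add_mem (hx r) (hy r)
  | smul c x _ hx => exact fun r => by rw [smul_eq_mul, ← mul_assoc]; exact hx _

omit [DecidableEq V] in
theorem span_prod_aux {s t u : Set (Vx V)} (h : ∀ v ∈ u, v ∈ s ∨ v ∈ t) {x : R V}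
    (hx : x ∈ supported ℚ u) :
    x ∈ Submodule.span ℚ {y | ∃ f ∈ supported ℚ s, ∃ h ∈ supported ℚ t, y = f * h} := by
  refine span_of_supported ?_ ?_ (fun v hv => ?_) hx
  · exact ⟨1, one_mem _, 1, one_mem _, (mul_one _).symm⟩
  · rintro _ ⟨f, hf, h, hh, rfl⟩ _ ⟨f', hf', h', hh', rfl⟩
    exact ⟨f * f', mul_mem hf hf', h * h', mul_mem hh hh', by ring⟩
  · rcases h v hv with h | h
    · exact ⟨X v, X_mem_supported.2 h, 1, one_mem _, (mul_one _).symm⟩
    · exact ⟨1, one_mem _, X v, X_mem_supported.2 h, (one_mul _).symm⟩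

theorem span_prod_RC (A : Finset (Vx V)) (x : R V) :
    x ∈ Submodule.span ℚ {y | ∃ f ∈ RS A, ∃ h ∈ RC A, y = f * h} := by
  exact span_prod_aux (u := Set.univ) (fun v _ => em _) (by simp)

theorem span_prod_union {x : R V} (hx : x ∈ RS (A ∪ B)) :
    x ∈ Submodule.span ℚ {y | ∃ f ∈ RS A, ∃ h ∈ RS B, y = f * h} := by
  exact span_prod_aux (fun v hv => by simpa using hv) hx

theorem span_prod_OP {r : ℕ} {B : Fin r → Finset (Vx V)} (hB : OP S B) {x : R V}
    (hx : x ∈ RS S) :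
    x ∈ Submodule.span ℚ {y | ∃ w : Fin r → R V, (∀ j, w j ∈ RS (B j)) ∧ y = ∏ j, w j} := by
  refine span_of_supported ?_ ?_ (fun v hv => ?_) hx
  · exact ⟨1, fun _ => one_mem _, by simp⟩
  · rintro _ ⟨w, hw, rfl⟩ _ ⟨w', hw', rfl⟩
    exact ⟨w * w', fun j => mul_mem (hw j) (hw' j), by simp [prod_mul_distrib]⟩
  · rw [← hB.2, mem_coe, mem_biUnion] at hv
    obtain ⟨j, -, hj⟩ := hv
    refine ⟨Pi.mulSingle j (X v), fun j' => ?_, by simp⟩
    by_cases h : j' = j
    · subst h; simpa using X_mem_RS hj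
    · rw [Pi.mulSingle_eq_of_ne h]; exact one_mem _

theorem exists_contr (A : Finset (Vx V)) (φ : R V →ₗ[ℚ] ℚ) :
    ∃ Φ : R V →ₗ[ℚ] R V, (∀ f ∈ RS A, ∀ h ∈ RC A, Φ (f * h) = φ f • h) ∧
      (∀ J : Ideal (R V), GenIn (RS A) J → (∀ f ∈ J, φ f = 0) → ∀ x ∈ J, Φ x = 0) ∧
      (∀ J : Ideal (R V), GenIn (RC A) J → ∀ x ∈ J, Φ x ∈ J) := by
  let Δ : R V →ₐ[ℚ] TensorProduct ℚ (R V) (R V) := aeval fun s =>
    if s ∈ A then X s ⊗ₜ 1 else 1 ⊗ₜ X s
  let Φ : R V →ₗ[ℚ] R V :=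
    (TensorProduct.lid ℚ (R V)).toLinearMap ∘ₗ φ.rTensor (R V) ∘ₗ Δ.toLinearMap
  have h : ∀ f ∈ RS A, ∀ h ∈ RC A, Φ (f * h) = φ f • h := fun f hf h hh => by
    have h1 : Δ f = f ⊗ₜ 1 := alg_eq_on Δ Algebra.TensorProduct.includeLeft
      (fun v hv => by simp [Δ, mem_coe.1 hv]) hf
    have h2 : Δ h = 1 ⊗ₜ h := alg_eq_on Δ Algebra.TensorProduct.includeRight
      (fun v hv => by simp [Δ, show v ∉ A from hv]) hh
    simp [Φ, h1, h2]
  have key : ∀ (W : Submodule ℚ (R V)) (G : Set (R V)),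
      (∀ g ∈ G, ∀ f ∈ RS A, ∀ h ∈ RC A, Φ (f * h * g) ∈ W) → ∀ x ∈ Ideal.span G, Φ x ∈ W := by
    intro W G hG x hx
    refine ideal_span_le (W := W.comap Φ) (fun g hg r => ?_) hx
    refine Submodule.span_le (p := (W.comap Φ).comap (LinearMap.mulRight ℚ g)) |>.2 ?_
      (span_prod_RC A r)
    rintro _ ⟨f, hf, h, hh, rfl⟩
    exact hG g hg f hf h hh
  refine ⟨Φ, h, ?_, ?_⟩
  · rintro _ ⟨G, rfl, hG⟩ hφ
    refine key ⊥ G fun g hg f hf h' hh => ?_
    rw [mul_right_comm, h _ (mul_mem hf (hG g hg)) _ hh,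
      hφ _ (Ideal.mul_mem_left _ _ (Ideal.subset_span hg)), zero_smul]
    exact zero_mem _
  · rintro _ ⟨G, rfl, hG⟩
    refine key ((Ideal.span G).restrictScalars ℚ) G fun g hg f hf h' hh => ?_
    rw [mul_assoc, h _ hf _ (mul_mem hh (hG g hg))]
    exact Submodule.smul_mem _ _ (Ideal.mul_mem_left _ _ (Ideal.subset_span hg))

theorem GenIn.mono {T T' : Subalgebra ℚ (R V)} {J : Ideal (R V)} (h : GenIn T J) (hT : T ≤ T') :
    GenIn T' J := by
  obtain ⟨G, h1, h2⟩ := h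
  exact ⟨G, h1, fun x hx => hT (h2 x hx)⟩

theorem GenIn.sup {T : Subalgebra ℚ (R V)} {J J' : Ideal (R V)} (h : GenIn T J)
    (h' : GenIn T J') : GenIn T (J ⊔ J') := by
  obtain ⟨G, rfl, h2⟩ := h
  obtain ⟨G', rfl, h2'⟩ := h'
  exact ⟨G ∪ G', (Ideal.span_union _ _).symm, fun x hx => hx.elim (h2 x) (h2' x)⟩

theorem GenIn.iSup {T : Subalgebra ℚ (R V)} {ι : Type} {J : ι → Ideal (R V)}
    (h : ∀ i, GenIn T (J i)) : GenIn T (⨆ i, J i) := by
  choose G h1 h2 using h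
  refine ⟨⋃ i, G i, by rw [Ideal.span_iUnion]; exact iSup_congr h1, fun x hx => ?_⟩
  obtain ⟨i, hi⟩ := Set.mem_iUnion.1 hx
  exact h2 i x hi


theorem exists_multi {r : ℕ} {B : Fin r → Finset (Vx V)}
    (hB : ∀ j j', j ≠ j' → Disjoint (B j) (B j')) (φ : Fin r → R V →ₗ[ℚ] ℚ)
    (J : Fin r → Ideal (R V)) (hJ : ∀ j, GenIn (RS (B j)) (J j))
    (hφ : ∀ j, ∀ f ∈ J j, φ j f = 0) :
    ∃ Ψ : R V →ₗ[ℚ] ℚ, (∀ w : Fin r → R V, (∀ j, w j ∈ RS (B j)) →
      Ψ (∏ j, w j) = ∏ j, φ j (w j)) ∧ ∀ x ∈ ⨆ j, J j, Ψ x = 0 := by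
  induction r with
  | zero => exact ⟨(aeval fun _ => 0).toLinearMap, fun w _ => by simp, fun x hx => by
      rw [iSup_of_empty, Ideal.mem_bot] at hx
      rw [hx, map_zero]⟩
  | succ r ih =>
    obtain ⟨Ψ, h1, h2⟩ := ih (B := fun j => B j.succ)
      (fun j j' h => hB _ _ fun h' => h (Fin.succ_injective _ h')) (fun j => φ j.succ)
      (fun j => J j.succ) (fun j => hJ _) fun j => hφ _
    obtain ⟨Φ, k1, k2, k3⟩ := exists_contr (B 0) (φ 0)
    have hle : ∀ j : Fin r, RS (B j.succ) ≤ RC (B 0) := fun j =>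
      RS_le_RC (hB _ _ (Fin.succ_ne_zero j))
    refine ⟨Ψ ∘ₗ Φ, fun w hw => ?_, fun x hx => ?_⟩
    · rw [Fin.prod_univ_succ, Fin.prod_univ_succ, LinearMap.comp_apply,
        k1 _ (hw 0) _ (prod_mem fun j _ => hle j (hw _)), map_smul, h1 _ fun j => hw _,
        smul_eq_mul]
    · induction hx using Submodule.iSup_induction' with
      | mem j x hx =>
        rw [LinearMap.comp_apply]
        induction j using Fin.cases with
        | zero => rw [k2 _ (hJ 0) (hφ 0) x hx, map_zero]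
        | succ j =>
          exact h2 _ (Submodule.mem_iSup_of_mem j (k3 _ ((hJ _).mono (hle j)) x hx))
      | zero => exact map_zero _
      | add x y _ _ hx hy => rw [map_add, hx, hy, add_zero]

theorem mem_span_RS {G : Set (R V)} (hG : ∀ y ∈ G, y ∈ RS S) {x : R V} (hx : x ∈ RS S)
    (h : x ∈ Ideal.span G) :
    x ∈ Submodule.span ℚ {y | ∃ u ∈ G, ∃ r ∈ RS S, y = u * r} := by
  let ρ : R V →ₐ[ℚ] R V := aeval fun s => if s ∈ S then X s else 0
  have h1 : ∀ y ∈ RS S, ρ y = y := fun y hy =>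
    alg_eq_on ρ (AlgHom.id ℚ _) (fun v hv => by simp [ρ, mem_coe.1 hv]) hy
  have h2 : ∀ y, ρ y ∈ RS S := fun y => by
    induction y using MvPolynomial.induction_on with
    | C c => rw [algHom_C]; exact algebraMap_mem _ c
    | add p q hp hq => rw [map_add]; exact add_mem hp hq
    | mul_X p s hp =>
      rw [map_mul, aeval_X]
      refine mul_mem hp ?_
      split_ifs with h
      exacts [X_mem_RS h, zero_mem _]
  rw [← h1 x hx]
  refine Submodule.mem_comap.1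
    (ideal_span_le (W := Submodule.comap ρ.toLinearMap _) (fun g hg r => ?_) h)
  exact Submodule.subset_span ⟨g, hg, ρ r, h2 r, by simp [h1 g (hG g hg), mul_comm]⟩

/-- one variable shift -/
def sh1 (c : Vx V → ℚ) : R V →ₐ[ℚ] Polynomial (R V) :=
  aeval fun s => Polynomial.C (X s) + Polynomial.C (C (c s)) * Polynomial.X

theorem sh1_Kr (a : V → V → ℕ) (c : Vx V → ℚ) (h : ∀ s ∈ A, ∀ t ∈ B, c s = c t) :
    sh1 c (Kr a A B) = Polynomial.C (Kr a A B) := by
  simp only [Kr, map_prod, map_pow]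
  refine prod_congr rfl fun s hs => prod_congr rfl fun t ht => ?_
  simp [sh1, h s hs t ht]

omit [DecidableEq V] in
theorem nzd_aux {Q : Type} [CommRing Q] (q : R V →+* Q) {G : Set (R V)} (c : Vx V → ℚ)
    (hG : ∀ y ∈ G, sh1 c y = Polynomial.C y) (hq : ∀ y ∈ G, q y = 0)
    (a : V → V → ℕ) (h : ∀ s ∈ A, ∀ t ∈ B, c s ≠ c t) {f : R V}
    (hf : Kr a A B * f ∈ Ideal.span G) : q f = 0 := by
  obtain ⟨σ, hσ⟩ : ∃ σ : R V →+* Polynomial Q, ∀ y, σ y = (sh1 c y).map q :=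
    ⟨(Polynomial.mapRingHom q).comp (sh1 c).toRingHom, fun _ => rfl⟩
  have h1 : Ideal.span G ≤ RingHom.ker σ := Ideal.span_le.2 fun y hy => by
    rw [SetLike.mem_coe, RingHom.mem_ker, hσ, hG y hy, Polynomial.map_C, hq y hy, map_zero]
  have h2 : σ (Kr a A B) ∈ nonZeroDivisors _ := by
    simp only [Kr, map_prod, map_pow]
    refine prod_mem fun s hs => prod_mem fun t ht => pow_mem
      (Polynomial.mem_nonzeroDivisors_of_coeff_mem 1 (IsUnit.mem_nonZeroDivisors ?_)) _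
    have h3 : (sh1 c (X s - X t)).coeff 1 = C (c s - c t) := by
      simp [sh1, Polynomial.coeff_C]
    rw [hσ, Polynomial.coeff_map, h3]
    exact ((IsUnit.mk0 _ (sub_ne_zero.2 (h s hs t ht))).map C).map _
  have h4 : σ f = 0 := (mul_left_mem_nonZeroDivisors_eq_zero_iff h2).1 (by
    rw [← map_mul]; exact h1 hf)
  have h5 : (Polynomial.evalRingHom 0).comp (sh1 c).toRingHom = RingHom.id (R V) := by
    refine ringHom_ext (fun r => ?_) fun s => ?_
    · simp [sh1]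
    · simp [sh1]
  have h6 : (sh1 c f).coeff 0 = f := by
    rw [Polynomial.coeff_zero_eq_eval_zero]; exact RingHom.congr_fun h5 f
  rw [← h6, ← Polynomial.coeff_map, ← hσ, h4, Polynomial.coeff_zero]

theorem nzd_of_shift {G : Set (R V)} (c : Vx V → ℚ) (hG : ∀ y ∈ G, sh1 c y = Polynomial.C y)
    (a : V → V → ℕ) (h : ∀ s ∈ A, ∀ t ∈ B, c s ≠ c t) {f : R V}
    (hf : Kr a A B * f ∈ Ideal.span G) : f ∈ Ideal.span G := by
  rw [← Ideal.Quotient.eq_zero_iff_mem]
  exact nzd_aux (Ideal.Quotient.mk (Ideal.span G)) c hG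
    (fun y hy => Ideal.Quotient.eq_zero_iff_mem.2 (Ideal.subset_span hy)) a h hf

end
end Vale.Agent.P066.A
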