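import Vale.Agent.P066.A.Chi

/-!
P066 part A: definitions (final, do not edit).  See notes/P066.md, section A.
Everything happens in one polynomial ring `R V` over the rationals in the variables `V × ℕ`
(colour, index).  `Kr a A B` is the shuffle kernel, `J0 / Jp / Jm` the unstable ideals,
`sh π` the shift of the blocks of a set partition by new variables, `FL` the level filtration,
`W0` the primitive elements.
-/

namespace Vale.Agent.P066.A
open MvPolynomial Finset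
noncomputable section

variable {V : Type} [DecidableEq V]

abbrev R (V : Type) := MvPolynomial (Vx V) ℚ

/-- class (number of variables of each colour) -/
def cl (S : Finset (Vx V)) : V →₀ ℕ := ∑ s ∈ S, Finsupp.single s.1 1
/-- the standard set of class `β` -/
def std (β : V →₀ ℕ) : Finset (Vx V) :=
  β.support.biUnion fun i => (range (β i)).image fun j => (i, j)
def etaS (η : V → ℤ) (S : Finset (Vx V)) : ℤ := ∑ s ∈ S, η s.1
def etaC (η : V → ℤ) (β : V →₀ ℕ) : ℤ := β.sum fun i n => (n : ℤ) * η i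
def aS (a : V → V → ℕ) (A B : Finset (Vx V)) : ℕ := ∑ s ∈ A, ∑ t ∈ B, a s.1 t.1
def aC (a : V → V → ℕ) (β β' : V →₀ ℕ) : ℕ := β.sum fun i n => β'.sum fun j m => n * m * a i j
def ferS (k : V → ℤ) (A : Finset (Vx V)) : ℕ := (A.filter fun s => Odd (k s.1)).card
def ferC (k : V → ℤ) (β : V →₀ ℕ) : ℕ := β.sum fun i n => if Odd (k i) then n else 0
def Kr (a : V → V → ℕ) (A B : Finset (Vx V)) : R V :=
  ∏ s ∈ A, ∏ t ∈ B, (X s - X t) ^ a s.1 t.1
/-- polynomials in the variables of `S` -/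
def RS (S : Finset (Vx V)) : Subalgebra ℚ (R V) := supported ℚ (S : Set (Vx V))
/-- polynomials in the variables outside `S` -/
def RC (S : Finset (Vx V)) : Subalgebra ℚ (R V) := supported ℚ (S : Set (Vx V))ᶜ

def chi (k : V → ℤ) : Gf V →* ℚ := Classical.choose (exists_chi k)

theorem chi_swap (k : V → ℤ) (g : Gf V) (s t : Vx V) (h : s ≠ t) (hg : g.1 = Equiv.swap s t) :
    chi k g = if Odd (k s.1) then -1 else 1 := Classical.choose_spec (exists_chi k) g s t h hg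

omit [DecidableEq V] in
theorem GS_finite (S : Finset (Vx V)) : {g : Gf V | ∀ s, s ∉ S → g.1 s = s}.Finite := by
  classical
  refine Set.Finite.of_finite_image (f := fun g : Gf V => g.1) ?_ (fun _ _ _ _ h => Subtype.ext h)
  refine (permsOfFinset S).finite_toSet.subset ?_
  rintro _ ⟨g, hg, rfl⟩
  simp only [mem_coe, mem_perms_of_finset_iff]
  intro x hx
  by_contra hc
  exact hx (hg x hc)

/-- the finite group of colour preserving permutations of `S` -/
def GS (S : Finset (Vx V)) : Finset (Gf V) := (GS_finite S).toFinset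

omit [DecidableEq V] in
theorem mem_GS {S : Finset (Vx V)} {g : Gf V} : g ∈ GS S ↔ ∀ s, s ∉ S → g.1 s = s := by
  simp [GS]

def act (g : Gf V) : R V →ₐ[ℚ] R V := rename g.1
def img (g : Gf V) (S : Finset (Vx V)) : Finset (Vx V) := S.image g.1

/-- isotypic polynomials in the variables of `S` -/
def Iso (k : V → ℤ) (S : Finset (Vx V)) : Submodule ℚ (R V) where
  carrier := {f | f ∈ RS S ∧ ∀ g ∈ GS S, act g f = chi k g • f}
  zero_mem' := ⟨zero_mem _, fun g _ => by simp⟩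
  add_mem' := fun hf hg => ⟨add_mem hf.1 hg.1, fun g h => by
    rw [map_add, hf.2 g h, hg.2 g h, smul_add]⟩
  smul_mem' := fun c f hf => ⟨Subalgebra.smul_mem _ hf.1 c, fun g h => by
    rw [map_smul, hf.2 g h, smul_comm]⟩

/-- projector onto the isotypic part -/
def Alt (k : V → ℤ) (S : Finset (Vx V)) : R V →ₗ[ℚ] R V :=
  ((GS S).card : ℚ)⁻¹ • ∑ g ∈ GS S, chi k g • (act g).toLinearMap

/-- ordered partition of `S` (blocks may be empty) -/
def OP (S : Finset (Vx V)) {r : ℕ} (B : Fin r → Finset (Vx V)) : Prop :=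
  (∀ j j', j ≠ j' → Disjoint (B j) (B j')) ∧ univ.biUnion B = S

/-- ordered partition of `S` into nonempty blocks of `η`-weight zero -/
def OZ (η : V → ℤ) (S : Finset (Vx V)) {r : ℕ} (B : Fin r → Finset (Vx V)) : Prop :=
  OP S B ∧ ∀ j, (B j).Nonempty ∧ etaS η (B j) = 0

/-- set partition of `S` into nonempty blocks of `η`-weight zero -/
def Part (η : V → ℤ) (S : Finset (Vx V)) (π : Finset (Finset (Vx V))) : Prop :=
  (∀ B ∈ π, B.Nonempty ∧ etaS η B = 0) ∧ (∀ B ∈ π, ∀ B' ∈ π, B ≠ B' → Disjoint B B') ∧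
    π.biUnion id = S

/-- `a` is symmetric on sets of weight zero -/
def Sym (a : V → V → ℕ) (η : V → ℤ) : Prop :=
  ∀ A B : Finset (Vx V), etaS η A = 0 → etaS η B = 0 → aS a A B = aS a B A

def Jp (a : V → V → ℕ) (η : V → ℤ) (A : Finset (Vx V)) : Ideal (R V) :=
  Ideal.span {x | ∃ U, U ⊂ A ∧ etaS η (A \ U) ≤ 0 ∧ x = Kr a U (A \ U)}
def J0 (a : V → V → ℕ) (η : V → ℤ) (B : Finset (Vx V)) : Ideal (R V) :=
  Ideal.span {x | ∃ U, U ⊆ B ∧ 0 < etaS η U ∧ x = Kr a U (B \ U)}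
def Jm (a : V → V → ℕ) (η : V → ℤ) (C : Finset (Vx V)) : Ideal (R V) :=
  Ideal.span {x | ∃ U, U ⊆ C ∧ U.Nonempty ∧ 0 ≤ etaS η U ∧ x = Kr a U (C \ U)}

/-- the ideal is generated by elements of the subalgebra `T` -/
def GenIn (T : Subalgebra ℚ (R V)) (J : Ideal (R V)) : Prop :=
  ∃ G : Set (R V), J = Ideal.span G ∧ ∀ x ∈ G, x ∈ T

/-- doubling all variables; a subspace stable under `scale` is graded -/
def scale : R V →ₐ[ℚ] R V := aeval fun s => (2 : ℚ) • X s

/-- linear independence modulo an ideal -/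
def IndMod {I : Type} (J : Ideal (R V)) (b : I → R V) : Prop :=
  ∀ c : I →₀ ℚ, Finsupp.linearCombination ℚ b c ∈ J → c = 0

/-- `b` is a homogeneous basis of `W` modulo `J`, with degrees `dg` -/
structure GBas {I : Type} (W : Submodule ℚ (R V)) (J : Ideal (R V)) (b : I → R V)
    (dg : I → ℕ) : Prop where
  mem : ∀ i, b i ∈ W
  hom : ∀ i, (b i).IsHomogeneous (dg i)
  ind : IndMod J b
  span : ∀ w ∈ W, ∃ c : I →₀ ℚ, w - Finsupp.linearCombination ℚ b c ∈ J

/-! ### Harder-Narasimhan types -/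

def K3 (a : V → V → ℕ) (A B C : Finset (Vx V)) : R V := Kr a A B * Kr a A C * Kr a B C
def J3 (a : V → V → ℕ) (η : V → ℤ) (A B C : Finset (Vx V)) : Ideal (R V) :=
  Jp a η A ⊔ J0 a η B ⊔ Jm a η C
def IsTy (η : V → ℤ) (S A B C : Finset (Vx V)) : Prop :=
  Disjoint A B ∧ Disjoint A C ∧ Disjoint B C ∧ A ∪ B ∪ C = S ∧ etaS η B = 0
/-- rank of `(A,B)` strictly smaller than rank of `(A',B')` -/
def rkLT (η : V → ℤ) (A B A' B' : Finset (Vx V)) : Prop :=
  etaS η A < etaS η A' ∨ (etaS η A = etaS η A' ∧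
    (A'.card < A.card ∨ (A'.card = A.card ∧ B.card < B'.card)))

/-! ### shifts and the level filtration -/

def Ipi (a : V → V → ℕ) (η : V → ℤ) (π : Finset (Finset (Vx V))) : Ideal (R V) :=
  ⨆ B ∈ π, J0 a η B
/-- shift all variables of the block `B` by a new variable `z_B` -/
def sh (π : Finset (Finset (Vx V))) : R V →ₐ[ℚ] MvPolynomial (Finset (Vx V)) (R V) :=
  aeval fun s => C (X s) + ∑ B ∈ π.filter (fun B => s ∈ B), X B
def kap (a : V → V → ℕ) (π : Finset (Finset (Vx V))) : ℕ :=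
  ∑ B ∈ π, ∑ B' ∈ π.erase B, aS a B B'
def lev (a : V → V → ℕ) (M : ℕ) (π : Finset (Finset (Vx V))) (D : ℕ) : ℤ :=
  (M : ℤ) * (2 * (D : ℤ) - kap a π) + 2 * ((M : ℤ) - 1) * π.card

def FL (a : V → V → ℕ) (η : V → ℤ) (M : ℕ) (S : Finset (Vx V)) (L : ℤ) : Submodule ℚ (R V) where
  carrier := {f | ∀ π, Part η S π → ∀ m : Finset (Vx V) →₀ ℕ, L < lev a M π m.degree →
    coeff m (sh π f) ∈ Ipi a η π}
  zero_mem' := fun π _ m _ => by simp
  add_mem' := fun hf hg π hπ m hm => by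
    rw [map_add, coeff_add]; exact add_mem (hf π hπ m hm) (hg π hπ m hm)
  smul_mem' := fun c f hf π hπ m hm => by
    rw [map_smul, coeff_smul]; exact Submodule.smul_of_tower_mem _ c (hf π hπ m hm)

def W0 (a : V → V → ℕ) (η : V → ℤ) (B : Finset (Vx V)) : Submodule ℚ (R V) where
  carrier := {f | f ∈ RS B ∧ ∀ ρ, Part η B ρ → ∀ m : Finset (Vx V) →₀ ℕ,
    (kap a ρ : ℤ) - 2 * ρ.card + 2 < 2 * m.degree → coeff m (sh ρ f) ∈ Ipi a η ρ}
  zero_mem' := ⟨zero_mem _, fun π _ m _ => by simp⟩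
  add_mem' := fun hf hg => ⟨add_mem hf.1 hg.1, fun π hπ m hm => by
    rw [map_add, coeff_add]; exact add_mem (hf.2 π hπ m hm) (hg.2 π hπ m hm)⟩
  smul_mem' := fun c f hf => ⟨Subalgebra.smul_mem _ hf.1 c, fun π hπ m hm => by
    rw [map_smul, coeff_smul]; exact Submodule.smul_of_tower_mem _ c (hf.2 π hπ m hm)⟩

def Ko (a : V → V → ℕ) {r : ℕ} (B : Fin r → Finset (Vx V)) : R V :=
  ∏ j, ∏ j' ∈ Ioi j, Kr a (B j) (B j')
def ko (a : V → V → ℕ) {r : ℕ} (B : Fin r → Finset (Vx V)) : ℕ :=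
  ∑ j, ∑ j' ∈ Ioi j, aS a (B j) (B j')
def pw (B : Finset (Vx V)) : R V := ∑ s ∈ B, X s
/-- PBW element -/
def gel (a : V → V → ℕ) {r : ℕ} (B : Fin r → Finset (Vx V)) (i : Fin r → ℕ)
    (w : Fin r → R V) : R V :=
  Ko a B * ∏ j, (pw (B j) ^ i j * w j)
/-- its level -/
def glev (a : V → V → ℕ) (M : ℕ) {r : ℕ} (B : Fin r → Finset (Vx V)) (i : Fin r → ℕ) : ℤ :=
  lev a M (univ.image B) (ko a B + ∑ j, i j)
/-- the symbol of degree `D` along `π` -/
def sy (a : V → V → ℕ) (η : V → ℤ) (π : Finset (Finset (Vx V))) (D : ℕ) (f : R V) :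
    MvPolynomial (Finset (Vx V)) (R V ⧸ Ipi a η π) :=
  homogeneousComponent D (MvPolynomial.map (Ideal.Quotient.mk (Ipi a η π)) (sh π f))
def Kt (a : V → V → ℕ) {r : ℕ} (B : Fin r → Finset (Vx V)) : MvPolynomial (Finset (Vx V)) ℚ :=
  ∏ j, ∏ j' ∈ Ioi j, (X (B j) - X (B j')) ^ aS a (B j) (B j')
/-- model symbol -/
def tsy (a : V → V → ℕ) (η : V → ℤ) {r : ℕ} (B : Fin r → Finset (Vx V)) (i : Fin r → ℕ)
    (w : Fin r → R V) : MvPolynomial (Finset (Vx V)) (R V ⧸ Ipi a η (univ.image B)) :=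
  MvPolynomial.map (algebraMap ℚ _) (Kt a B * ∏ j, X (B j) ^ i j) *
    C (Ideal.Quotient.mk (Ipi a η (univ.image B)) (∏ j, w j))

/-! ### generators and labelled partitions -/

/-- generator data: a homogeneous basis of the isotypic primitive elements of every class -/
structure Gens (a : V → V → ℕ) (η k : V → ℤ) (Γ : Type) where
  c : Γ → V →₀ ℕ
  dg : Γ → ℕ
  w : Γ → R V
  eta0 : ∀ x, etaC η (c x) = 0
  ne0 : ∀ x, c x ≠ 0
  bas : ∀ β, etaC η β = 0 → β ≠ 0 → GBas (Iso k (std β) ⊓ W0 a η (std β)) (J0 a η (std β))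
    (fun x : {x // c x = β} => w x.1) (fun x => dg x.1)

variable {a : V → V → ℕ} {η k : V → ℤ} {Γ : Type}

/-- parity of a generator -/
def Gens.par (G : Gens a η k Γ) (x : Γ) : ℕ := ferC k (G.c x) + aC a (G.c x) (G.c x)
/-- admissible monomials -/
def Gens.Adm (G : Gens a η k Γ) (m : Γ × ℕ →₀ ℕ) : Prop := ∀ y, Odd (G.par y.1) → m y ≤ 1
def Gens.mcl (G : Gens a η k Γ) (m : Γ × ℕ →₀ ℕ) : V →₀ ℕ := m.sum fun y n => n • G.c y.1

/-- labelled ordered partition -/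
structure LP (G : Gens a η k Γ) (S : Finset (Vx V)) where
  r : ℕ
  B : Fin r → Finset (Vx V)
  l : Fin r → Γ × ℕ
  g : Fin r → Gf V
  oz : OZ η S B
  img_eq : ∀ j, img (g j) (std (G.c (l j).1)) = B j

variable {G : Gens a η k Γ} {S : Finset (Vx V)}

def LP.mon (Λ : LP G S) : Γ × ℕ →₀ ℕ := ∑ j, Finsupp.single (Λ.l j) 1
def LP.w (Λ : LP G S) (j : Fin Λ.r) : R V := act (Λ.g j) (G.w (Λ.l j).1)
def LP.el (Λ : LP G S) : R V := gel a Λ.B (fun j => (Λ.l j).2) Λ.w
def LP.lev (Λ : LP G S) (M : ℕ) : ℤ := glev a M Λ.B fun j => (Λ.l j).2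
def LP.deg (Λ : LP G S) : ℕ := ko a Λ.B + ∑ j, ((Λ.l j).2 + G.dg (Λ.l j).1)

end
end Vale.Agent.P066.A
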