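import Vale.Agent.P066.A.Shift

/-!
P066 part A, file Div (TASK A9): merging and refining blocks.
* `sy_dvd`: let `π' = insert (B ∪ B') ((π.erase B).erase B')`, a `Part` with
  `kap π' + 2 aS B B' = kap π`, `|π'| + 1 = |π|`, `Ipi π' ≤ Ipi π` (`J0_le_Ipi_part` for `{B,B'}`).
  From `f ∈ FL L` the coefficients of `sh π' f` of degree `> D - aS B B'` lie in `Ipi π'`.
  Coassociativity: `sh π = Ψ ∘ sh π'` where the ring map `Ψ` sends `C r` to
  `(sh {B} r)` evaluated at `z_B ↦ z_B - z_B'`, `z_(B ∪ B') ↦ z_B'`, other `z` fixed (check on the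
  variables `X s`).  `sh {B}` maps `Ipi π` into polynomials with coefficients in `Ipi π`.  A monomial
  `r z^m`, `|m| ≤ D - a`, is sent to `∑ c, r_c (z_B - z_B')^c z^m'`, whose degree `D` part is divisible
  by `(z_B - z_B')^a`.
* `coeff_refine`: let `π'' = π.erase B ∪ ρ`, a `Part` with `kap π'' = kap π + kap ρ`,
  `|π''| + 1 = |π| + |ρ|`.  Coassociativity: `map (sh ρ) (sh π f)` (a polynomial in `z` with
  coefficients polynomials in `y`) is the image of `sh π'' f` under the substitution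
  `z''_U ↦ z_B + y_U` (`U ∈ ρ`), `z''_U ↦ z_U` otherwise, which preserves total degree.  The
  coefficients of `sh π'' f` of degree `≥ D + e` lie in `Ipi π''` when `2e > kap ρ - 2|ρ| + 2`
  (so `2e ≥ kap ρ - 2|ρ| + 4` by `kap_even`; the level difference is `≥ 2M - 2(|ρ| - 1) > 0`).
-/

namespace Vale.Agent.P066.A
open MvPolynomial Finset
noncomputable section

variable {V : Type} [DecidableEq V] {a : V → V → ℕ} {η : V → ℤ} {M : ℕ} {L : ℤ}
  {S B B' : Finset (Vx V)} {f : R V} {π ρ : Finset (Finset (Vx V))} {D : ℕ}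

namespace DivAux

lemma kap_add (hπ : Part η S π) : kap a π + ∑ U ∈ π, aS a U U = aS a S S := by
  have hd : (π : Set (Finset (Vx V))).PairwiseDisjoint id := fun U hU W hW => hπ.2.1 U hU W hW
  have e : aS a S S = ∑ U ∈ π, ∑ W ∈ π, aS a U W := by
    rw [← hπ.2.2, aS, Finset.sum_biUnion hd]
    refine Finset.sum_congr rfl fun U _ => ?_
    simp only [Finset.sum_biUnion hd, aS, id]
    exact Finset.sum_comm
  rw [e, kap, ← Finset.sum_add_distrib]
  exact Finset.sum_congr rfl fun U hU => Finset.sum_erase_add _ _ hU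

lemma mem_iff (hπ : Part η S π) {s : Vx V} : s ∈ S ↔ ∃ U ∈ π, s ∈ U := by
  rw [← hπ.2.2]
  simp

lemma eq_of_mem (hπ : Part η S π) {U W : Finset (Vx V)} (hU : U ∈ π) (hW : W ∈ π) {s : Vx V}
    (h1 : s ∈ U) (h2 : s ∈ W) : U = W := by
  by_contra h
  exact Finset.disjoint_left.1 (hπ.2.1 U hU W hW h) h1 h2

lemma sh_X_not {s : Vx V} (h : ∀ U ∈ π, s ∉ U) : sh π (X s) = C (X s) := by
  rw [sh, aeval_X, Finset.filter_false_of_mem h, Finset.sum_empty, add_zero]

lemma disj_refine (hπ : Part η S π) (hB : B ∈ π) (hρ : Part η B ρ) : Disjoint (π.erase B) ρ := by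
  refine Finset.disjoint_left.2 fun U h1 h2 => ?_
  obtain ⟨s, hs⟩ := (hρ.1 U h2).1
  exact (Finset.mem_erase.1 h1).1
    (eq_of_mem hπ (Finset.mem_of_mem_erase h1) hB hs (hρ.subset h2 hs))

lemma part_refine (hπ : Part η S π) (hB : B ∈ π) (hρ : Part η B ρ) :
    Part η S (π.erase B ∪ ρ) := by
  refine ⟨fun U hU => ?_, fun U hU W hW hne => ?_, ?_⟩
  · rcases Finset.mem_union.1 hU with h | h
    · exact hπ.1 U (Finset.mem_of_mem_erase h)
    · exact hρ.1 U h
  · have k : ∀ U ∈ π.erase B, ∀ W ∈ ρ, Disjoint U W := fun U hU W hW =>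
      (hπ.2.1 U (Finset.mem_of_mem_erase hU) B hB (Finset.mem_erase.1 hU).1).mono_right
        (hρ.subset hW)
    rcases Finset.mem_union.1 hU with h | h <;> rcases Finset.mem_union.1 hW with h' | h'
    · exact hπ.2.1 U (Finset.mem_of_mem_erase h) W (Finset.mem_of_mem_erase h') hne
    · exact k U h W h'
    · exact (k W h' U h).symm
    · exact hρ.2.1 U h W h' hne
  · rw [Finset.union_biUnion, hρ.2.2, ← hπ.2.2]
    conv_rhs => rw [← Finset.insert_erase hB, Finset.biUnion_insert, Finset.union_comm]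
    rfl

lemma kap_refine (hπ : Part η S π) (hB : B ∈ π) (hρ : Part η B ρ) :
    kap a (π.erase B ∪ ρ) = kap a π + kap a ρ := by
  have h1 := kap_add (a := a) (part_refine hπ hB hρ)
  have h2 := kap_add (a := a) hπ
  have h3 := kap_add (a := a) hρ
  rw [Finset.sum_union (disj_refine hπ hB hρ)] at h1
  rw [← Finset.sum_erase_add _ _ hB] at h2
  omega

lemma card_refine (hπ : Part η S π) (hB : B ∈ π) (hρ : Part η B ρ) :
    (π.erase B ∪ ρ).card + 1 = π.card + ρ.card := by
  rw [Finset.card_union_of_disjoint (disj_refine hπ hB hρ), ← Finset.card_erase_add_one hB]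
  omega

lemma part_pair (hπ : Part η S π) (hB : B ∈ π) (hB' : B' ∈ π) : Part η (B ∪ B') {B, B'} := by
  have k : ∀ U ∈ ({B, B'} : Finset (Finset (Vx V))), U ∈ π := by
    intro U hU
    rcases Finset.mem_insert.1 hU with rfl | h
    · exact hB
    · rw [Finset.mem_singleton.1 h]
      exact hB'
  exact ⟨fun U hU => hπ.1 U (k U hU), fun U hU W hW => hπ.2.1 U (k U hU) W (k W hW), by simp⟩

lemma merge_not (hπ : Part η S π) (hB : B ∈ π) : B ∪ B' ∉ (π.erase B).erase B' := by
  intro h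
  have h1 := Finset.mem_of_mem_erase h
  obtain ⟨s, hs⟩ := (hπ.1 B hB).1
  exact (Finset.mem_erase.1 h1).1
    (eq_of_mem hπ (Finset.mem_of_mem_erase h1) hB (Finset.mem_union_left _ hs) hs)

lemma part_merge (hπ : Part η S π) (hB : B ∈ π) (hB' : B' ∈ π) (hne : B ≠ B') :
    Part η S (insert (B ∪ B') ((π.erase B).erase B')) := by
  have k : ∀ U ∈ (π.erase B).erase B', Disjoint (B ∪ B') U := by
    intro U hU
    obtain ⟨h1, h2⟩ := Finset.mem_erase.1 hU
    obtain ⟨h3, h4⟩ := Finset.mem_erase.1 h2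
    exact Finset.disjoint_union_left.2 ⟨hπ.2.1 B hB U h4 h3.symm, hπ.2.1 B' hB' U h4 h1.symm⟩
  have k2 : ∀ U ∈ (π.erase B).erase B', U ∈ π := fun U hU =>
    Finset.mem_of_mem_erase (Finset.mem_of_mem_erase hU)
  refine ⟨fun U hU => ?_, fun U hU W hW hUW => ?_, ?_⟩
  · rcases Finset.mem_insert.1 hU with rfl | h
    · refine ⟨(hπ.1 B hB).1.mono Finset.subset_union_left, ?_⟩
      rw [etaS_union (hπ.2.1 B hB B' hB' hne), (hπ.1 B hB).2, (hπ.1 B' hB').2, add_zero]
    · exact hπ.1 U (k2 U h)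
  · rcases Finset.mem_insert.1 hU with rfl | h <;> rcases Finset.mem_insert.1 hW with rfl | h'
    · exact absurd rfl hUW
    · exact k W h'
    · exact (k U h).symm
    · exact hπ.2.1 U (k2 U h) W (k2 W h') hUW
  · rw [Finset.biUnion_insert, ← hπ.2.2]
    conv_rhs => rw [← Finset.insert_erase hB, Finset.biUnion_insert,
      ← Finset.insert_erase (Finset.mem_erase.2 ⟨hne.symm, hB'⟩), Finset.biUnion_insert,
      ← Finset.union_assoc]
    rfl

lemma refine_merge (hπ : Part η S π) (hB : B ∈ π) (hB' : B' ∈ π) (hne : B ≠ B') :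
    (insert (B ∪ B') ((π.erase B).erase B')).erase (B ∪ B') ∪ {B, B'} = π := by
  rw [Finset.erase_insert (merge_not hπ hB), Finset.union_insert, Finset.union_singleton,
    Finset.insert_erase (Finset.mem_erase.2 ⟨hne.symm, hB'⟩), Finset.insert_erase hB]

/-- total degree for polynomials with polynomial coefficients -/
def BiH {σ K : Type} [CommRing K] (n : ℕ) (p : MvPolynomial σ (MvPolynomial σ K)) : Prop :=
  ∀ m m', coeff m' (coeff m p) ≠ 0 → m.degree + m'.degree = n

lemma BiH.mul {σ K : Type} [CommRing K] {n n' : ℕ} {p q : MvPolynomial σ (MvPolynomial σ K)}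
    (hp : BiH n p) (hq : BiH n' q) : BiH (n + n') (p * q) := by
  classical
  intro m m' h
  rw [coeff_mul, coeff_sum] at h
  obtain ⟨x, hx, h⟩ := Finset.exists_ne_zero_of_sum_ne_zero h
  rw [coeff_mul] at h
  obtain ⟨y, hy, h⟩ := Finset.exists_ne_zero_of_sum_ne_zero h
  have h1 := hp _ _ (left_ne_zero_of_mul h)
  have h2 := hq _ _ (right_ne_zero_of_mul h)
  rw [← Finset.HasAntidiagonal.mem_antidiagonal.1 hx, ← Finset.HasAntidiagonal.mem_antidiagonal.1 hy,
    map_add, map_add]
  omega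

lemma BiH.one {σ K : Type} [CommRing K] : BiH 0 (1 : MvPolynomial σ (MvPolynomial σ K)) := by
  classical
  intro m m' h
  rw [coeff_one] at h
  split_ifs at h with h1
  · rw [coeff_one] at h
    split_ifs at h with h2
    · rw [← h1, ← h2, map_zero, add_zero]
    · exact absurd rfl h
  · exact absurd rfl h

lemma BiH.X {σ K : Type} [CommRing K] (U : σ) :
    BiH 1 (X U : MvPolynomial σ (MvPolynomial σ K)) := by
  classical
  intro m m' h
  rw [coeff_X] at h
  split_ifs at h with h1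
  · rw [coeff_one] at h
    split_ifs at h with h2
    · rw [← h1, ← h2, map_zero, Finsupp.degree_single, add_zero]
    · exact absurd rfl h
  · exact absurd rfl h

lemma BiH.CX {σ K : Type} [CommRing K] (U : σ) :
    BiH 1 (C (MvPolynomial.X U) : MvPolynomial σ (MvPolynomial σ K)) := by
  classical
  intro m m' h
  rw [coeff_C] at h
  split_ifs at h with h1
  · rw [coeff_X] at h
    split_ifs at h with h2
    · rw [← h1, ← h2, map_zero, Finsupp.degree_single]
    · exact absurd rfl h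
  · exact absurd rfl h

lemma BiH.add {σ K : Type} [CommRing K] {n : ℕ} {p q : MvPolynomial σ (MvPolynomial σ K)}
    (hp : BiH n p) (hq : BiH n q) : BiH n (p + q) := by
  intro m m' h
  rw [coeff_add, coeff_add] at h
  by_cases h1 : coeff m' (coeff m p) = 0
  · rw [h1, zero_add] at h
    exact hq _ _ h
  · exact hp _ _ h1

lemma BiH.prod {σ K : Type} [CommRing K] {g : σ → MvPolynomial σ (MvPolynomial σ K)}
    (hg : ∀ U, BiH 1 (g U)) (s : Finset σ) (n : σ → ℕ) :
    BiH (∑ U ∈ s, n U) (∏ U ∈ s, g U ^ n U) := by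
  classical
  have hp : ∀ U (c : ℕ), BiH c (g U ^ c) := by
    intro U c
    induction c with
    | zero => rw [pow_zero]; exact BiH.one
    | succ c ih => rw [pow_succ]; exact ih.mul (hg U)
  induction s using Finset.induction_on with
  | empty => exact BiH.one
  | insert U s hU ih =>
    rw [Finset.sum_insert hU, Finset.prod_insert hU]
    exact (hp U _).mul ih

end DivAux

open DivAux

theorem sy_dvd (hs : Sym a η) (hM : 1 ≤ M) (hf : f ∈ FL a η M S L) (hπ : Part η S π)
    (hD : lev a M π D = L) (hB : B ∈ π) (hB' : B' ∈ π) (hne : B ≠ B') :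
    (X B - X B') ^ aS a B B' ∣ sy a η π D f := by
  have hπ' := part_merge hπ hB hB' hne
  have hρ := part_pair hπ hB hB'
  have h1 := kap_refine (a := a) hπ' (Finset.mem_insert_self _ _) hρ
  have h2 := card_refine hπ' (Finset.mem_insert_self _ _) hρ
  have h3 : kap a {B, B'} = 2 * aS a B B' := by
    have k := kap_add (a := a) hρ
    have hd := hπ.2.1 B hB B' hB' hne
    rw [Finset.sum_pair hne, aS_union_left hd, aS_union_right hd, aS_union_right hd,
      hs B' B (hπ.1 B' hB').2 (hπ.1 B hB).2] at k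
    omega
  rw [refine_merge hπ hB hB' hne] at h1 h2
  rw [Finset.card_pair hne] at h2
  have hI : Ipi a η (insert (B ∪ B') ((π.erase B).erase B')) ≤ Ipi a η π := by
    refine iSup₂_le fun U hU => ?_
    rcases Finset.mem_insert.1 hU with rfl | h
    · refine (J0_le_Ipi_part hρ).trans (iSup₂_le fun W hW => J0_le_Ipi ?_)
      rcases Finset.mem_insert.1 hW with rfl | h
      · exact hB
      · rw [Finset.mem_singleton.1 h]
        exact hB'
    · exact J0_le_Ipi (Finset.mem_of_mem_erase (Finset.mem_of_mem_erase h))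
  generalize hπ0 : insert (B ∪ B') ((π.erase B).erase B') = π' at hπ' h1 h2 hI
  let c : Vx V → ℚ := fun s => if s ∈ B then 1 else 0
  let T : MvPolynomial (Finset (Vx V)) (R V ⧸ Ipi a η π) := X B - X B'
  let θ : R V →+* MvPolynomial (Finset (Vx V)) (R V ⧸ Ipi a η π) :=
    (Polynomial.eval₂RingHom (C.comp (Ideal.Quotient.mk (Ipi a η π))) T).comp (sh1 c).toRingHom
  let g : Finset (Vx V) → MvPolynomial (Finset (Vx V)) (R V ⧸ Ipi a η π) :=
    fun U => X (if U = B ∪ B' then B' else U)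
  have hθ : ∀ r, θ r = Polynomial.eval₂ (C.comp (Ideal.Quotient.mk (Ipi a η π))) T (sh1 c r) :=
    fun _ => rfl
  have hX : ∀ s, θ (X s) = C (Ideal.Quotient.mk _ (X s)) + if s ∈ B then T else 0 := by
    intro s
    rw [hθ, sh1, aeval_X]
    by_cases h : s ∈ B <;> simp [c, h]
  have hθI : ∀ r ∈ Ipi a η π, θ r = 0 := by
    have : Ipi a η π ≤ RingHom.ker θ := by
      refine iSup₂_le fun U hU => Ideal.span_le.2 ?_
      rintro _ ⟨W, k1, k2, rfl⟩
      have k3 : Kr a W (U \ W) ∈ Ipi a η π := J0_le_Ipi hU (Ideal.subset_span ⟨W, k1, k2, rfl⟩)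
      rw [SetLike.mem_coe, RingHom.mem_ker, hθ, sh1_Kr, Polynomial.eval₂_C, RingHom.comp_apply,
        Ideal.Quotient.eq_zero_iff_mem.2 k3, map_zero]
      intro s k4 t k5
      have k6 := (Finset.mem_sdiff.1 k5).1
      have : s ∈ B ↔ t ∈ B :=
        ⟨fun h => eq_of_mem hπ hU hB (k1 k4) h ▸ k6, fun h => eq_of_mem hπ hU hB k6 h ▸ k1 k4⟩
      simp only [c, this]
    exact this
  have key : (MvPolynomial.map (Ideal.Quotient.mk (Ipi a η π))).comp (sh π).toRingHom =
      (eval₂Hom θ g).comp (sh π').toRingHom := by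
    refine MvPolynomial.ringHom_ext (fun q => ?_) fun s => ?_
    · exact RingHom.congr_fun (RingHom.ext_rat
        (((MvPolynomial.map (Ideal.Quotient.mk (Ipi a η π))).comp (sh π).toRingHom).comp C)
        (((eval₂Hom θ g).comp (sh π').toRingHom).comp C)) q
    change MvPolynomial.map _ (sh π (X s)) = eval₂Hom θ g (sh π' (X s))
    have m1 : B ∪ B' ∈ π' := hπ0 ▸ Finset.mem_insert_self _ _
    by_cases k1 : s ∈ B
    · rw [sh_X_of_mem hπ hB k1, sh_X_of_mem hπ' m1 (Finset.mem_union_left _ k1)]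
      simp [hX, k1, g, T, add_assoc]
    by_cases k2 : s ∈ B'
    · rw [sh_X_of_mem hπ hB' k2, sh_X_of_mem hπ' m1 (Finset.mem_union_right _ k2)]
      simp [hX, k1, g]
    by_cases k3 : s ∈ S
    · obtain ⟨U, hU, k4⟩ := (mem_iff hπ).1 k3
      have m2 : U ∈ (π.erase B).erase B' := Finset.mem_erase.2 ⟨fun e => k2 (e ▸ k4),
        Finset.mem_erase.2 ⟨fun e => k1 (e ▸ k4), hU⟩⟩
      have m3 : U ≠ B ∪ B' := fun e => merge_not hπ hB (e ▸ m2)
      rw [sh_X_of_mem hπ hU k4, sh_X_of_mem hπ' (hπ0 ▸ Finset.mem_insert_of_mem m2) k4]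
      simp [hX, k1, g, m3]
    · rw [sh_X_not fun U hU k => k3 (hπ.subset hU k), sh_X_not fun U hU k => k3 (hπ'.subset hU k)]
      simp [hX, k1]
  have key2 : MvPolynomial.map (Ideal.Quotient.mk (Ipi a η π)) (sh π f) =
      eval₂Hom θ g (sh π' f) := RingHom.congr_fun key f
  rw [sy, key2, coe_eval₂Hom, eval₂_eq, map_sum]
  refine Finset.dvd_sum fun m _ => ?_
  by_cases hm : D < m.degree + aS a B B'
  · rw [hθI _ (hI (hf π' hπ' m ?_)), zero_mul, map_zero]
    · exact dvd_zero _
    · rw [← hD, lev, lev, h1, h3]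
      have k1 : (π.card : ℤ) = π'.card + 1 := by omega
      have k2 : (D : ℤ) + 1 ≤ m.degree + aS a B B' := by exact_mod_cast hm
      have k3 : (1 : ℤ) ≤ M := by exact_mod_cast hM
      rw [k1]
      push_cast
      nlinarith
  · have hT : T.IsHomogeneous 1 := (isHomogeneous_X _ _).sub (isHomogeneous_X _ _)
    have hY : (∏ U ∈ m.support, g U ^ m U).IsHomogeneous m.degree :=
      IsHomogeneous.prod _ _ _ fun U _ => isHomogeneous_X_pow _ _
    rw [hθ, Polynomial.eval₂_eq_sum, Polynomial.sum, Finset.sum_mul, map_sum]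
    refine Finset.dvd_sum fun n _ => ?_
    rw [RingHom.comp_apply, mul_assoc, homogeneousComponent_C_mul,
      homogeneousComponent_of_mem ((hT.pow n).mul hY)]
    split_ifs with h
    · exact Dvd.dvd.mul_left (Dvd.dvd.mul_right (pow_dvd_pow T (by omega)) _) _
    · rw [mul_zero]
      exact dvd_zero _

theorem coeff_refine (hs : Sym a η) (hM : S.card < M) (hf : f ∈ FL a η M S L) (hπ : Part η S π)
    (hD : lev a M π D = L) {m : Finset (Vx V) →₀ ℕ} (hm : m.degree = D) (hB : B ∈ π)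
    (hρ : Part η B ρ) (m' : Finset (Vx V) →₀ ℕ)
    (hm' : (kap a ρ : ℤ) - 2 * ρ.card + 2 < 2 * m'.degree) :
    coeff m' (sh ρ (coeff m (sh π f))) ∈ Ipi a η (π.erase B) ⊔ Ipi a η ρ := by
  have hπ' := part_refine hπ hB hρ
  have h1 := kap_refine (a := a) hπ hB hρ
  have h2 := card_refine hπ hB hρ
  rw [← Ipi_union]
  let g : Finset (Vx V) → MvPolynomial (Finset (Vx V)) (MvPolynomial (Finset (Vx V)) (R V)) :=
    fun U => if U ∈ ρ then X B + C (X U) else X U
  have hg : ∀ U, BiH 1 (g U) := fun U => by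
    by_cases h : U ∈ ρ
    · simp only [g, if_pos h]
      exact (BiH.X B).add (BiH.CX U)
    · simp only [g, if_neg h]
      exact BiH.X U
  have key : (MvPolynomial.map (sh ρ).toRingHom).comp (sh π).toRingHom =
      (eval₂Hom (C.comp C) g).comp (sh (π.erase B ∪ ρ)).toRingHom := by
    refine MvPolynomial.ringHom_ext (fun q => ?_) fun s => ?_
    · exact RingHom.congr_fun (RingHom.ext_rat
        (((MvPolynomial.map (sh ρ).toRingHom).comp (sh π).toRingHom).comp C)
        (((eval₂Hom (C.comp C) g).comp (sh (π.erase B ∪ ρ)).toRingHom).comp C)) q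
    change MvPolynomial.map _ (sh π (X s)) = eval₂Hom (C.comp C) g (sh (π.erase B ∪ ρ) (X s))
    by_cases k1 : s ∈ B
    · obtain ⟨U, hU, k2⟩ := (mem_iff hρ).1 k1
      rw [sh_X_of_mem hπ hB k1, sh_X_of_mem hπ' (Finset.mem_union_right _ hU) k2]
      simp [sh_X_of_mem hρ hU k2, g, hU, add_assoc, add_comm (X B)]
    have k2 : sh ρ (X s) = C (X s) := sh_X_not fun U hU k => k1 (hρ.subset hU k)
    by_cases k3 : s ∈ S
    · obtain ⟨U, hU, k4⟩ := (mem_iff hπ).1 k3
      have m2 : U ∈ π.erase B := Finset.mem_erase.2 ⟨fun e => k1 (e ▸ k4), hU⟩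
      have m3 : U ∉ ρ := fun k => k1 (hρ.subset k k4)
      rw [sh_X_of_mem hπ hU k4, sh_X_of_mem hπ' (Finset.mem_union_left _ m2) k4]
      simp [k2, g, m3]
    · rw [sh_X_not fun U hU k => k3 (hπ.subset hU k), sh_X_not fun U hU k => k3 (hπ'.subset hU k)]
      simp [k2]
  have key2 : MvPolynomial.map (sh ρ).toRingHom (sh π f) =
      eval₂Hom (C.comp C) g (sh (π.erase B ∪ ρ) f) := RingHom.congr_fun key f
  have e : sh ρ (coeff m (sh π f)) = coeff m (MvPolynomial.map (sh ρ).toRingHom (sh π f)) :=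
    (coeff_map (sh ρ).toRingHom _ m).symm
  rw [e, key2, coe_eval₂Hom, eval₂_eq, coeff_sum, coeff_sum]
  refine Ideal.sum_mem _ fun n _ => ?_
  rw [RingHom.comp_apply, coeff_C_mul, coeff_C_mul]
  by_cases hn : coeff m' (coeff m (∏ U ∈ n.support, g U ^ n U)) = 0
  · rw [hn, mul_zero]
    exact zero_mem _
  refine Ideal.mul_mem_right _ _ (hf _ hπ' n ?_)
  have k0 : m.degree + m'.degree = n.degree := BiH.prod hg _ _ m m' hn
  obtain ⟨e, he⟩ := kap_even hs hρ
  have k1 : ((π.erase B ∪ ρ).card : ℤ) = π.card + ρ.card - 1 := by omega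
  have k2 : (ρ.card : ℤ) < M := by
    exact_mod_cast (hρ.card_le.trans (Finset.card_le_card (hπ.subset hB))).trans_lt hM
  have k3 : (e : ℤ) - ρ.card + 2 ≤ m'.degree := by omega
  rw [← hD, lev, lev, h1, k1, ← k0, hm, he]
  push_cast
  nlinarith [mul_le_mul_of_nonneg_left k3 (Nat.cast_nonneg M)]

end
end Vale.Agent.P066.A
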