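import Vale.Agent.P066.A.Ideals

/-!
P066 part A, file HN (TASK A6): the Harder-Narasimhan basis.
Fix `γ`, `S = std γ`.  For every class triple `(α,β,γ')` with sum `γ` and `η β = 0` choose a type
`(A,B,C)` of `S` with these classes (`exists_subset_cl` twice) and `gA gB gC` with
`img gA (std α) = A` etc (`exists_img`); put
`F x = Alt k S (K3 A B C * (act gA (b1 x.1) * act gB (b2 x.2.1) * act gC (b3 x.2.2)))`.
The transported families are graded bases (`GBas.act`, `iso_act`, `J*_act`).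
* spanning: prove by downward induction on the rank (finitely many types; well-founded induction
  on `rkLT`, e.g. on the number of types of larger rank) that `Alt (K3 A' B' C' * r)` is in the span
  for every type and `r ∈ RS S`: move the type to the chosen one (`exists_blocks` with `r = 3`,
  `alt_act`), write `r` by `span_prod_OP`, use `alt_prod`, expand each factor in its basis; the
  error lies in `J3` and is handled by `hn_Ref` and the induction hypothesis.  The type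
  `(∅,∅,S)` has `K3 = 1`.
* independence: take a class triple of minimal rank with a nonzero coefficient, reduce modulo
  its `J3`: by `hn_V` only the terms `act h (...)` with `h` stabilising the chosen type survive,
  and for those `chi h • act h (b b' b'') = b b' b''` (`act_prod_iso`).  Then `hn_NZD`, and
  `exists_multi` with dual functionals (`IndMod.exists_dual`) kills the coefficient.
-/

namespace Vale.Agent.P066.A
open MvPolynomial Finset
noncomputable section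

variable {V : Type} [DecidableEq V]

namespace HNAux

variable {a : V → V → ℕ} {η k : V → ℤ} {S A B C A' B' C' : Finset (Vx V)}

theorem op3 (h : IsTy η S A B C) : OP S ![A, B, C] := by
  obtain ⟨h1, h2, h3, h4, -⟩ := h
  refine ⟨fun j j' hj => ?_, ?_⟩
  · fin_cases j <;> fin_cases j'
    · exact absurd rfl hj
    · exact h1
    · exact h2
    · exact h1.symm
    · exact absurd rfl hj
    · exact h3
    · exact h2.symm
    · exact h3.symm
    · exact absurd rfl hj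
  · rw [← h4]
    ext s
    simp [Fin.exists_fin_succ]

theorem subA (h : IsTy η S A B C) : A ⊆ S := (op3 h).subset 0
theorem subB (h : IsTy η S A B C) : B ⊆ S := (op3 h).subset 1
theorem subC (h : IsTy η S A B C) : C ⊆ S := (op3 h).subset 2

theorem cl_ty (h : IsTy η S A B C) : cl A + cl B + cl C = cl S := by
  rw [(op3 h).cl_eq, Fin.sum_univ_three]
  rfl

theorem exists_ty {α β γ : V →₀ ℕ} (h : α + β + γ = cl S) (hβ : etaC η β = 0) :
    ∃ A B C, IsTy η S A B C ∧ cl A = α ∧ cl B = β ∧ cl C = γ := by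
  obtain ⟨D, hD, hc⟩ := exists_OP (S := S) ![α, β, γ] (by rw [Fin.sum_univ_three]; exact h.symm)
  refine ⟨D 0, D 1, D 2, ⟨hD.1 0 1 (by decide), hD.1 0 2 (by decide), hD.1 1 2 (by decide), ?_, ?_⟩,
    hc 0, hc 1, hc 2⟩
  · rw [← hD.2]
    ext s
    simp [Fin.exists_fin_succ]
  · rw [etaS_eq, hc 1]
    exact hβ

theorem blocks3 (h : IsTy η S A B C) (h' : IsTy η S A' B' C') (e1 : cl A = cl A')
    (e2 : cl B = cl B') (e3 : cl C = cl C') :
    ∃ g ∈ GS S, img g A = A' ∧ img g B = B' ∧ img g C = C' := by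
  obtain ⟨g, hg, hi⟩ := exists_blocks (op3 h) (op3 h') fun j => by
    fin_cases j
    exacts [e1, e2, e3]
  exact ⟨g, hg, hi 0, hi 1, hi 2⟩

theorem third (h : IsTy η S A B C) (h' : IsTy η S A B C') : C = C' := by
  obtain ⟨-, h2, h3, h4, -⟩ := h
  obtain ⟨-, h2', h3', h4', -⟩ := h'
  rw [← union_sdiff_cancel_left (disjoint_union_left.2 ⟨h2, h3⟩), h4, ← h4',
    union_sdiff_cancel_left (disjoint_union_left.2 ⟨h2', h3'⟩)]

theorem K3_mem (h : IsTy η S A B C) : K3 a A B C ∈ RS S :=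
  mul_mem (mul_mem (Kr_mem (subA h) (subB h)) (Kr_mem (subA h) (subC h))) (Kr_mem (subB h) (subC h))

omit [DecidableEq V] in
theorem K3_hom : (K3 a A B C).IsHomogeneous
    (aC a (cl A) (cl B) + aC a (cl A) (cl C) + aC a (cl B) (cl C)) := by
  rw [← aS_eq, ← aS_eq, ← aS_eq]
  exact ((Kr_hom a A B).mul (Kr_hom a A C)).mul (Kr_hom a B C)

theorem prod_mem3 (h : IsTy η S A B C) {w1 w2 w3 : R V} (h1 : w1 ∈ RS A) (h2 : w2 ∈ RS B)
    (h3 : w3 ∈ RS C) : w1 * w2 * w3 ∈ RS S :=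
  mul_mem (mul_mem (RS_mono (subA h) h1) (RS_mono (subB h) h2)) (RS_mono (subC h) h3)

theorem span3 (h : IsTy η S A B C) {x : R V} (hx : x ∈ RS S) :
    x ∈ Submodule.span ℚ {y | ∃ w1 ∈ RS A, ∃ w2 ∈ RS B, ∃ w3 ∈ RS C, y = w1 * w2 * w3} := by
  refine Submodule.span_mono ?_ (span_prod_OP (op3 h) hx)
  rintro _ ⟨w, hw, rfl⟩
  exact ⟨w 0, hw 0, w 1, hw 1, w 2, hw 2, Fin.prod_univ_three w⟩

theorem alt3 (h : IsTy η S A B C) {w1 w2 w3 : R V} (h1 : w1 ∈ RS A) (h2 : w2 ∈ RS B)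
    (h3 : w3 ∈ RS C) : Alt k S (K3 a A B C * (w1 * w2 * w3)) =
      Alt k S (K3 a A B C * (Alt k A w1 * Alt k B w2 * Alt k C w3)) := by
  have key := alt_prod (k := k) (op3 h) (h := K3 a A B C) (w := ![w1, w2, w3]) (fun j g hg => by
    obtain ⟨d1, d2, d3, -, -⟩ := h
    rw [act_K3]
    fin_cases j
    · rw [img_of_mem_GS (S := A) hg, img_of_disjoint (A := A) hg d1, img_of_disjoint (A := A) hg d2]
    · rw [img_of_mem_GS (S := B) hg, img_of_disjoint (A := B) hg d1.symm,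
        img_of_disjoint (A := B) hg d3]
    · rw [img_of_mem_GS (S := C) hg, img_of_disjoint (A := C) hg d2.symm,
        img_of_disjoint (A := C) hg d3.symm]) (fun j => by
    fin_cases j
    exacts [h1, h2, h3])
  rw [Fin.prod_univ_three, Fin.prod_univ_three] at key
  exact key

theorem act3 (h : IsTy η S A B C) {g : Gf V} (hg : g ∈ GS S) (e1 : img g A = A)
    (e2 : img g B = B) (e3 : img g C = C) {w1 w2 w3 : R V} (h1 : w1 ∈ Iso k A)
    (h2 : w2 ∈ Iso k B) (h3 : w3 ∈ Iso k C) :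
    act g (w1 * w2 * w3) = chi k g • (w1 * w2 * w3) := by
  have key := act_prod_iso (k := k) (op3 h) hg (w := ![w1, w2, w3]) (fun j => by
    fin_cases j
    exacts [e1, e2, e3]) (fun j => by
    fin_cases j
    exacts [h1, h2, h3])
  rw [Fin.prod_univ_three] at key
  exact key

theorem multi3 (h : IsTy η S A B C) (φ1 φ2 φ3 : R V →ₗ[ℚ] ℚ)
    (h1 : ∀ f ∈ Jp a η A, φ1 f = 0) (h2 : ∀ f ∈ J0 a η B, φ2 f = 0)
    (h3 : ∀ f ∈ Jm a η C, φ3 f = 0) :
    ∃ Ψ : R V →ₗ[ℚ] ℚ, (∀ w1 ∈ RS A, ∀ w2 ∈ RS B, ∀ w3 ∈ RS C,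
      Ψ (w1 * w2 * w3) = φ1 w1 * φ2 w2 * φ3 w3) ∧ ∀ x ∈ J3 a η A B C, Ψ x = 0 := by
  obtain ⟨Ψ, k1, k2⟩ := exists_multi (op3 h).1 ![φ1, φ2, φ3] ![Jp a η A, J0 a η B, Jm a η C]
    (fun j => by
      fin_cases j
      exacts [Jp_gen, J0_gen, Jm_gen]) (fun j => by
      fin_cases j
      exacts [h1, h2, h3])
  refine ⟨Ψ, fun w1 m1 w2 m2 w3 m3 => ?_, fun x hx => k2 x ?_⟩
  · have key := k1 ![w1, w2, w3] fun j => by
      fin_cases j
      exacts [m1, m2, m3]
    rw [Fin.prod_univ_three, Fin.prod_univ_three] at key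
    exact key
  · have hle : J3 a η A B C ≤ ⨆ j, (![Jp a η A, J0 a η B, Jm a η C] : Fin 3 → Ideal (R V)) j :=
      sup_le (sup_le (le_iSup (![Jp a η A, J0 a η B, Jm a η C] : Fin 3 → Ideal (R V)) 0)
        (le_iSup (![Jp a η A, J0 a η B, Jm a η C] : Fin 3 → Ideal (R V)) 1))
        (le_iSup (![Jp a η A, J0 a η B, Jm a η C] : Fin 3 → Ideal (R V)) 2)
    exact hle hx

omit [DecidableEq V] in
theorem rk_congr {A1 B1 A2 B2 A1' B1' A2' B2' : Finset (Vx V)} (e1 : cl A1 = cl A1')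
    (e2 : cl B1 = cl B1') (e3 : cl A2 = cl A2') (e4 : cl B2 = cl B2') :
    rkLT η A1 B1 A2 B2 ↔ rkLT η A1' B1' A2' B2' := by
  simp only [rkLT, etaS_eq, card_eq_degree, e1, e2, e3, e4]

open Classical in
/-- number of pairs of larger rank -/
def nb (η : V → ℤ) (S A B : Finset (Vx V)) : ℕ :=
  ((S.powerset ×ˢ S.powerset).filter fun p => rkLT η A B p.1 p.2).card

omit [DecidableEq V] in
theorem nb_lt (hA : A' ⊆ S) (hB : B' ⊆ S) (h : rkLT η A B A' B') : nb η S A' B' < nb η S A B := by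
  classical
  refine card_lt_card ⟨fun p hp => ?_, fun hs => ?_⟩
  · rw [mem_filter] at hp ⊢
    refine ⟨hp.1, ?_⟩
    have h2 := hp.2
    unfold rkLT at h h2 ⊢
    omega
  · have h1 : (A', B') ∈ (S.powerset ×ˢ S.powerset).filter fun p => rkLT η A B p.1 p.2 :=
      mem_filter.2 ⟨mem_product.2 ⟨mem_powerset.2 hA, mem_powerset.2 hB⟩, h⟩
    have h2 := (mem_filter.1 (hs h1)).2
    unfold rkLT at h2
    simp only at h2
    omega

theorem chi_mul_self (k : V → ℤ) (g : Gf V) : chi k g * chi k g = 1 := by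
  rcases chi_sq k g with h | h <;> rw [h] <;> norm_num

theorem alt_other (h : IsTy η S A B C) (h' : IsTy η S A' B' C') (hr : ¬ rkLT η A' B' A B)
    (hne : ¬ (cl A' = cl A ∧ cl B' = cl B)) (p : R V) :
    Alt k S (K3 a A' B' C' * p) ∈ J3 a η A B C := by
  rw [alt_apply]
  refine Submodule.smul_of_tower_mem _ _ (sum_mem fun g hg => Submodule.smul_of_tower_mem _ _ ?_)
  rw [map_mul, act_K3]
  refine Ideal.mul_mem_right _ _ ?_
  have h2 := h'.img g
  rw [img_of_mem_GS hg] at h2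
  refine hn_V h h2 (fun hc => hr ?_) fun hc => hne ?_
  · exact (rk_congr (cl_img g A') (cl_img g B') rfl rfl).1 hc
  · rw [← hc.1, ← hc.2, cl_img, cl_img]
    exact ⟨rfl, rfl⟩

theorem alt_same (h : IsTy η S A B C) : ∃ κ : ℚ, κ ≠ 0 ∧ ∀ w1 ∈ Iso k A, ∀ w2 ∈ Iso k B,
    ∀ w3 ∈ Iso k C, Alt k S (K3 a A B C * (w1 * w2 * w3)) - κ • (K3 a A B C * (w1 * w2 * w3)) ∈
      J3 a η A B C := by
  classical
  refine ⟨((GS S).card : ℚ)⁻¹ * (((GS S).filter fun g => img g A = A ∧ img g B = B).card : ℚ),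
    mul_ne_zero (inv_ne_zero (card_GS_ne S)) ?_, fun w1 h1 w2 h2 w3 h3 => ?_⟩
  · exact Nat.cast_ne_zero.2 (card_ne_zero.2 ⟨1, mem_filter.2 ⟨one_mem_GS, img_one _, img_one _⟩⟩)
  rw [alt_apply, mul_smul, ← smul_sub]
  refine Submodule.smul_of_tower_mem _ _ ?_
  rw [← sum_filter_add_sum_filter_not (GS S) fun g => img g A = A ∧ img g B = B]
  have e : ∑ g ∈ (GS S).filter (fun g => img g A = A ∧ img g B = B),
      chi k g • act g (K3 a A B C * (w1 * w2 * w3)) =
      (((GS S).filter fun g => img g A = A ∧ img g B = B).card : ℚ) •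
        (K3 a A B C * (w1 * w2 * w3)) := by
    rw [Nat.cast_smul_eq_nsmul, ← sum_const]
    refine sum_congr rfl fun g hg => ?_
    obtain ⟨hg, e1, e2⟩ := mem_filter.1 hg
    have h4 := h.img g
    rw [img_of_mem_GS hg, e1, e2] at h4
    have e3 := third h4 h
    rw [map_mul, act_K3, e1, e2, e3, act3 h hg e1 e2 e3 h1 h2 h3, mul_smul_comm, smul_smul,
      chi_mul_self, one_smul]
  rw [e, add_sub_cancel_left]
  refine sum_mem fun g hg => Submodule.smul_of_tower_mem _ _ ?_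
  obtain ⟨hg, hne⟩ := mem_filter.1 hg
  rw [map_mul, act_K3]
  refine Ideal.mul_mem_right _ _ ?_
  have h4 := h.img g
  rw [img_of_mem_GS hg] at h4
  refine hn_V h h4 (fun hc => ?_) hne
  have h5 := (rk_congr (cl_img g A) (cl_img g B) rfl rfl).1 hc
  unfold rkLT at h5
  omega

theorem transport {T : Type} (c : T → V →₀ ℕ) (d : T → ℕ) (b : T → R V)
    (J : Finset (Vx V) → Ideal (R V)) (hJ : ∀ g A f, f ∈ J A → act g f ∈ J (img g A))
    (P : (V →₀ ℕ) → Prop)
    (h : ∀ α, P α → GBas (Iso k (std α)) (J (std α)) (fun t : {t // c t = α} => b t.1)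
      fun t => d t.1) :
    ∃ e : Finset (Vx V) → T → R V, ∀ A, P (cl A) →
      GBas (Iso k A) (J A) (fun t : {t // c t = cl A} => e A t.1) fun t => d t.1 := by
  have h1 : ∀ A : Finset (Vx V), ∃ g : Gf V, img g (std (cl A)) = A :=
    fun A => exists_img (cl_std _)
  choose g hg using h1
  have h2 : ∀ A, img (g A)⁻¹ A = std (cl A) := fun A => by
    have := img_mul (g A)⁻¹ (g A) (std (cl A))
    rw [inv_mul_cancel, img_one, hg] at this
    exact this.symm
  refine ⟨fun A t => act (g A) (b t), fun A hA => (h _ hA).act (g A) (fun f hf => ?_)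
    (fun f hf => ?_) (fun f hf => ?_) fun f hf => ?_⟩
  · have := iso_act (g A) hf
    rwa [hg] at this
  · have := iso_act (g A)⁻¹ hf
    rwa [h2] at this
  · have := hJ (g A) _ _ hf
    rwa [hg] at this
  · have := hJ (g A)⁻¹ _ _ hf
    rwa [h2] at this

omit [DecidableEq V] in
theorem tri_mem {I1 I2 I3 : Type} {e1 : I1 → R V} {e2 : I2 → R V} {e3 : I3 → R V}
    (L : R V →ₗ[ℚ] R V) (W : Submodule ℚ (R V))
    (h : ∀ i j l, L (e1 i * e2 j * e3 l) ∈ W) (c1 : I1 →₀ ℚ) (c2 : I2 →₀ ℚ) (c3 : I3 →₀ ℚ) :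
    L (Finsupp.linearCombination ℚ e1 c1 * Finsupp.linearCombination ℚ e2 c2 *
      Finsupp.linearCombination ℚ e3 c3) ∈ W := by
  simp only [Finsupp.linearCombination_apply, Finsupp.sum, sum_mul, mul_sum, map_sum,
    smul_mul_assoc, mul_smul_comm, map_smul]
  exact sum_mem fun _ _ => Submodule.smul_mem _ _ (sum_mem fun _ _ => Submodule.smul_mem _ _
    (sum_mem fun _ _ => Submodule.smul_mem _ _ (h _ _ _)))

omit [DecidableEq V] in
theorem lc_mem {I : Type} {e : I → R V} {W : Submodule ℚ (R V)} (h : ∀ i, e i ∈ W) (c : I →₀ ℚ) :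
    Finsupp.linearCombination ℚ e c ∈ W := by
  rw [Finsupp.linearCombination_apply]
  exact sum_mem fun i _ => Submodule.smul_mem _ _ (h i)

/-- one step of the spanning argument -/
theorem span_step (h : IsTy η S A B C) (W : Submodule ℚ (R V))
    (ih : ∀ A' B' C', IsTy η S A' B' C' → rkLT η A B A' B' → ∀ r ∈ RS S,
      Alt k S (K3 a A' B' C' * r) ∈ W)
    {I1 I2 I3 : Type} {e1 : I1 → R V} {e2 : I2 → R V} {e3 : I3 → R V}
    {d1 : I1 → ℕ} {d2 : I2 → ℕ} {d3 : I3 → ℕ}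
    (g1 : GBas (Iso k A) (Jp a η A) e1 d1) (g2 : GBas (Iso k B) (J0 a η B) e2 d2)
    (g3 : GBas (Iso k C) (Jm a η C) e3 d3)
    (hW : ∀ i j l, Alt k S (K3 a A B C * (e1 i * e2 j * e3 l)) ∈ W) {r : R V} (hr : r ∈ RS S) :
    Alt k S (K3 a A B C * r) ∈ W := by
  let L : R V →ₗ[ℚ] R V := Alt k S ∘ₗ LinearMap.mulLeft ℚ (K3 a A B C)
  have hL : ∀ x, L x = Alt k S (K3 a A B C * x) := fun x => rfl
  have herr : ∀ f ∈ J3 a η A B C, f ∈ RS S → L f ∈ W := fun f hf hS => by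
    have h1 := hn_Ref h hf hS
    have h2 : Submodule.span ℚ {y | ∃ A' B' C', IsTy η S A' B' C' ∧ rkLT η A B A' B' ∧
        ∃ r ∈ RS S, y = K3 a A' B' C' * r} ≤ W.comap (Alt k S) := by
      rw [Submodule.span_le]
      rintro _ ⟨A', B', C', h3, h4, r, h5, rfl⟩
      exact ih A' B' C' h3 h4 r h5
    exact h2 h1
  have h3 : Submodule.span ℚ {y | ∃ w1 ∈ RS A, ∃ w2 ∈ RS B, ∃ w3 ∈ RS C, y = w1 * w2 * w3} ≤
      W.comap L := by
    rw [Submodule.span_le]
    rintro _ ⟨w1, m1, w2, m2, w3, m3, rfl⟩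
    change L _ ∈ W
    rw [hL, alt3 h m1 m2 m3, ← hL]
    have n1 := alt_mem_iso (k := k) m1
    have n2 := alt_mem_iso (k := k) m2
    have n3 := alt_mem_iso (k := k) m3
    obtain ⟨c1, k1⟩ := g1.span _ n1
    obtain ⟨c2, k2⟩ := g2.span _ n2
    obtain ⟨c3, k3⟩ := g3.span _ n3
    have l1 := lc_mem g1.mem c1
    have l2 := lc_mem g2.mem c2
    have l3 := lc_mem g3.mem c3
    have t := tri_mem L W hW c1 c2 c3
    generalize Finsupp.linearCombination ℚ e1 c1 = u1 at *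
    generalize Finsupp.linearCombination ℚ e2 c2 = u2 at *
    generalize Finsupp.linearCombination ℚ e3 c3 = u3 at *
    generalize Alt k A w1 = v1 at *
    generalize Alt k B w2 = v2 at *
    generalize Alt k C w3 = v3 at *
    have e : v1 * v2 * v3 = u1 * u2 * u3 + (v1 * v2 * v3 - u1 * u2 * u3) := by ring
    rw [e, map_add]
    refine add_mem t (herr _ ?_ (sub_mem (prod_mem3 h n1.1 n2.1 n3.1) (prod_mem3 h l1.1 l2.1 l3.1)))
    have e' : v1 * v2 * v3 - u1 * u2 * u3 =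
        (v1 - u1) * (v2 * v3) + (v2 - u2) * (u1 * v3) + (v3 - u3) * (u1 * u2) := by ring
    rw [e']
    exact add_mem (Submodule.mem_sup_left (add_mem
      (Submodule.mem_sup_left (Ideal.mul_mem_right _ _ k1))
      (Submodule.mem_sup_right (Ideal.mul_mem_right _ _ k2))))
      (Submodule.mem_sup_right (Ideal.mul_mem_right _ _ k3))
  exact h3 (span3 h hr)

theorem main {T1 T2 T3 : Type}
    (c1 : T1 → V →₀ ℕ) (d1 : T1 → ℕ) (e1 : Finset (Vx V) → T1 → R V)
    (c2 : T2 → V →₀ ℕ) (d2 : T2 → ℕ) (e2 : Finset (Vx V) → T2 → R V)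
    (c3 : T3 → V →₀ ℕ) (d3 : T3 → ℕ) (e3 : Finset (Vx V) → T3 → R V)
    (h1 : ∀ A, GBas (Iso k A) (Jp a η A) (fun t : {t // c1 t = cl A} => e1 A t.1) fun t => d1 t.1)
    (h2 : ∀ B, etaC η (cl B) = 0 →
      GBas (Iso k B) (J0 a η B) (fun t : {t // c2 t = cl B} => e2 B t.1) fun t => d2 t.1)
    (h2' : ∀ t, etaC η (c2 t) = 0)
    (h3 : ∀ A, GBas (Iso k A) (Jm a η A) (fun t : {t // c3 t = cl A} => e3 A t.1) fun t => d3 t.1)
    {γ : V →₀ ℕ} (hS : cl S = γ) :
    ∃ F : {x : T1 × T2 × T3 // c1 x.1 + c2 x.2.1 + c3 x.2.2 = γ} → R V,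
      GBas (Iso k S) ⊥ F fun x => d1 x.1.1 + d2 x.1.2.1 + d3 x.1.2.2 +
        aC a (c1 x.1.1) (c2 x.1.2.1) + aC a (c1 x.1.1) (c3 x.1.2.2) +
        aC a (c2 x.1.2.1) (c3 x.1.2.2) := by
  classical
  subst hS
  have hex : ∀ α β γ : V →₀ ℕ, ∃ A B C, α + β + γ = cl S → etaC η β = 0 →
      IsTy η S A B C ∧ cl A = α ∧ cl B = β ∧ cl C = γ := fun α β γ => by
    by_cases hh : α + β + γ = cl S ∧ etaC η β = 0
    · obtain ⟨A, B, C, h⟩ := exists_ty hh.1 hh.2
      exact ⟨A, B, C, fun _ _ => h⟩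
    · exact ⟨∅, ∅, ∅, fun u v => (hh ⟨u, v⟩).elim⟩
  choose fA fB fC hf using hex
  let X := {x : T1 × T2 × T3 // c1 x.1 + c2 x.2.1 + c3 x.2.2 = cl S}
  let xA : X → Finset (Vx V) := fun x => fA (c1 x.1.1) (c2 x.1.2.1) (c3 x.1.2.2)
  let xB : X → Finset (Vx V) := fun x => fB (c1 x.1.1) (c2 x.1.2.1) (c3 x.1.2.2)
  let xC : X → Finset (Vx V) := fun x => fC (c1 x.1.1) (c2 x.1.2.1) (c3 x.1.2.2)
  have hx : ∀ x : X, IsTy η S (xA x) (xB x) (xC x) ∧ cl (xA x) = c1 x.1.1 ∧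
      cl (xB x) = c2 x.1.2.1 ∧ cl (xC x) = c3 x.1.2.2 := fun x => hf _ _ _ x.2 (h2' _)
  have hB0 : ∀ x : X, etaC η (cl (xB x)) = 0 := fun x => by rw [(hx x).2.2.1]; exact h2' _
  have m1 : ∀ x : X, e1 (xA x) x.1.1 ∈ Iso k (xA x) := fun x =>
    (h1 _).mem ⟨x.1.1, (hx x).2.1.symm⟩
  have m2 : ∀ x : X, e2 (xB x) x.1.2.1 ∈ Iso k (xB x) := fun x =>
    (h2 _ (hB0 x)).mem ⟨x.1.2.1, (hx x).2.2.1.symm⟩
  have m3 : ∀ x : X, e3 (xC x) x.1.2.2 ∈ Iso k (xC x) := fun x =>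
    (h3 _).mem ⟨x.1.2.2, (hx x).2.2.2.symm⟩
  let p : X → R V := fun x => e1 (xA x) x.1.1 * e2 (xB x) x.1.2.1 * e3 (xC x) x.1.2.2
  let F : X → R V := fun x => Alt k S (K3 a (xA x) (xB x) (xC x) * p x)
  refine ⟨F, fun x => ?_, fun x => ?_, fun c hc => ?_, fun w hw => ?_⟩
  · exact alt_mem_iso (mul_mem (K3_mem (hx x).1) (prod_mem3 (hx x).1 (m1 x).1 (m2 x).1 (m3 x).1))
  · refine alt_hom ?_
    have k0 := K3_hom (a := a) (A := xA x) (B := xB x) (C := xC x)
    rw [(hx x).2.1, (hx x).2.2.1, (hx x).2.2.2] at k0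
    have k1 : (e1 (xA x) x.1.1).IsHomogeneous (d1 x.1.1) := (h1 _).hom ⟨x.1.1, (hx x).2.1.symm⟩
    have k2 : (e2 (xB x) x.1.2.1).IsHomogeneous (d2 x.1.2.1) :=
      (h2 _ (hB0 x)).hom ⟨x.1.2.1, (hx x).2.2.1.symm⟩
    have k3 : (e3 (xC x) x.1.2.2).IsHomogeneous (d3 x.1.2.2) :=
      (h3 _).hom ⟨x.1.2.2, (hx x).2.2.2.symm⟩
    have k4 := k0.mul ((k1.mul k2).mul k3)
    have e : aC a (c1 x.1.1) (c2 x.1.2.1) + aC a (c1 x.1.1) (c3 x.1.2.2) +
        aC a (c2 x.1.2.1) (c3 x.1.2.2) + (d1 x.1.1 + d2 x.1.2.1 + d3 x.1.2.2) =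
        d1 x.1.1 + d2 x.1.2.1 + d3 x.1.2.2 +
        aC a (c1 x.1.1) (c2 x.1.2.1) + aC a (c1 x.1.1) (c3 x.1.2.2) +
        aC a (c2 x.1.2.1) (c3 x.1.2.2) := by ring
    rw [e] at k4
    exact k4
  · by_contra hne
    obtain ⟨x0, hx0, hmax⟩ := exists_max_image c.support (fun x => nb η S (xA x) (xB x))
      (Finsupp.support_nonempty_iff.2 hne)
    have hmin : ∀ x ∈ c.support, ¬ rkLT η (xA x) (xB x) (xA x0) (xB x0) := fun x hxs hr =>
      absurd (nb_lt (subA (hx x0).1) (subB (hx x0).1) hr) (not_lt.2 (hmax x hxs))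
    obtain ⟨κ, hκ, hsame⟩ := alt_same (a := a) (k := k) (hx x0).1
    let Q : X → Prop := fun x => c1 x.1.1 = c1 x0.1.1 ∧ c2 x.1.2.1 = c2 x0.1.2.1
    have hQ : ∀ x, Q x → c3 x.1.2.2 = c3 x0.1.2.2 := fun x hq => by
      have u := x.2.trans x0.2.symm
      rw [hq.1, hq.2] at u
      exact add_left_cancel u
    have hQA : ∀ x, Q x → xA x = xA x0 := fun x hq => by
      simp only [xA, hq.1, hq.2, hQ x hq]
    have hQB : ∀ x, Q x → xB x = xB x0 := fun x hq => by
      simp only [xB, hq.1, hq.2, hQ x hq]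
    have hQC : ∀ x, Q x → xC x = xC x0 := fun x hq => by
      simp only [xC, hq.1, hq.2, hQ x hq]
    have hmod : ∀ x ∈ c.support, F x - κ • (K3 a (xA x0) (xB x0) (xC x0) *
        (if Q x then p x else 0)) ∈ J3 a η (xA x0) (xB x0) (xC x0) := fun x hxs => by
      split_ifs with hq
      · have u1 := m1 x
        have u2 := m2 x
        have u3 := m3 x
        simp only [F, p]
        rw [hQA x hq] at u1 ⊢
        rw [hQB x hq] at u2 ⊢
        rw [hQC x hq] at u3 ⊢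
        exact hsame _ u1 _ u2 _ u3
      · rw [mul_zero, smul_zero, sub_zero]
        refine alt_other (hx x0).1 (hx x).1 (hmin x hxs) (fun hc => hq ?_) _
        rw [(hx x).2.1, (hx x).2.2.1, (hx x0).2.1, (hx x0).2.2.1] at hc
        exact hc
    have hsum : K3 a (xA x0) (xB x0) (xC x0) *
        (∑ x ∈ c.support, (κ * c x) • (if Q x then p x else 0)) ∈
        J3 a η (xA x0) (xB x0) (xC x0) := by
      have u : ∑ x ∈ c.support, c x • (F x - κ • (K3 a (xA x0) (xB x0) (xC x0) *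
          (if Q x then p x else 0))) ∈ J3 a η (xA x0) (xB x0) (xC x0) :=
        sum_mem fun x hxs => Submodule.smul_of_tower_mem _ _ (hmod x hxs)
      have v : ∑ x ∈ c.support, c x • F x = 0 := by
        have := Ideal.mem_bot.1 hc
        rwa [Finsupp.linearCombination_apply] at this
      simp only [smul_sub, sum_sub_distrib, v, zero_sub] at u
      rw [mul_sum]
      simp only [mul_smul_comm, mul_comm κ, mul_smul]
      exact neg_mem_iff.1 u
    have hsum' := hn_NZD (hx x0).1 hsum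
    obtain ⟨φ1, a1, b1⟩ := (h1 (xA x0)).ind.exists_dual ⟨x0.1.1, (hx x0).2.1.symm⟩
    obtain ⟨φ2, a2, b2⟩ := (h2 (xB x0) (hB0 x0)).ind.exists_dual ⟨x0.1.2.1, (hx x0).2.2.1.symm⟩
    obtain ⟨φ3, a3, b3⟩ := (h3 (xC x0)).ind.exists_dual ⟨x0.1.2.2, (hx x0).2.2.2.symm⟩
    obtain ⟨Ψ, k1, k2⟩ := multi3 (hx x0).1 φ1 φ2 φ3 a1 a2 a3
    have hΨ : ∀ x, Ψ (if Q x then p x else 0) = if x = x0 then 1 else 0 := fun x => by
      by_cases hq : Q x
      · rw [if_pos hq]
        have u1 := m1 x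
        have u2 := m2 x
        have u3 := m3 x
        simp only [p]
        rw [hQA x hq] at u1 ⊢
        rw [hQB x hq] at u2 ⊢
        rw [hQC x hq] at u3 ⊢
        rw [k1 _ u1.1 _ u2.1 _ u3.1, b1 ⟨x.1.1, hq.1.trans (hx x0).2.1.symm⟩,
          b2 ⟨x.1.2.1, hq.2.trans (hx x0).2.2.1.symm⟩,
          b3 ⟨x.1.2.2, (hQ x hq).trans (hx x0).2.2.2.symm⟩]
        by_cases hxx : x = x0
        · subst hxx
          simp
        · rw [if_neg hxx]
          by_cases q1 : x.1.1 = x0.1.1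
          · by_cases q2 : x.1.2.1 = x0.1.2.1
            · have q3 : x.1.2.2 ≠ x0.1.2.2 := fun q3 =>
                hxx (Subtype.ext (Prod.ext q1 (Prod.ext q2 q3)))
              simp [q3]
            · simp [q2]
          · simp [q1]
      · rw [if_neg hq, map_zero, if_neg]
        rintro rfl
        exact hq ⟨rfl, rfl⟩
    have fin := k2 _ hsum'
    simp only [map_sum, map_smul, hΨ, smul_eq_mul, mul_ite, mul_one, mul_zero, sum_ite_eq', hx0,
      if_true] at fin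
    exact Finsupp.mem_support_iff.1 hx0 ((mul_eq_zero.1 fin).resolve_left hκ)
  · have key : ∀ n A B C, IsTy η S A B C → nb η S A B = n → ∀ r ∈ RS S,
        Alt k S (K3 a A B C * r) ∈ Submodule.span ℚ (Set.range F) := by
      intro n
      induction n using Nat.strong_induction_on with
      | _ n ih =>
        intro A B C h hn r hr
        have hβ : etaC η (cl B) = 0 := by rw [← etaS_eq]; exact h.2.2.2.2
        obtain ⟨t0, t1, t2, t3⟩ := hf _ _ _ (cl_ty h) hβ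
        obtain ⟨g, hg, i1, i2, i3⟩ := blocks3 h t0 t1.symm t2.symm t3.symm
        have e : Alt k S (K3 a A B C * r) = chi k g • Alt k S (act g (K3 a A B C * r)) := by
          rw [alt_act hg, smul_smul, chi_mul_self, one_smul]
        rw [e, map_mul, act_K3, i1, i2, i3]
        refine Submodule.smul_mem _ _ (span_step t0 _ (fun A' B' C' h' hr' => ?_)
          (h1 _) (h2 _ (by rw [t2]; exact hβ)) (h3 _) (fun i j l => ?_) ?_)
        · refine ih _ ?_ A' B' C' h' rfl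
          rw [← hn]
          exact nb_lt (subA h') (subB h') ((rk_congr t1 t2 rfl rfl).1 hr')
        · have q1 := i.2.trans t1
          have q2 := j.2.trans t2
          have q3 := l.2.trans t3
          refine Submodule.subset_span ⟨⟨(i.1, j.1, l.1), by rw [q1, q2, q3]; exact cl_ty h⟩, ?_⟩
          simp only [F, p, xA, xB, xC, q1, q2, q3]
        · have := act_mem_RS g hr
          rwa [img_of_mem_GS hg] at this
    have ty : IsTy η S ∅ ∅ S := ⟨by simp, by simp, by simp, by simp, rfl⟩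
    have u := key _ _ _ _ ty rfl w hw.1
    rw [K3, Kr_empty_left, Kr_empty_left, one_mul, one_mul, one_mul, alt_of_iso hw] at u
    obtain ⟨c, hc⟩ := Finsupp.mem_span_range_iff_exists_finsupp.1 u
    refine ⟨c, ?_⟩
    rw [Finsupp.linearCombination_apply, hc, sub_self]
    exact zero_mem _

end HNAux

theorem hn_basis (a : V → V → ℕ) (η k : V → ℤ) {T1 T2 T3 : Type}
    (c1 : T1 → V →₀ ℕ) (d1 : T1 → ℕ) (b1 : T1 → R V)
    (c2 : T2 → V →₀ ℕ) (d2 : T2 → ℕ) (b2 : T2 → R V)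
    (c3 : T3 → V →₀ ℕ) (d3 : T3 → ℕ) (b3 : T3 → R V)
    (h1 : ∀ α, GBas (Iso k (std α)) (Jp a η (std α))
      (fun t : {t // c1 t = α} => b1 t.1) fun t => d1 t.1)
    (h2 : ∀ β, etaC η β = 0 → GBas (Iso k (std β)) (J0 a η (std β))
      (fun t : {t // c2 t = β} => b2 t.1) fun t => d2 t.1)
    (h2' : ∀ t, etaC η (c2 t) = 0)
    (h3 : ∀ γ, GBas (Iso k (std γ)) (Jm a η (std γ))
      (fun t : {t // c3 t = γ} => b3 t.1) fun t => d3 t.1)
    (γ : V →₀ ℕ) :
    ∃ F : {x : T1 × T2 × T3 // c1 x.1 + c2 x.2.1 + c3 x.2.2 = γ} → R V,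
      GBas (Iso k (std γ)) ⊥ F fun x => d1 x.1.1 + d2 x.1.2.1 + d3 x.1.2.2 +
        aC a (c1 x.1.1) (c2 x.1.2.1) + aC a (c1 x.1.1) (c3 x.1.2.2) +
        aC a (c2 x.1.2.1) (c3 x.1.2.2) := by
  obtain ⟨e1, g1⟩ := HNAux.transport (k := k) c1 d1 b1 (Jp a η) (fun g _ _ hf => Jp_act g hf)
    (fun _ => True) fun α _ => h1 α
  obtain ⟨e2, g2⟩ := HNAux.transport (k := k) c2 d2 b2 (J0 a η) (fun g _ _ hf => J0_act g hf)
    (fun β => etaC η β = 0) h2
  obtain ⟨e3, g3⟩ := HNAux.transport (k := k) c3 d3 b3 (Jm a η) (fun g _ _ hf => Jm_act g hf)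
    (fun _ => True) fun α _ => h3 α
  exact HNAux.main c1 d1 e1 c2 d2 e2 c3 d3 e3 (fun A => g1 A trivial) g2 h2'
    (fun A => g3 A trivial) (cl_std γ)

end
end Vale.Agent.P066.A
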