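import Vale.Agent.P066.A.Bas
import Vale.Agent.P066.A.Contr

/-!
P066 part A, file Ideals (TASK A5): the unstable ideals and Harder-Narasimhan combinatorics.
* `hn_V`: suppose `K3 A' B' C' ∉ J3 A B C`.  For `U = A'` and `U = A' ∪ B'`, `Kr U (S \ U)` divides
  `K3 A' B' C'`, and it is divisible by `Kr (U ∩ A) (A \ (U ∩ A))` and the analogues for `B`, `C`.
  Hence (`U ∩ A = A` or `η (A \ U) > 0`), `η (U ∩ B) ≤ 0`, (`U ∩ C = ∅` or `η (U ∩ C) < 0`).  So
  `η U ≤ η A` with equality only if `A ⊆ U` and `U ∩ C = ∅`.  With `U = A'` the rank hypothesis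
  forces `A' = A`; then `U = A ∪ B'` gives `B' ⊆ B`, and the rank forces `B' = B`.
* `hn_Ref`: by `mem_span_RS` reduce to a generator times `r ∈ RS S`.  Generator of `Jp A` with
  `U ⊂ A`: use the type `(U, ∅, S \ U)`.  Generator of `J0 B` with `U`: `(A ∪ U, ∅, rest)`.
  Generator of `Jm C` with `η U > 0`: `(A ∪ B ∪ U, ∅, C \ U)`; with `η U = 0`: `(A, B ∪ U, C \ U)`.
  In each case the new `K3` divides `K3 A B C * generator` (expand with `Kr_union_*`), `dvd_RS`.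
* `hn_NZD`: `nzd_of_shift` three times with `c = 2, 1, 0` on `A, B, C`.
* `Ko_mul_J0`: for `U ⊆ B j` take `U' = U ∪ (blocks before j)`; `Kr U' (S \ U')` divides
  `Ko B * Kr U (B j \ U)` (write both as products over pairs `(s,t)`).
-/

namespace Vale.Agent.P066.A
open MvPolynomial Finset
noncomputable section

variable {V : Type} [DecidableEq V] {a : V → V → ℕ} {η k : V → ℤ}
  {A A' B B' C C' S : Finset (Vx V)} {f : R V}

theorem etaS_img (g : Gf V) : etaS η (img g A) = etaS η A := by rw [etaS_eq, cl_img, etaS_eq]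
theorem aS_img (g g' : Gf V) : aS a (img g A) (img g' B) = aS a A B := by
  rw [aS_eq, cl_img, cl_img, aS_eq]
theorem Jp_gen : GenIn (RS A) (Jp a η A) :=
  ⟨_, rfl, fun _ ⟨_, h, _, e⟩ => e ▸ Kr_mem h.subset sdiff_subset⟩
theorem J0_gen : GenIn (RS A) (J0 a η A) :=
  ⟨_, rfl, fun _ ⟨_, h, _, e⟩ => e ▸ Kr_mem h sdiff_subset⟩
theorem Jm_gen : GenIn (RS A) (Jm a η A) :=
  ⟨_, rfl, fun _ ⟨_, h, _, _, e⟩ => e ▸ Kr_mem h sdiff_subset⟩
theorem Jp_scale : ∀ f ∈ Jp a η A, scale f ∈ Jp a η A :=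
  scale_span fun _ ⟨_, _, _, e⟩ => ⟨_, e ▸ Kr_hom _ _ _⟩
theorem J0_scale : ∀ f ∈ J0 a η A, scale f ∈ J0 a η A :=
  scale_span fun _ ⟨_, _, _, e⟩ => ⟨_, e ▸ Kr_hom _ _ _⟩
theorem Jm_scale : ∀ f ∈ Jm a η A, scale f ∈ Jm a η A :=
  scale_span fun _ ⟨_, _, _, _, e⟩ => ⟨_, e ▸ Kr_hom _ _ _⟩
theorem Jp_act (g : Gf V) (hf : f ∈ Jp a η A) : act g f ∈ Jp a η (img g A) :=
  act_span g (by
    rintro _ ⟨U, h1, h2, rfl⟩
    exact Ideal.subset_span ⟨img g U, ⟨(img_subset g).2 h1.1, fun h => h1.2 ((img_subset g).1 h)⟩,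
      by rwa [← img_sdiff, etaS_img], by rw [act_Kr, img_sdiff]⟩) f hf
theorem J0_act (g : Gf V) (hf : f ∈ J0 a η A) : act g f ∈ J0 a η (img g A) :=
  act_span g (by
    rintro _ ⟨U, h1, h2, rfl⟩
    exact Ideal.subset_span ⟨img g U, (img_subset g).2 h1,
      by rwa [etaS_img], by rw [act_Kr, img_sdiff]⟩) f hf
theorem Jm_act (g : Gf V) (hf : f ∈ Jm a η A) : act g f ∈ Jm a η (img g A) :=
  act_span g (by
    rintro _ ⟨U, h1, h0, h2, rfl⟩
    exact Ideal.subset_span ⟨img g U, (img_subset g).2 h1,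
      h0.image _, by rwa [etaS_img], by rw [act_Kr, img_sdiff]⟩) f hf
theorem Jp_empty : Jp a η ∅ = ⊥ :=
  Ideal.span_eq_bot.2 fun _ ⟨U, h, _⟩ => absurd h (not_ssubset_empty U)
theorem J0_empty : J0 a η ∅ = ⊥ :=
  Ideal.span_eq_bot.2 fun _ ⟨_, h, h', _⟩ => by simp [subset_empty.1 h, etaS] at h'
theorem Jm_empty : Jm a η ∅ = ⊥ :=
  Ideal.span_eq_bot.2 fun _ ⟨_, h, h', _⟩ => absurd (subset_empty.1 h) h'.ne_empty
theorem Jp_top (hA : A.Nonempty) (h : etaS η A ≤ 0) : Jp a η A = ⊤ :=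
  (Ideal.eq_top_iff_one _).2
    (Ideal.subset_span ⟨∅, hA.empty_ssubset, by rwa [sdiff_empty], Kr_empty_left.symm⟩)
theorem Jm_top (hA : A.Nonempty) (h : 0 ≤ etaS η A) : Jm a η A = ⊤ :=
  (Ideal.eq_top_iff_one _).2
    (Ideal.subset_span ⟨A, Subset.rfl, hA, h, by rw [Finset.sdiff_self, Kr_empty_right]⟩)
theorem act_K3 (g : Gf V) : act g (K3 a A B C) = K3 a (img g A) (img g B) (img g C) := by
  simp only [K3, map_mul, act_Kr]
theorem IsTy.img (h : IsTy η S A B C) (g : Gf V) :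
    IsTy η (img g S) (img g A) (img g B) (img g C) :=
  ⟨(img_disjoint g).2 h.1, (img_disjoint g).2 h.2.1, (img_disjoint g).2 h.2.2.1,
    by rw [← img_union, ← img_union, h.2.2.2.1], (etaS_img g).trans h.2.2.2.2⟩

/-- the kernel attached to a set of pairs -/
def Kp (a : V → V → ℕ) (P : Finset (Vx V × Vx V)) : R V :=
  ∏ p ∈ P, (X p.1 - X p.2) ^ a p.1.1 p.2.1
omit [DecidableEq V] in
theorem Kr_eq_Kp : Kr a A B = Kp a (A ×ˢ B) := by rw [Kp, prod_product, Kr]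
theorem Kp_dvd_mul {P Q Q' : Finset (Vx V × Vx V)} (h : P ⊆ Q ∪ Q') :
    Kp a P ∣ Kp a Q * Kp a Q' :=
  (prod_dvd_prod_of_subset _ _ _ h).trans ⟨_, prod_union_inter.symm⟩
theorem Kp_biUnion_dvd {ι : Type} [DecidableEq ι] (I : Finset ι) (P : ι → Finset (Vx V × Vx V)) :
    Kp a (I.biUnion P) ∣ ∏ i ∈ I, Kp a (P i) := by
  induction I using Finset.induction_on with
  | empty => simp [Kp]
  | insert i I hi ih =>
    rw [biUnion_insert, prod_insert hi]
    exact (Kp_dvd_mul Subset.rfl).trans (mul_dvd_mul_left _ ih)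
theorem IsTy.K3_eq (h : IsTy η S A B C) : K3 a A B C = Kp a (A ×ˢ B ∪ A ×ˢ C ∪ B ×ˢ C) := by
  rw [← product_union, K3, ← Kr_union_right h.2.2.1, Kr_eq_Kp, Kr_eq_Kp]
  exact (prod_union (disjoint_product.2 (Or.inl h.1))).symm
theorem IsTy.mem (h : IsTy η S A B C) (s : Vx V) : (s ∈ S ↔ s ∈ A ∨ s ∈ B ∨ s ∈ C) ∧
    ¬(s ∈ A ∧ s ∈ B) ∧ ¬(s ∈ A ∧ s ∈ C) ∧ ¬(s ∈ B ∧ s ∈ C) :=
  ⟨by simp [← h.2.2.2.1], fun e => disjoint_left.1 h.1 e.1 e.2,
    fun e => disjoint_left.1 h.2.1 e.1 e.2, fun e => disjoint_left.1 h.2.2.1 e.1 e.2⟩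
theorem IsTy.sub (h : IsTy η S A B C) : A ⊆ S ∧ B ⊆ S ∧ C ⊆ S :=
  ⟨fun s hs => (h.mem s).1.2 (.inl hs), fun s hs => (h.mem s).1.2 (.inr (.inl hs)),
    fun s hs => (h.mem s).1.2 (.inr (.inr hs))⟩
theorem IsTy.K3_mem (h : IsTy η S A B C) : K3 a A B C ∈ RS S :=
  mul_mem (mul_mem (Kr_mem h.sub.1 h.sub.2.1) (Kr_mem h.sub.1 h.sub.2.2))
    (Kr_mem h.sub.2.1 h.sub.2.2)
theorem isTy_two (h : A ⊆ S) : IsTy η S A ∅ (S \ A) :=
  ⟨disjoint_empty_right _, disjoint_sdiff, disjoint_empty_left _, by simpa using h, rfl⟩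

theorem hn_key (h : IsTy η S A B C) {U : Finset (Vx V)} (hU : U ⊆ S) (hn : f ∉ J3 a η A B C)
    (hd : Kr a U (S \ U) ∣ f) :
    etaS η U ≤ etaS η A ∧ (etaS η U = etaS η A → A ⊆ U ∧ Disjoint U C) := by
  have d : ∀ T ⊆ S, ∀ J : Ideal (R V), J ≤ J3 a η A B C → Kr a (T ∩ U) (T \ (T ∩ U)) ∉ J :=
    fun T hT J hJ hm => hn (hJ (Ideal.mem_of_dvd _ ((Kr_dvd inter_subset_right (by
      rw [sdiff_inter_self_left]; exact sdiff_subset_sdiff hT Subset.rfl)).trans hd) hm))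
  have h1 : A ⊆ U ∨ 0 < etaS η (A \ (A ∩ U)) := by
    by_contra hc
    rw [not_or, not_lt] at hc
    exact d A h.sub.1 _ (le_sup_of_le_left le_sup_left) (Ideal.subset_span ⟨_,
      ⟨inter_subset_left, fun e => hc.1 (e.trans inter_subset_right)⟩, hc.2, rfl⟩)
  have h2 : etaS η (B ∩ U) ≤ 0 := not_lt.1 fun hc =>
    d B h.sub.2.1 _ (le_sup_of_le_left le_sup_right)
      (Ideal.subset_span ⟨_, inter_subset_left, hc, rfl⟩)
  have h3 : C ∩ U = ∅ ∨ etaS η (C ∩ U) < 0 := by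
    by_contra hc
    rw [not_or, not_lt] at hc
    exact d C h.sub.2.2 _ le_sup_right
      (Ideal.subset_span ⟨_, inter_subset_left, nonempty_iff_ne_empty.2 hc.1, hc.2, rfl⟩)
  have h4 : etaS η U = etaS η (A ∩ U) + etaS η (B ∩ U) + etaS η (C ∩ U) := by
    rw [← etaS_union (h.1.mono inter_subset_left inter_subset_left), ← union_inter_distrib_right,
      ← etaS_union ((disjoint_union_left.2 ⟨h.2.1, h.2.2.1⟩).mono inter_subset_left
        inter_subset_left), ← union_inter_distrib_right, h.2.2.2.1, inter_eq_right.2 hU]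
  rw [etaS_sdiff inter_subset_left] at h1
  have h5 : A ⊆ U → etaS η (A ∩ U) = etaS η A := fun e => by rw [inter_eq_left.2 e]
  have h6 : C ∩ U = ∅ → etaS η (C ∩ U) = 0 := fun e => by rw [e]; rfl
  rcases h1 with h1 | h1 <;> rcases h3 with h3 | h3
  · exact ⟨by have := h5 h1; have := h6 h3; omega,
      fun _ => ⟨h1, (disjoint_iff_inter_eq_empty.2 h3).symm⟩⟩
  · have := h5 h1; omega
  · have := h6 h3; omega
  · omega

theorem hn_V (h : IsTy η S A B C) (h' : IsTy η S A' B' C') (hr : ¬ rkLT η A' B' A B)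
    (hne : ¬ (A' = A ∧ B' = B)) : K3 a A' B' C' ∈ J3 a η A B C := by
  by_contra hn
  have d : ∀ U, U ×ˢ (S \ U) ⊆ A' ×ˢ B' ∪ A' ×ˢ C' ∪ B' ×ˢ C' →
      Kr a U (S \ U) ∣ K3 a A' B' C' := fun U hU => by
    rw [h'.K3_eq, Kr_eq_Kp]
    exact prod_dvd_prod_of_subset _ _ _ hU
  obtain ⟨h1, h2⟩ := hn_key h h'.sub.1 hn (d _ fun p => by
    have := (h'.mem p.2).1.1
    simp only [mem_product, mem_union, mem_sdiff]
    grind)
  obtain ⟨-, h3⟩ := hn_key h (union_subset h'.sub.1 h'.sub.2.1) hn (d _ fun p => by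
    have := (h'.mem p.2).1.1
    simp only [mem_product, mem_union, mem_sdiff]
    grind)
  rw [etaS_union h'.1, h'.2.2.2.2, add_zero] at h3
  unfold rkLT at hr
  have e : etaS η A' = etaS η A := by omega
  obtain rfl : A = A' := eq_of_subset_of_card_le (h2 e).1 (by omega)
  refine hne ⟨rfl, eq_of_subset_of_card_le (fun s hs => ?_) (by omega)⟩
  exact (((h.mem s).1.1 (h'.sub.2.1 hs)).resolve_left (disjoint_right.1 h'.1 hs)).resolve_right
    (disjoint_left.1 (h3 e).2 (mem_union_right _ hs))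

theorem J3_eq : J3 a η A B C =
    Ideal.span ({x | ∃ U, U ⊂ A ∧ etaS η (A \ U) ≤ 0 ∧ x = Kr a U (A \ U)} ∪
      {x | ∃ U, U ⊆ B ∧ 0 < etaS η U ∧ x = Kr a U (B \ U)} ∪
      {x | ∃ U, U ⊆ C ∧ U.Nonempty ∧ 0 ≤ etaS η U ∧ x = Kr a U (C \ U)}) := by
  rw [Ideal.span_union, Ideal.span_union]
  rfl

theorem hn_Ref (h : IsTy η S A B C) (hf : f ∈ J3 a η A B C) (hS : f ∈ RS S) :
    K3 a A B C * f ∈ Submodule.span ℚ {y | ∃ A' B' C', IsTy η S A' B' C' ∧ rkLT η A B A' B' ∧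
      ∃ r ∈ RS S, y = K3 a A' B' C' * r} := by
  rw [J3_eq] at hf
  obtain ⟨hA, hB, hC⟩ := h.sub
  have h1 := mem_span_RS (S := S) (by
    rintro _ ((⟨U, hU, -, rfl⟩ | ⟨U, hU, -, rfl⟩) | ⟨U, hU, -, -, rfl⟩)
    · exact Kr_mem (hU.1.trans hA) (sdiff_subset.trans hA)
    · exact Kr_mem (hU.trans hB) (sdiff_subset.trans hB)
    · exact Kr_mem (hU.trans hC) (sdiff_subset.trans hC)) hS hf
  refine Submodule.mem_comap.1 ((Submodule.span_le
    (p := Submodule.comap (LinearMap.mulLeft ℚ (K3 a A B C)) (Submodule.span ℚ _))).2 ?_ h1)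
  rintro _ ⟨u, hu, r, hr, rfl⟩
  have step : ∀ A' B' C' U T, IsTy η S A' B' C' → rkLT η A B A' B' → U ⊆ T → T ⊆ S →
      A' ×ˢ B' ∪ A' ×ˢ C' ∪ B' ×ˢ C' ⊆ A ×ˢ B ∪ A ×ˢ C ∪ B ×ˢ C ∪ U ×ˢ (T \ U) →
      K3 a A B C * (Kr a U (T \ U) * r) ∈ {y | ∃ A' B' C', IsTy η S A' B' C' ∧
        rkLT η A B A' B' ∧ ∃ r ∈ RS S, y = K3 a A' B' C' * r} := by
    intro A' B' C' U T h' hk hU hT hs
    obtain ⟨z, hz, e⟩ := dvd_RS (h'.K3_mem (a := a))
      (mul_mem (h.K3_mem (a := a)) (Kr_mem (a := a) (hU.trans hT) (sdiff_subset.trans hT)))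
      (by rw [h'.K3_eq, h.K3_eq, Kr_eq_Kp]; exact Kp_dvd_mul hs)
    exact ⟨A', B', C', h', hk, z * r, mul_mem hz hr, by rw [← mul_assoc, e, mul_assoc]⟩
  refine Submodule.subset_span ?_
  rcases hu with (⟨U, hU, h2, rfl⟩ | ⟨U, hU, h2, rfl⟩) | ⟨U, hU, h0, h2, rfl⟩
  · refine step U ∅ _ U A (isTy_two (hU.1.trans hA)) ?_ hU.1 hA fun p => ?_
    · rw [etaS_sdiff hU.1] at h2
      have := card_lt_card hU
      unfold rkLT
      omega
    · have := (h.mem p.2).1.1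
      have := @hU.1 p.1
      simp only [mem_product, mem_union, mem_sdiff, notMem_empty]
      grind
  · refine step (A ∪ U) ∅ _ U B (isTy_two (union_subset hA (hU.trans hB))) (.inl ?_) hU hB
      fun p => ?_
    · rw [etaS_union (h.1.mono_right hU)]
      omega
    · have := (h.mem p.2).1.1
      have := @hU p.1
      simp only [mem_product, mem_union, mem_sdiff, notMem_empty]
      grind
  · rcases h2.lt_or_eq with h2 | h2
    · refine step (A ∪ B ∪ U) ∅ _ U C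
        (isTy_two (union_subset (union_subset hA hB) (hU.trans hC))) (.inl ?_) hU hC fun p => ?_
      · rw [etaS_union ((disjoint_union_left.2 ⟨h.2.1, h.2.2.1⟩).mono_right hU), etaS_union h.1,
          h.2.2.2.2]
        omega
      · have := (h.mem p.2).1.1
        simp only [mem_product, mem_union, mem_sdiff, notMem_empty]
        grind
    · have hd := h.2.2.1.mono_right hU
      refine step A (B ∪ U) (C \ U) U C ⟨disjoint_union_right.2 ⟨h.1, h.2.1.mono_right hU⟩,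
        h.2.1.mono_right sdiff_subset,
        disjoint_union_left.2 ⟨h.2.2.1.mono_right sdiff_subset, disjoint_sdiff⟩, ?_, ?_⟩
        (.inr ⟨rfl, .inr ⟨rfl, ?_⟩⟩) hU hC fun p => ?_
      · rw [← h.2.2.2.1, union_assoc, union_assoc, union_sdiff_of_subset hU, union_assoc]
      · rw [etaS_union hd, h.2.2.2.2, ← h2, add_zero]
      · rw [card_union_of_disjoint hd]
        exact Nat.lt_add_of_pos_right h0.card_pos
      · have := @hU p.2
        simp only [mem_product, mem_union, mem_sdiff]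
        grind

theorem hn_NZD (h : IsTy η S A B C) (hf : K3 a A B C * f ∈ J3 a η A B C) :
    f ∈ J3 a η A B C := by
  let c : Vx V → ℚ := fun s => if s ∈ A then 2 else if s ∈ B then 1 else 0
  have cA : ∀ s ∈ A, c s = 2 := fun s hs => if_pos hs
  have cB : ∀ s ∈ B, c s = 1 := fun s hs =>
    (if_neg (disjoint_right.1 h.1 hs)).trans (if_pos hs)
  have cC : ∀ s ∈ C, c s = 0 := fun s hs =>
    (if_neg (disjoint_right.1 h.2.1 hs)).trans (if_neg (disjoint_right.1 h.2.2.1 hs))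
  have k1 : ∀ {T U : Finset (Vx V)} {x : ℚ}, (∀ s ∈ T, c s = x) → U ⊆ T →
      sh1 c (Kr a U (T \ U)) = Polynomial.C (Kr a U (T \ U)) := fun hT hU =>
    sh1_Kr a c fun s hs t ht => by rw [hT s (hU hs), hT t (sdiff_subset ht)]
  rw [J3_eq] at hf ⊢
  have k2 := fun {T U : Finset (Vx V)} hTU {f} => nzd_of_shift (A := T) (B := U) c (by
    rintro _ ((⟨U, hU, -, rfl⟩ | ⟨U, hU, -, rfl⟩) | ⟨U, hU, -, -, rfl⟩)
    exacts [k1 cA hU.1, k1 cB hU, k1 cC hU]) a hTU (f := f) (G :=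
      {x | ∃ U, U ⊂ A ∧ etaS η (A \ U) ≤ 0 ∧ x = Kr a U (A \ U)} ∪
      {x | ∃ U, U ⊆ B ∧ 0 < etaS η U ∧ x = Kr a U (B \ U)} ∪
      {x | ∃ U, U ⊆ C ∧ U.Nonempty ∧ 0 ≤ etaS η U ∧ x = Kr a U (C \ U)})
  rw [K3, mul_assoc, mul_assoc] at hf
  refine k2 (fun s hs t ht => ?_) (k2 (fun s hs t ht => ?_) (k2 (fun s hs t ht => ?_) hf))
  · rw [cB s hs, cC t ht]; norm_num
  · rw [cA s hs, cC t ht]; norm_num
  · rw [cA s hs, cB t ht]; norm_num

theorem Ko_mul_J0 {r : ℕ} {B : Fin r → Finset (Vx V)} (hB : OZ η S B) (j : Fin r)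
    (hf : f ∈ J0 a η (B j)) : Ko a B * f ∈ J0 a η S := by
  refine (Submodule.span_le
    (p := Submodule.comap (LinearMap.mulLeft (R V) (Ko a B)) (J0 a η S))).2 ?_ hf
  rintro _ ⟨U, hU, h0, rfl⟩
  have hd : Disjoint U ((Iio j).biUnion B) := (disjoint_biUnion_right _ _ _).2 fun i hi =>
    (hB.1.1 j i (mem_Iio.1 hi).ne').mono_left hU
  refine Ideal.mem_of_dvd (J0 a η S) (a := Kr a _ _) (b := Ko a B * Kr a U (B j \ U)) ?_
    (Ideal.subset_span ⟨U ∪ (Iio j).biUnion B,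
    union_subset (hU.trans (hB.1.subset j)) (biUnion_subset.2 fun i _ => hB.1.subset i), ?_, rfl⟩)
  · refine (Kr_eq_Kp.dvd.trans (Kp_dvd_mul (Q := univ.biUnion fun i =>
      (Ioi i).biUnion fun l => B i ×ˢ B l) fun p hp => ?_)).trans
      (mul_dvd_mul ((Kp_biUnion_dvd _ _).trans (prod_dvd_prod_of_dvd _ _ fun i _ => ?_))
        Kr_eq_Kp.symm.dvd)
    · simp only [mem_product, mem_union, mem_sdiff, mem_biUnion, mem_univ, true_and, mem_Ioi,
        mem_Iio, not_or, not_exists, not_and] at hp ⊢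
      obtain ⟨h1, h2, h3, h4⟩ := hp
      obtain ⟨l, hl⟩ := hB.1.basic_mem_iff.1 h2
      have h5 : j ≤ l := not_lt.1 fun e => h4 l e hl
      rcases h1 with h1 | ⟨i, hi, h1⟩
      · rcases h5.eq_or_lt with rfl | h5
        · exact .inr ⟨h1, hl, h3⟩
        · exact .inl ⟨j, l, h5, hU h1, hl⟩
      · exact .inl ⟨i, l, hi.trans_le h5, h1, hl⟩
    · simp only [Kr_eq_Kp]
      exact Kp_biUnion_dvd _ _
  · have e : etaS η ((Iio j).biUnion B) = 0 := (sum_biUnion fun i _ l _ e => hB.1.1 i l e).trans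
      (sum_eq_zero fun i _ => (hB.2 i).2)
    rwa [etaS_union hd, e, add_zero]
theorem Ko_mem {r : ℕ} {B : Fin r → Finset (Vx V)} (hB : OP S B) : Ko a B ∈ RS S :=
  prod_mem fun _ _ => prod_mem fun _ _ => Kr_mem (hB.subset _) (hB.subset _)
omit [DecidableEq V] in
theorem Ko_hom {r : ℕ} (B : Fin r → Finset (Vx V)) : (Ko a B).IsHomogeneous (ko a B) :=
  IsHomogeneous.prod _ _ _ fun _ _ => IsHomogeneous.prod _ _ _ fun _ _ => Kr_hom _ _ _
theorem act_Ko {r : ℕ} (B : Fin r → Finset (Vx V)) (g : Gf V) :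
    act g (Ko a B) = Ko a fun j => img g (B j) := by
  simp only [Ko, map_prod, act_Kr]
theorem act_gel {r : ℕ} (B : Fin r → Finset (Vx V)) (i : Fin r → ℕ) (w : Fin r → R V) (g : Gf V) :
    act g (gel a B i w) = gel a (fun j => img g (B j)) i fun j => act g (w j) := by
  simp only [gel, map_mul, map_prod, map_pow, act_Ko, act_pw]
theorem OZ.img {r : ℕ} {B : Fin r → Finset (Vx V)} (h : OZ η S B) (g : Gf V) :
    OZ η (img g S) fun j => img g (B j) :=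
  ⟨h.1.img g, fun j => ⟨(h.2 j).1.image _, (etaS_img g).trans (h.2 j).2⟩⟩
theorem OZ.inj {r : ℕ} {B : Fin r → Finset (Vx V)} (h : OZ η S B) : Function.Injective B := by
  intro i j e
  by_contra hc
  obtain ⟨s, hs⟩ := (h.2 i).1
  exact disjoint_left.1 (h.1.1 i j hc) hs (e ▸ hs)
theorem OZ.part {r : ℕ} {B : Fin r → Finset (Vx V)} (h : OZ η S B) :
    Part η S (univ.image B) := by
  refine ⟨forall_mem_image.2 fun j _ => h.2 j, forall_mem_image.2 fun i _ =>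
    forall_mem_image.2 fun j _ e => h.1.1 i j fun e' => e (congrArg B e'), ?_⟩
  rw [image_biUnion]
  exact h.1.2
theorem Part.exists_OZ {π : Finset (Finset (Vx V))} (h : Part η S π) :
    ∃ (r : ℕ) (B : Fin r → Finset (Vx V)), OZ η S B ∧ univ.image B = π := by
  have e : (univ.image fun j => (π.equivFin.symm j).1) = π := by
    ext T
    simp only [mem_image, mem_univ, true_and]
    exact ⟨fun ⟨j, e⟩ => e ▸ (π.equivFin.symm j).2, fun hT => ⟨π.equivFin ⟨T, hT⟩, by simp⟩⟩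
  refine ⟨_, _, ⟨⟨fun i j hij => h.2.1 _ (π.equivFin.symm i).2 _ (π.equivFin.symm j).2
    fun e => hij (π.equivFin.symm.injective (Subtype.ext e)), ?_⟩,
    fun j => h.1 _ (π.equivFin.symm j).2⟩, e⟩
  have := h.2.2
  rwa [← e, image_biUnion] at this
theorem OZ.comp {r : ℕ} {B : Fin r → Finset (Vx V)} (h : OZ η S B) (τ : Equiv.Perm (Fin r)) :
    OZ η S fun j => B (τ j) := by
  refine ⟨⟨fun i j e => h.1.1 _ _ (τ.injective.ne e), ?_⟩, fun j => h.2 _⟩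
  ext s
  simp only [mem_biUnion, mem_univ, true_and, h.1.basic_mem_iff]
  exact (τ.surjective.exists (p := fun j => s ∈ B j)).symm

end
end Vale.Agent.P066.A
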