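import Vale.Agent.P066.A.LPart

/-!
P066 part A, file Indep (TASK A15): the PBW elements are independent.
* `exists_extract`: for each block take the functional dual to the basis vector `(Λ0.l j).1` of the
  transported basis of `Iso ⊓ W0` modulo `J0 (Λ0.B j)` (`G.bas`, `GBas.act`, `IndMod.exists_dual`);
  `exists_multi` gives `Ψ0 : R → ℚ` killing `Ipi`, hence a functional on the quotient ring; apply it
  coefficientwise to a symbol to get a rational polynomial; on `tsy B i w` this gives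
  `(∏ δ) • (Kt * ∏ X (B j)^(i j))`.  The polynomials `Kt * ∏ X (B j) ^ i j` are linearly independent
  in `i` (`Kt ≠ 0`, `B` injective), so some functional on rational polynomials is dual to `i0`.
  Compose with `sy` at the degree `D0 = ko + ∑ i0` and use `gel_sy`, `sy_of_FL`, `lev_inj`.
* `pbw_indep`: let `M = S.card + 1`, suppose `c ≠ 0`, let `m0` maximise the level `L` on the support.
  The combination lies in `J0 S ≤ FL (L-1)`.  Apply `Ψ` from `exists_extract` for `Λ0 = Λm m0`.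
  Terms of smaller level are killed (`LP.el_FL`, `alt_mem`, `FL_mono`).  For `m` of level `L` and
  `h ∈ GS S`, `act h (Λm m).el = (tr h).el`; if its partition differs from that of `Λ0`, `Ψ` kills it;
  otherwise `LP.cmp_same` shows `Ψ = 0` unless the labels match, which forces `m = m0`; in that case
  `el_boson` (admissibility and `mon_two` give evenness) shows `chi h * Ψ (act h el) = Ψ el ≠ 0`.
  So `Ψ (Alt el0)` is a positive multiple of `Ψ el0` (the term `h = 1` occurs), contradiction.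
-/

namespace Vale.Agent.P066.A
open MvPolynomial Finset
noncomputable section

variable {V : Type} [DecidableEq V] {a : V → V → ℕ} {η k : V → ℤ} {M : ℕ}
  {S : Finset (Vx V)} {Γ : Type} {G : Gens a η k Γ}

namespace IndepAux

/-- tensor product of two functionals -/
theorem exists_theta {σ Q : Type} [CommRing Q] [Algebra ℚ Q] (lam : MvPolynomial σ ℚ →ₗ[ℚ] ℚ)
    (ψ : Q →ₗ[ℚ] ℚ) : ∃ Θ : MvPolynomial σ Q →ₗ[ℚ] ℚ, ∀ (p : MvPolynomial σ ℚ) (q : Q),
      Θ (MvPolynomial.map (algebraMap ℚ Q) p * C q) = lam p * ψ q := by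
  let Θ : MvPolynomial σ Q →ₗ[ℚ] ℚ :=
    (Finsupp.lsum ℚ fun m : σ →₀ ℕ => lam (monomial m 1) • ψ) ∘ₗ
      ((basisMonomials σ Q).repr.toLinearMap.restrictScalars ℚ)
  have h1 : ∀ (m : σ →₀ ℕ) (q : Q), Θ (monomial m q) = lam (monomial m 1) * ψ q := by
    intro m q
    have h2 : (basisMonomials σ Q).repr (monomial m q) = Finsupp.single m q := by
      have h3 : (monomial m q : MvPolynomial σ Q) = q • basisMonomials σ Q m := by
        rw [coe_basisMonomials, smul_monomial, smul_eq_mul, mul_one]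
      rw [h3, map_smul, Module.Basis.repr_self, Finsupp.smul_single, smul_eq_mul, mul_one]
    simp only [Θ, LinearMap.comp_apply, LinearMap.restrictScalars_apply, LinearEquiv.coe_coe, h2,
      Finsupp.lsum_single, LinearMap.smul_apply, smul_eq_mul]
  refine ⟨Θ, fun p q => ?_⟩
  induction p using MvPolynomial.induction_on' with
  | monomial m c =>
    have h2 : (monomial m c : MvPolynomial σ ℚ) = c • monomial m 1 := by
      rw [smul_monomial, smul_eq_mul, mul_one]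
    rw [map_monomial, mul_comm, C_mul_monomial, h1, mul_comm q, ← Algebra.smul_def, map_smul, h2,
      map_smul, smul_eq_mul, smul_eq_mul]
    ring
  | add p p' hp hp' => rw [map_add, add_mul, map_add, hp, hp', map_add, add_mul]

/-- a functional dual to one of the model polynomials -/
theorem exists_lam (a : V → V → ℕ) {r : ℕ} {B : Fin r → Finset (Vx V)}
    (hB : Function.Injective B) (i0 : Fin r → ℕ) :
    ∃ lam : MvPolynomial (Finset (Vx V)) ℚ →ₗ[ℚ] ℚ, ∀ i : Fin r → ℕ,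
      lam (Kt a B * ∏ j, X (B j) ^ i j) = if i = i0 then 1 else 0 := by
  have hK : Kt a B ≠ 0 := by
    refine prod_ne_zero_iff.2 fun j _ => prod_ne_zero_iff.2 fun j' hj' => pow_ne_zero _ ?_
    exact sub_ne_zero.2 fun h => (mem_Ioi.1 hj').ne (hB (X_injective h))
  obtain ⟨ν, hν⟩ := (LinearMap.mulLeft ℚ (Kt a B)).exists_leftInverse_of_injective
    (LinearMap.ker_eq_bot.2 (mul_right_injective₀ hK))
  refine ⟨lcoeff ℚ (∑ j, Finsupp.single (B j) (i0 j)) ∘ₗ ν, fun i => ?_⟩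
  have h1 : ν (Kt a B * ∏ j, X (B j) ^ i j) = ∏ j, X (B j) ^ i j := LinearMap.congr_fun hν _
  have h2 : (∏ j, X (B j) ^ i j : MvPolynomial (Finset (Vx V)) ℚ) =
      monomial (∑ j, Finsupp.single (B j) (i j)) 1 := by
    rw [monomial_sum_one]
    exact prod_congr rfl fun j _ => X_pow_eq_monomial
  have h3 : ∀ (i : Fin r → ℕ) (j : Fin r),
      (∑ j', Finsupp.single (B j') (i j') : Finset (Vx V) →₀ ℕ) (B j) = i j := by
    intro i j
    rw [Finsupp.finsetSum_apply, sum_eq_single j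
      (fun j' _ hj => Finsupp.single_eq_of_ne fun h => hj (hB h).symm)
      (fun h => absurd (mem_univ j) h), Finsupp.single_eq_same]
  rw [LinearMap.comp_apply, h1, h2, lcoeff_apply, coeff_monomial]
  refine if_congr ⟨fun h => funext fun j => ?_, fun h => by rw [h]⟩ rfl rfl
  rw [← h3 i j, h, h3]

/-- block functionals -/
theorem exists_phi (G : Gens a η k Γ) (x0 : Γ) (g : Gf V) :
    ∃ φ : R V →ₗ[ℚ] ℚ, (∀ f ∈ J0 a η (img g (std (G.c x0))), φ f = 0) ∧
      φ (act g (G.w x0)) = 1 ∧ ∀ x, G.c x = G.c x0 → x ≠ x0 → φ (act g (G.w x)) = 0 := by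
  classical
  obtain ⟨φ, h1, h2⟩ := (G.bas (G.c x0) (G.eta0 x0) (G.ne0 x0)).ind.exists_dual ⟨x0, rfl⟩
  have h3 : ∀ f, act g⁻¹ (act g f) = f := fun f => by rw [← act_mul, inv_mul_cancel, act_one]
  refine ⟨φ ∘ₗ (act g⁻¹).toLinearMap, fun f hf => h1 _ ?_, ?_, fun x hx hne => ?_⟩
  · have h4 := J0_act g⁻¹ hf
    rwa [← img_mul, inv_mul_cancel, img_one] at h4
  · have h4 := h2 ⟨x0, rfl⟩
    rw [if_pos rfl] at h4
    exact (congrArg φ (h3 _)).trans h4
  · have h4 := h2 ⟨x, hx⟩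
    rw [if_neg fun h => hne (congrArg Subtype.val h)] at h4
    exact (congrArg φ (h3 _)).trans h4

/-- the symbol as a linear map -/
def syL (a : V → V → ℕ) (η : V → ℤ) (π : Finset (Finset (Vx V))) (D : ℕ) :
    R V →ₗ[ℚ] MvPolynomial (Finset (Vx V)) (R V ⧸ Ipi a η π) where
  toFun := sy a η π D
  map_add' := sy_add D
  map_smul' := sy_smul D

end IndepAux

open IndepAux

theorem exists_extract (hs : Sym a η) (hM : S.card < M) (Λ0 : LP G S) :
    ∃ Ψ : R V →ₗ[ℚ] ℚ, (∀ f ∈ FL a η M S (Λ0.lev M - 1), Ψ f = 0) ∧ Ψ Λ0.el ≠ 0 ∧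
      (∀ Λ : LP G S, Λ.lev M = Λ0.lev M → univ.image Λ.B ≠ univ.image Λ0.B → Ψ Λ.el = 0) ∧
      ∀ l : Fin Λ0.r → Γ × ℕ, (∀ j, G.c (l j).1 = G.c (Λ0.l j).1) → l ≠ Λ0.l →
        glev a M Λ0.B (fun j => (l j).2) = Λ0.lev M →
        Ψ (gel a Λ0.B (fun j => (l j).2) fun j => act (Λ0.g j) (G.w (l j).1)) = 0 := by
  choose φ hφ1 hφ2 hφ3 using fun j => exists_phi G (Λ0.l j).1 (Λ0.g j)
  simp only [Λ0.img_eq] at hφ1
  obtain ⟨Ψ0, hΨ1, hΨ2⟩ := exists_multi Λ0.oz.1.1 φ (fun j => J0 a η (Λ0.B j))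
    (fun j => J0_gen) hφ1
  have hI : (Ipi a η (univ.image Λ0.B)).restrictScalars ℚ ≤ LinearMap.ker Ψ0 := by
    intro x hx
    have h1 : Ipi a η (univ.image Λ0.B) ≤ ⨆ j, J0 a η (Λ0.B j) := by
      refine iSup₂_le fun B hB => ?_
      obtain ⟨j, -, rfl⟩ := mem_image.1 hB
      exact le_iSup (fun j => J0 a η (Λ0.B j)) j
    exact hΨ2 x (h1 hx)
  let ψ : (R V ⧸ Ipi a η (univ.image Λ0.B)) →ₗ[ℚ] ℚ :=
    ((Ipi a η (univ.image Λ0.B)).restrictScalars ℚ).liftQ Ψ0 hI ∘ₗ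
      (Submodule.Quotient.restrictScalarsEquiv ℚ (Ipi a η (univ.image Λ0.B))).symm.toLinearMap
  have hψ : ∀ x, ψ (Ideal.Quotient.mk _ x) = Ψ0 x := fun x => rfl
  obtain ⟨lam, hlam⟩ := exists_lam a Λ0.oz.inj fun j => (Λ0.l j).2
  obtain ⟨Θ, hΘ⟩ := exists_theta lam ψ
  have key : ∀ (i : Fin Λ0.r → ℕ) (w : Fin Λ0.r → R V), (∀ j, w j ∈ W0 a η (Λ0.B j)) →
      ko a Λ0.B + ∑ j, i j = ko a Λ0.B + ∑ j, (Λ0.l j).2 →
      Θ (sy a η (univ.image Λ0.B) (ko a Λ0.B + ∑ j, (Λ0.l j).2) (gel a Λ0.B i w)) =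
        (∏ j, ((Λ0.B j).card : ℚ) ^ i j) *
          ((if i = fun j => (Λ0.l j).2 then 1 else 0) * ∏ j, φ j (w j)) := by
    intro i w hw hi
    rw [← hi, gel_sy Λ0.oz hw, map_smul, tsy, hΘ, hlam, hψ, hΨ1 w fun j => (hw j).1, smul_eq_mul]
  refine ⟨Θ ∘ₗ syL a η (univ.image Λ0.B) (ko a Λ0.B + ∑ j, (Λ0.l j).2), fun f hf => ?_, ?_,
    fun Λ h1 h2 => ?_, fun l h1 h2 h3 => ?_⟩
  · exact (congrArg Θ (sy_of_FL hf Λ0.oz.part rfl)).trans (map_zero Θ)
  · refine (key _ Λ0.w Λ0.w_W0 rfl).trans_ne (mul_ne_zero ?_ ?_)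
    · exact prod_ne_zero_iff.2 fun j _ => pow_ne_zero _
        (Nat.cast_ne_zero.2 (Λ0.oz.2 j).1.card_pos.ne')
    · have h1 : ∀ j, φ j (Λ0.w j) = 1 := hφ2
      simp [h1]
  · exact (congrArg Θ (gel_sy_other hs hM Λ.oz Λ.w_W0 Λ0.oz.part h2.symm h1.symm)).trans
      (map_zero Θ)
  · have hw : ∀ j, act (Λ0.g j) (G.w (l j).1) ∈ W0 a η (Λ0.B j) := by
      intro j
      have h4 := act_W0 (Λ0.g j) (G.w_mem (l j).1).2.1
      rwa [h1 j, Λ0.img_eq] at h4
    refine (key _ _ hw (lev_inj (by omega) h3)).trans ?_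
    by_cases h4 : (fun j => (l j).2) = fun j => (Λ0.l j).2
    · obtain ⟨j, hj⟩ := Function.ne_iff.1 h2
      have h5 : (l j).1 ≠ (Λ0.l j).1 := fun h => hj (Prod.ext h (congrFun h4 j))
      rw [prod_eq_zero (f := fun j => φ j (act (Λ0.g j) (G.w (l j).1))) (mem_univ j)
        (hφ3 j _ (h1 j) h5), mul_zero, mul_zero]
    · rw [if_neg h4, zero_mul, mul_zero]

theorem pbw_indep (hs : Sym a η)
    (Λm : {m // G.Adm m ∧ G.mcl m = cl S} → LP G S) (hΛ : ∀ m, (Λm m).mon = m.1) :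
    IndMod (J0 a η S) fun m => Alt k S (Λm m).el := by
  classical
  intro c hc
  by_contra hne
  obtain ⟨m0, hm0, hmax⟩ := c.support.exists_max_image (fun m => (Λm m).lev (S.card + 1))
    (Finsupp.support_nonempty_iff.2 hne)
  have hM : S.card < S.card + 1 := Nat.lt_succ_self _
  obtain ⟨Ψ, h1, h2, h3, h4⟩ := exists_extract hs hM (Λm m0)
  have key : ∀ Λ : LP G S, Λ.lev (S.card + 1) = (Λm m0).lev (S.card + 1) → Ψ Λ.el ≠ 0 →
      ∃ e : Fin (Λm m0).r ≃ Fin Λ.r, (∀ j, Λ.B (e j) = (Λm m0).B j) ∧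
        ∀ j, Λ.l (e j) = (Λm m0).l j := by
    intro Λ hl hΨ
    have h5 : univ.image Λ.B = univ.image (Λm m0).B := by
      by_contra h
      exact hΨ (h3 Λ hl h)
    obtain ⟨e, ε, -, h6, h7, h8⟩ := LP.cmp_same hs hM Λ (Λm m0) h5
    refine ⟨e, h6, fun j => congrFun (f := fun j => Λ.l (e j)) ?_ j⟩
    by_contra h9
    rw [hl] at h8
    have h10 := h1 _ h8
    rw [map_sub, map_smul, h4 (fun j => Λ.l (e j))
      (fun j => by rw [← Λ.cl_B, h6, (Λm m0).cl_B]) h9 (h7.symm.trans hl), smul_zero,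
      sub_zero] at h10
    exact hΨ h10
  have halt : ∀ f, Ψ (Alt k S f) =
      ((GS S).card : ℚ)⁻¹ * ∑ g ∈ GS S, chi k g * Ψ (act g f) := by
    intro f
    simp only [alt_apply, map_smul, map_sum, smul_eq_mul]
  have hother : ∀ m ∈ c.support, m ≠ m0 → Ψ (Alt k S (Λm m).el) = 0 := by
    intro m hm hmm
    rcases (hmax m hm).eq_or_lt with hl | hl
    · rw [halt, sum_eq_zero, mul_zero]
      intro g hg
      by_contra h5
      rw [← (Λm m).tr_el hg] at h5
      obtain ⟨e, -, h6⟩ := key _ (((Λm m).tr_lev hg).trans hl) (right_ne_zero_of_mul h5)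
      refine hmm (Subtype.ext ?_)
      rw [← hΛ m, ← hΛ m0, ← (Λm m).tr_mon hg, LP.mon, LP.mon, ← e.sum_comp]
      exact sum_congr rfl fun j _ => by rw [h6]
    · exact h1 _ (alt_mem _ (fun g hg f hf => act_FL' hg hf)
        (FL_mono (by omega) ((Λm m).el_FL hs hM)))
  have hev : ∀ j j', j ≠ j' → (Λm m0).l j = (Λm m0).l j' → Even (G.par ((Λm m0).l j).1) := by
    intro j j' hj hl
    have h5 := (mon_two (Λm m0).l ((Λm m0).l j)).2 ⟨j, j', hj, rfl, hl.symm⟩
    refine Nat.not_odd_iff_even.1 fun ho => ?_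
    have h6 := m0.2.1 _ ho
    rw [← hΛ m0] at h6
    exact absurd h6 (not_le.2 h5)
  have hterm : ∀ g ∈ GS S, 0 ≤ chi k g * Ψ (act g (Λm m0).el) * Ψ (Λm m0).el := by
    intro g hg
    by_cases h5 : Ψ (act g (Λm m0).el) = 0
    · rw [h5, mul_zero, zero_mul]
    · rw [← (Λm m0).tr_el hg] at h5
      obtain ⟨e, h6, h7⟩ : ∃ e : Equiv.Perm (Fin (Λm m0).r),
          (∀ j, img g ((Λm m0).B (e j)) = (Λm m0).B j) ∧ ∀ j, (Λm m0).l (e j) = (Λm m0).l j :=
        key _ ((Λm m0).tr_lev hg) h5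
      have h8 := h1 _ (el_boson hs hM (Λm m0) hev e.symm
        (fun j => by rw [← h7, e.apply_symm_apply]) hg
        fun j => by rw [← h6 (e.symm j), e.apply_symm_apply])
      rw [map_sub, map_smul, smul_eq_mul, sub_eq_zero] at h8
      rw [h8]
      exact mul_self_nonneg _
  have hown : Ψ (Alt k S (Λm m0).el) ≠ 0 := by
    rw [halt]
    refine mul_ne_zero (inv_ne_zero (card_GS_ne S)) fun h => ?_
    have h5 := single_le_sum hterm (one_mem_GS (S := S))
    rw [← sum_mul, h, zero_mul, map_one, act_one, one_mul] at h5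
    exact absurd h5 (not_le.2 (mul_self_pos.2 h2))
  have h5 := h1 _ (J0_le_FL hc)
  rw [Finsupp.linearCombination_apply, Finsupp.sum, map_sum, sum_eq_single m0
    (fun m hm hmm => by rw [map_smul, hother m hm hmm, smul_zero]) (fun h => absurd hm0 h),
    map_smul, smul_eq_mul] at h5
  exact mul_ne_zero (Finsupp.mem_support_iff.1 hm0) hown h5

end
end Vale.Agent.P066.A
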