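import Vale.Agent.P066.A.Ord

/-!
P066 part A, file LPart (TASK A13): labelled partitions.
* `exists_LP`: enumerate the multiset `m` (`Finsupp.toMultiset`, `Multiset.toList`, or induction on
  `m`) as `l : Fin r → Γ × ℕ` with `∑ j, single (l j) 1 = m`; blocks from `exists_OP`, transports from
  `exists_img`; blocks are nonempty of weight zero by `G.ne0`, `G.eta0`.
* `mon_perm`: equal fibre cardinalities give a bijection (`Equiv.ofFiberEquiv`).
* `LP.cmp`: destructure, `subst` the equality `r = r'`; `exists_blocks` gives `h ∈ GS S` with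
  `img h (B (τ j)) = B' j`; `act_gel`; each factor agrees up to sign (`iso_sign`); `gel_reorder`.
* `LP.deg_formula`: `aC γ γ = ∑ j j', aS (B j) (B j') = ∑ j, aS (B j) (B j) + 2 ko` (`two_ko`).
-/

namespace Vale.Agent.P066.A
open MvPolynomial Finset
noncomputable section

variable {V : Type} [DecidableEq V] {a : V → V → ℕ} {η k : V → ℤ} {M : ℕ}
  {S : Finset (Vx V)} {Γ : Type} {G : Gens a η k Γ}

theorem lpart_mon_apply {Y : Type} [DecidableEq Y] {r : ℕ} (l : Fin r → Y) (y : Y) :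
    (∑ j, Finsupp.single (l j) 1 : Y →₀ ℕ) y = (univ.filter fun j => l j = y).card := by
  rw [Finsupp.finsetSum_apply, card_filter]
  exact sum_congr rfl fun j _ => Finsupp.single_apply

theorem lpart_enum {Y : Type} (m : Y →₀ ℕ) :
    ∃ (r : ℕ) (l : Fin r → Y), ∑ j, Finsupp.single (l j) 1 = m := by
  induction m using Finsupp.induction_linear with
  | zero => exact ⟨0, Fin.elim0, by simp⟩
  | add f g hf hg =>
    obtain ⟨r, l, rfl⟩ := hf
    obtain ⟨r', l', rfl⟩ := hg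
    exact ⟨r + r', Fin.append l l', by simp [Fin.sum_univ_add]⟩
  | single y n => exact ⟨n, fun _ => y, by simp⟩

theorem lpart_sum_mon {Y N : Type} [AddCommMonoid N] {r : ℕ} (l : Fin r → Y) (F : Y → N) :
    (∑ j, Finsupp.single (l j) 1 : Y →₀ ℕ).sum (fun y n => n • F y) = ∑ j, F (l j) := by
  rw [← Finsupp.sum_finsetSum_index (by simp) (fun _ _ _ => add_smul _ _ _)]
  refine sum_congr rfl fun j _ => ?_
  rw [Finsupp.sum_single_index (by simp), one_smul]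

omit [DecidableEq V] in
theorem lpart_gel_smul {r : ℕ} (B : Fin r → Finset (Vx V)) (i : Fin r → ℕ) (w : Fin r → R V)
    (ε : Fin r → ℚ) : gel a B i (fun j => ε j • w j) = (∏ j, ε j) • gel a B i w := by
  unfold gel
  simp only [mul_smul_comm]
  rw [Finset.prod_smul, mul_smul_comm]

theorem lpart_sign {r : ℕ} {ε : Fin r → ℚ} (h : ∀ j, ε j = 1 ∨ ε j = -1) :
    ∏ j, ε j = 1 ∨ ∏ j, ε j = -1 := by
  refine Finset.prod_induction ε (fun x => x = 1 ∨ x = -1) ?_ (Or.inl rfl) fun j _ => h j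
  rintro x y (rfl | rfl) (rfl | rfl) <;> simp

omit [DecidableEq V] in
theorem lpart_flip {W : Submodule ℚ (R V)} {x y : R V} {ε δ : ℚ} (hε : ε = 1 ∨ ε = -1)
    (hδ : δ = 1 ∨ δ = -1) (h : δ • y - ε • x ∈ W) :
    (ε * δ = 1 ∨ ε * δ = -1) ∧ x - (ε * δ) • y ∈ W := by
  refine ⟨by rcases hε with rfl | rfl <;> rcases hδ with rfl | rfl <;> simp, ?_⟩
  have h1 := W.smul_mem (-ε) h
  have h2 : ε * ε = 1 := by rcases hε with rfl | rfl <;> simp
  have h3 : x - (ε * δ) • y = (-ε) • (δ • y - ε • x) := by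
    rw [smul_sub, smul_smul, smul_smul, neg_mul, neg_mul, h2, neg_smul, neg_smul, one_smul]
    abel
  rwa [h3]

theorem mon_perm {Y : Type} {r r' : ℕ} (l : Fin r → Y) (l' : Fin r' → Y)
    (h : ∑ j, Finsupp.single (l j) 1 = ∑ j, Finsupp.single (l' j) 1) :
    ∃ e : Fin r' ≃ Fin r, ∀ j, l (e j) = l' j := by
  classical
  have hc : ∀ y, Fintype.card {j // l' j = y} = Fintype.card {j // l j = y} := fun y => by
    have h1 := lpart_mon_apply l y
    have h2 := lpart_mon_apply l' y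
    rw [h, h2] at h1
    rw [Fintype.card_subtype, Fintype.card_subtype]
    exact h1
  exact ⟨Equiv.ofFiberEquiv fun y => Fintype.equivOfCardEq (hc y),
    fun j => Equiv.ofFiberEquiv_map _ j⟩
theorem mon_two {Y : Type} {r : ℕ} (l : Fin r → Y) (y : Y) :
    1 < (∑ j, Finsupp.single (l j) 1 : Y →₀ ℕ) y ↔ ∃ j j', j ≠ j' ∧ l j = y ∧ l j' = y := by
  classical
  rw [lpart_mon_apply, one_lt_card]
  simp only [mem_filter, mem_univ, true_and]
  constructor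
  · rintro ⟨j, hj, j', hj', hne⟩; exact ⟨j, j', hne, hj, hj'⟩
  · rintro ⟨j, j', hne, hj, hj'⟩; exact ⟨j, hj, j', hj', hne⟩
theorem exists_LP {m : Γ × ℕ →₀ ℕ} (h : G.mcl m = cl S) : ∃ Λ : LP G S, Λ.mon = m := by
  obtain ⟨r, l, rfl⟩ := lpart_enum m
  unfold Gens.mcl at h
  rw [lpart_sum_mon l fun y => G.c y.1] at h
  obtain ⟨B, hB, hc⟩ := exists_OP (fun j => G.c (l j).1) h.symm
  have hg : ∀ j, ∃ g : Gf V, img g (std (G.c (l j).1)) = B j := fun j =>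
    exists_img (by rw [cl_std, hc])
  choose g hg using hg
  refine ⟨⟨r, B, l, g, ⟨hB, fun j => ⟨?_, ?_⟩⟩, hg⟩, rfl⟩
  · rw [nonempty_iff_ne_empty, Ne, ← cl_eq_zero, hc]
    exact G.ne0 _
  · rw [etaS_eq, hc]
    exact G.eta0 _
theorem LP.mcl_mon (Λ : LP G S) : G.mcl Λ.mon = cl S := by
  unfold Gens.mcl LP.mon
  rw [lpart_sum_mon Λ.l fun y => G.c y.1, Λ.oz.1.cl_eq]
  exact sum_congr rfl fun j _ => (Λ.cl_B j).symm
theorem LP.el_mem (Λ : LP G S) : Λ.el ∈ RS S :=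
  gel_mem Λ.oz.1 fun j => (Λ.w_W0 j).1
theorem LP.el_hom (Λ : LP G S) : Λ.el.IsHomogeneous Λ.deg := by
  unfold LP.el LP.deg gel
  refine (Ko_hom Λ.B).mul (IsHomogeneous.prod _ _ _ fun j _ => ?_)
  have h1 := (pw_hom (Λ.B j)).pow (Λ.l j).2
  rw [one_mul] at h1
  exact h1.mul (act_hom _ (G.w_mem _).2.2)
theorem LP.el_FL (hs : Sym a η) (hM : S.card < M) (Λ : LP G S) :
    Λ.el ∈ FL a η M S (Λ.lev M) :=
  gel_FL hs hM Λ.oz Λ.w_W0
theorem LP.deg_formula (hs : Sym a η) (Λ : LP G S) :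
    2 * (Λ.deg : ℤ) - aC a (cl S) (cl S) = Λ.mon.sum fun y n =>
      (n : ℤ) * (2 * ((G.dg y.1 : ℤ) + y.2) - aC a (G.c y.1) (G.c y.1)) := by
  have h1 := lpart_sum_mon Λ.l
    fun y => (2 * ((G.dg y.1 : ℤ) + y.2) - aC a (G.c y.1) (G.c y.1) : ℤ)
  simp only [nsmul_eq_mul] at h1
  unfold LP.mon
  rw [h1]
  have hd : ∀ j ∈ (univ : Finset (Fin Λ.r)), ∀ j' ∈ (univ : Finset (Fin Λ.r)), j ≠ j' →
      Disjoint (Λ.B j) (Λ.B j') := fun j _ j' _ h => Λ.oz.1.1 j j' h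
  have h2 : aS a S S = ∑ j, ∑ j', aS a (Λ.B j) (Λ.B j') := by
    conv_lhs => rw [← Λ.oz.1.2]
    unfold aS
    rw [sum_biUnion fun j hj j' hj' h => hd j hj j' hj' h]
    refine sum_congr rfl fun j _ => ?_
    rw [sum_comm (s := univ)]
    refine sum_congr rfl fun s _ => ?_
    rw [sum_biUnion fun j hj j' hj' h => hd j hj j' hj' h]
  have h3 : kap a (univ.image Λ.B) = ∑ j, ∑ j' ∈ univ.erase j, aS a (Λ.B j) (Λ.B j') := by
    unfold kap
    rw [sum_image fun _ _ _ _ h => Λ.oz.inj h]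
    refine sum_congr rfl fun j _ => ?_
    rw [← image_erase Λ.oz.inj, sum_image fun _ _ _ _ h => Λ.oz.inj h]
  have h4 : aC a (cl S) (cl S) = 2 * ko a Λ.B + ∑ j, aC a (G.c (Λ.l j).1) (G.c (Λ.l j).1) := by
    rw [← aS_eq, h2, two_ko hs Λ.oz, h3, ← sum_add_distrib]
    refine sum_congr rfl fun j _ => ?_
    rw [← Λ.cl_B j, ← aS_eq, sum_erase_add _ _ (mem_univ j)]
  rw [h4]
  unfold LP.deg
  push_cast
  rw [sum_sub_distrib, ← mul_sum, sum_add_distrib, sum_add_distrib]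
  ring
/-- translate of a labelled partition -/
def LP.tr (Λ : LP G S) {h : Gf V} (hh : h ∈ GS S) : LP G S where
  r := Λ.r
  B := fun j => img h (Λ.B j)
  l := Λ.l
  g := fun j => h * Λ.g j
  oz := by have := Λ.oz.img h; rwa [img_of_mem_GS hh] at this
  img_eq := fun j => by rw [img_mul, Λ.img_eq]
theorem LP.tr_el (Λ : LP G S) {h : Gf V} (hh : h ∈ GS S) : (Λ.tr hh).el = act h Λ.el := by
  unfold LP.el
  rw [act_gel]
  have : (Λ.tr hh).w = fun j => act h (Λ.w j) := by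
    funext j
    exact act_mul h (Λ.g j) _
  rw [this]
  rfl
theorem LP.tr_mon (Λ : LP G S) {h : Gf V} (hh : h ∈ GS S) : (Λ.tr hh).mon = Λ.mon := rfl
theorem LP.tr_lev (Λ : LP G S) {h : Gf V} (hh : h ∈ GS S) : (Λ.tr hh).lev M = Λ.lev M :=
  glev_img h
theorem LP.cmp (hs : Sym a η) (hM : S.card < M) (Λ Λ' : LP G S) (h : Λ.mon = Λ'.mon) :
    Λ.lev M = Λ'.lev M ∧ ∃ g ∈ GS S, ∃ ε : ℚ, (ε = 1 ∨ ε = -1) ∧
      act g Λ.el - ε • Λ'.el ∈ FL a η M S (Λ.lev M - 1) := by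
  obtain ⟨e, he⟩ := mon_perm Λ.l Λ'.l h
  have hcl' := Λ'.cl_B
  obtain ⟨r', B', l', g', oz', hi'⟩ := Λ'
  have hr : r' = Λ.r := by simpa using Fintype.card_congr e
  subst hr
  change Equiv.Perm (Fin Λ.r) at e
  simp only at he hcl'
  obtain ⟨g, hg, hgB⟩ := exists_blocks (Λ.oz.comp e).1 oz'.1
    (fun j => by rw [Λ.cl_B, he, hcl'])
  have hB' : B' = fun j => img g (Λ.B (e j)) := funext fun j => (hgB j).symm
  have hl' : l' = fun j => Λ.l (e j) := funext fun j => (he j).symm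
  have hlev : Λ.lev M = glev a M B' fun j => (l' j).2 := by
    rw [hB', hl', glev_img g, glev_reorder hs Λ.oz e (i := fun j => (Λ.l j).2)]
    rfl
  refine ⟨hlev, g, hg, ?_⟩
  have hsg : ∀ j, ∃ ε : ℚ, (ε = 1 ∨ ε = -1) ∧
      act g (Λ.w (e j)) = ε • act (g' j) (G.w (l' j).1) := by
    intro j
    obtain ⟨ε, hε, h1⟩ := iso_sign k (g := g * Λ.g (e j)) (g' := g' j)
      (A := std (G.c (l' j).1)) (by rw [hi' j, img_mul, ← he j, Λ.img_eq, hgB])
    refine ⟨ε, hε, ?_⟩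
    rw [← h1 _ (G.w_mem _).1, act_mul, ← he j]
    rfl
  choose δ hδ hδw using hsg
  obtain ⟨ε, hε, h1⟩ := gel_reorder (i := fun j => (Λ.l j).2) hs hM Λ.oz Λ.w_W0 e
  have h2 := act_FL' hg h1
  rw [map_sub, map_smul, act_gel] at h2
  simp only [hδw, hgB, he] at h2
  rw [lpart_gel_smul] at h2
  exact ⟨_, lpart_flip hε (lpart_sign hδ) h2⟩
/-- same underlying partition: compare with a relabelling of `Λ0` -/
theorem LP.cmp_same (hs : Sym a η) (hM : S.card < M) (Λ Λ0 : LP G S)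
    (h : univ.image Λ.B = univ.image Λ0.B) :
    ∃ (e : Fin Λ0.r ≃ Fin Λ.r) (ε : ℚ), (ε = 1 ∨ ε = -1) ∧ (∀ j, Λ.B (e j) = Λ0.B j) ∧
      Λ.lev M = glev a M Λ0.B (fun j => (Λ.l (e j)).2) ∧
      Λ.el - ε • gel a Λ0.B (fun j => (Λ.l (e j)).2)
        (fun j => act (Λ0.g j) (G.w (Λ.l (e j)).1)) ∈ FL a η M S (Λ.lev M - 1) := by
  obtain ⟨e, he⟩ := mon_perm Λ.B Λ0.B (by
    rw [← sum_image (g := Λ.B) (f := fun U => Finsupp.single U 1)
        fun _ _ _ _ h => Λ.oz.inj h, h, sum_image fun _ _ _ _ h => Λ0.oz.inj h])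
  have hcl0 := Λ0.cl_B
  obtain ⟨r0, B0, l0, g0, oz0, hi0⟩ := Λ0
  have hr : r0 = Λ.r := by simpa using Fintype.card_congr e
  subst hr
  change Equiv.Perm (Fin Λ.r) at e
  simp only at he hcl0 ⊢
  have hB0 : B0 = fun j => Λ.B (e j) := funext fun j => (he j).symm
  have hlev : Λ.lev M = glev a M B0 fun j => (Λ.l (e j)).2 := by
    rw [hB0, glev_reorder hs Λ.oz e (i := fun j => (Λ.l j).2)]
    rfl
  have hsg : ∀ j, ∃ ε : ℚ, (ε = 1 ∨ ε = -1) ∧
      Λ.w (e j) = ε • act (g0 j) (G.w (Λ.l (e j)).1) := by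
    intro j
    have hc : G.c (l0 j).1 = G.c (Λ.l (e j)).1 := by rw [← hcl0, ← Λ.cl_B, he]
    obtain ⟨ε, hε, h1⟩ := iso_sign k (g := Λ.g (e j)) (g' := g0 j)
      (A := std (G.c (Λ.l (e j)).1)) (by rw [Λ.img_eq, ← hc, hi0 j, he])
    exact ⟨ε, hε, h1 _ (G.w_mem _).1⟩
  choose δ hδ hδw using hsg
  obtain ⟨ε, hε, h1⟩ := gel_reorder (i := fun j => (Λ.l j).2) hs hM Λ.oz Λ.w_W0 e
  simp only [hδw, he] at h1
  rw [lpart_gel_smul] at h1
  have h2 := lpart_flip hε (lpart_sign hδ) h1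
  exact ⟨e, _, h2.1, he, hlev, h2.2⟩

end
end Vale.Agent.P066.A
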