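import Vale.Agent.P066.A.PBW

/-!
P066 part A, file Main (TASK A17): the combinatorial positivity theorem.
Take `T1 = Σ α, I1 α` from `exists_GBas` for `(Iso (std α), Jp (std α))`, `x1 = 2 d + kC α - aC α α`,
similarly `T3` with `Jm`; `Γ` from `exists_Gens`, `kΓ x = 2 dg x + kC (c x) - aC (c x) (c x)`, whose
parity is that of `G.par x`.  `GBas.isEmpty` with `Jp_top`, and `GBas.unique` with `Jp_empty`
(`Iso ∅` = constants) give the support conditions.  For each `γ`, `hn_basis` (middle family from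
`pbw_basis`, assembled over all `β` with `η β = 0`) and `pbw_basis` for the free generators
(`exists_freeGens`, `J0_zero`) are two graded bases of `Iso (std γ)`; `GBas.equiv` gives a degree
preserving bijection; glue over `γ` (`Equiv.sigmaFiberEquiv`).  The exponent identity is linear
arithmetic after expanding `aC γ γ` with `aC_add_left/right` and `kC` additively.
-/

namespace Vale.Agent.P066.A
noncomputable section

/-- monomials in towers of generators, fermionic when the weight is odd -/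
def Mo {Y : Type} (k : Y → ℤ) : Type := {m : Y × ℕ →₀ ℕ // ∀ y, Odd (k y.1) → m y ≤ 1}
def Mo.cls {Y V : Type} {k : Y → ℤ} (c : Y → V →₀ ℕ) (m : Mo k) : V →₀ ℕ :=
  m.1.sum fun y n => n • c y.1
def Mo.wt {Y : Type} {k : Y → ℤ} (m : Mo k) : ℤ := m.1.sum fun y n => (n : ℤ) * (k y.1 + 2 * y.2)
def omA {V : Type} (a : V → V → ℕ) (α β : V →₀ ℕ) : ℤ := (aC a α β : ℤ) - aC a β α

section Aux
variable {V : Type} [DecidableEq V]

theorem main_fam (k : V → ℤ) (J : Finset (Vx V) → Ideal (R V))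
    (hJ : ∀ A, ∀ f ∈ J A, scale f ∈ J A) :
    ∃ (T : Type) (c : T → V →₀ ℕ) (d : T → ℕ) (b : T → R V), ∀ α,
      GBas (Iso k (std α)) (J (std α)) (fun t : {t // c t = α} => b t.1) fun t => d t.1 := by
  choose I b dg h using fun α : V →₀ ℕ =>
    exists_GBas (W := Iso k (std α)) (fun _ hf => iso_scale hf) (hJ (std α))
  refine ⟨Σ α, I α, Sigma.fst, fun t => dg t.1 t.2, fun t => b t.1 t.2, fun α => ?_⟩
  have e1 : (fun t : {t : Σ α, I α // t.1 = α} => b t.1.1 t.1.2) =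
      fun t => b α (Equiv.sigmaSubtype α t) := funext (by rintro ⟨⟨_, i⟩, rfl⟩; rfl)
  have e2 : (fun t : {t : Σ α, I α // t.1 = α} => dg t.1.1 t.1.2) =
      fun t => dg α (Equiv.sigmaSubtype α t) := funext (by rintro ⟨⟨_, i⟩, rfl⟩; rfl)
  rw [e1, e2]
  exact (h α).reindex _

theorem main_iso_empty (k : V → ℤ) (f : R V) :
    f ∈ Iso k ∅ ↔ ∃ c : ℚ, f = MvPolynomial.C c := by
  have e : f ∈ RS (∅ : Finset (Vx V)) ↔ ∃ c : ℚ, f = MvPolynomial.C c := by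
    rw [RS, Finset.coe_empty, MvPolynomial.supported_empty, Algebra.mem_bot]
    exact exists_congr fun c => eq_comm
  refine ⟨fun h => e.1 h.1, fun h => ⟨e.2 h, fun g hg => ?_⟩⟩
  have : g = 1 := Subtype.ext (Equiv.ext fun s => mem_GS.1 hg s (Finset.notMem_empty s))
  rw [this, map_one, one_smul]
  exact act_of_fix (e.2 h) fun _ _ => rfl

theorem main_supp {k : V → ℤ} {J : Finset (Vx V) → Ideal (R V)} {T : Type} {c : T → V →₀ ℕ}
    {d : T → ℕ} {b : T → R V} (h : ∀ α, GBas (Iso k (std α)) (J (std α))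
      (fun t : {t // c t = α} => b t.1) fun t => d t.1) (h0 : J ∅ = ⊥) :
    (∀ t, c t = 0 ∨ ((std (c t)).Nonempty ∧ J (std (c t)) ≠ ⊤)) ∧
      ∃ t, c t = 0 ∧ d t = 0 ∧ ∀ t', c t' = 0 → t' = t := by
  refine ⟨fun t => or_iff_not_imp_left.2 fun hc => ⟨Finset.nonempty_iff_ne_empty.2 fun e =>
    hc (by rw [← cl_std (c t), cl_eq_zero.2 e]), fun e => ?_⟩, ?_⟩
  · exact ((h (c t)).isEmpty fun f _ => e ▸ Submodule.mem_top).false ⟨t, rfl⟩
  · have k0 := h 0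
    rw [std_zero, h0] at k0
    obtain ⟨t, h1, h2⟩ := k0.unique (main_iso_empty k)
    exact ⟨t.1, t.2, h1, fun t' ht => congrArg Subtype.val (h2 ⟨t', ht⟩)⟩

omit [DecidableEq V] in
theorem main_etaC_cls (η : V → ℤ) {Y : Type} (c : Y → V →₀ ℕ) (m : Y × ℕ →₀ ℕ) :
    etaC η (m.sum fun y n => n • c y.1) = m.sum fun y n => (n : ℤ) * etaC η (c y.1) := by
  let φ : (V →₀ ℕ) →+ ℤ := AddMonoidHom.mk' (etaC η) etaC_add
  change φ _ = m.sum fun y n => (n : ℤ) * φ (c y.1)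
  simp only [map_finsuppSum, map_nsmul, nsmul_eq_mul]

omit [DecidableEq V] in
theorem main_par (k : V → ℤ) (β : V →₀ ℕ) : Even (etaC k β - ferC k β) := by
  rw [etaC, ferC, Finsupp.sum, Finsupp.sum, Nat.cast_sum, ← Finset.sum_sub_distrib]
  refine Finset.even_sum _ fun i _ => ?_
  split_ifs with h
  · rw [← mul_sub_one]
    exact (h.sub_odd odd_one).mul_left _
  · rw [Nat.cast_zero, sub_zero]
    exact (Int.not_odd_iff_even.1 h).mul_left _

theorem main_mid {a : V → V → ℕ} {η k : V → ℤ} (hs : Sym a η) {Γ : Type} (G : Gens a η k Γ)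
    {kΓ : Γ → ℤ} (hk : ∀ x, kΓ x = 2 * G.dg x + etaC k (G.c x) - aC a (G.c x) (G.c x)) :
    ∃ (d : Mo kΓ → ℕ) (b : Mo kΓ → R V), (∀ t : Mo kΓ, etaC η (t.cls G.c) = 0) ∧
      (∀ β, etaC η β = 0 → GBas (Iso k (std β)) (J0 a η (std β))
        (fun t : {t : Mo kΓ // t.cls G.c = β} => b t.1) fun t => d t.1) ∧
      ∀ t : Mo kΓ, t.wt = 2 * d t + etaC k (t.cls G.c) - aC a (t.cls G.c) (t.cls G.c) := by
  have hp : ∀ x, Odd (kΓ x) ↔ Odd (G.par x) := fun x => by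
    have := main_par k (G.c x)
    rw [← Int.odd_coe_nat, Gens.par, hk, Int.odd_iff, Int.odd_iff]
    rw [Int.even_iff] at this
    push_cast
    omega
  have h0 : ∀ t : Mo kΓ, etaC η (t.cls G.c) = 0 := fun t => by
    simp only [Mo.cls, main_etaC_cls, G.eta0, mul_zero, Finsupp.sum_fun_zero]
  have ha : ∀ t : Mo kΓ, G.Adm t.1 := fun t y hy => t.2 y ((hp _).2 hy)
  choose F dF hF hd using pbw_basis hs G
  refine ⟨fun t => dF _ (h0 t) ⟨t.1, ha t, rfl⟩, fun t => F _ (h0 t) ⟨t.1, ha t, rfl⟩, h0,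
    fun β hβ => ?_, fun t => ?_⟩
  · let e : {t : Mo kΓ // t.cls G.c = β} ≃ {m // G.Adm m ∧ G.mcl m = β} :=
      ⟨fun t => ⟨t.1.1, ha t.1, t.2⟩, fun m => ⟨⟨m.1, fun y hy => m.2.1 y ((hp _).1 hy)⟩, m.2.2⟩,
        fun _ => rfl, fun _ => rfl⟩
    have e1 : (fun t : {t : Mo kΓ // t.cls G.c = β} => F _ (h0 t.1) ⟨t.1.1, ha t.1, rfl⟩) =
        fun t => F β hβ (e t) := funext (by rintro ⟨t, rfl⟩; rfl)
    have e2 : (fun t : {t : Mo kΓ // t.cls G.c = β} => dF _ (h0 t.1) ⟨t.1.1, ha t.1, rfl⟩) =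
        fun t => dF β hβ (e t) := funext (by rintro ⟨t, rfl⟩; rfl)
    rw [e1, e2]
    exact (hF β hβ).reindex e
  · rw [add_sub_right_comm, hd, show etaC k (t.cls G.c) = _ from main_etaC_cls k G.c t.1,
      ← Finsupp.sum_add]
    refine Finsupp.sum_congr fun y _ => ?_
    rw [hk]
    ring

end Aux

theorem thmA {V : Type} [DecidableEq V] (a : V → V → ℕ) (η k : V → ℤ)
    (hsym : ∀ β β', etaC η β = 0 → etaC η β' = 0 → aC a β β' = aC a β' β) :
    ∃ (T1 T3 Γ : Type) (c1 : T1 → V →₀ ℕ) (x1 : T1 → ℤ) (c3 : T3 → V →₀ ℕ) (x3 : T3 → ℤ)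
      (c : Γ → V →₀ ℕ) (kΓ : Γ → ℤ) (Φ : Mo k ≃ T1 × Mo kΓ × T3),
      (∀ t, c1 t = 0 ∨ 0 < etaC η (c1 t)) ∧
      (∃ t, c1 t = 0 ∧ x1 t = 0 ∧ ∀ t', c1 t' = 0 → t' = t) ∧
      (∀ t, c3 t = 0 ∨ etaC η (c3 t) < 0) ∧
      (∃ t, c3 t = 0 ∧ x3 t = 0 ∧ ∀ t', c3 t' = 0 → t' = t) ∧
      (∀ x, etaC η (c x) = 0 ∧ c x ≠ 0) ∧
      ∀ m : Mo k, m.cls (fun i => Finsupp.single i 1) =
          c1 (Φ m).1 + (Φ m).2.1.cls c + c3 (Φ m).2.2 ∧
        m.wt - aC a (m.cls fun i => Finsupp.single i 1) (m.cls fun i => Finsupp.single i 1) =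
          x1 (Φ m).1 + (Φ m).2.1.wt + x3 (Φ m).2.2 + omA a (c1 (Φ m).1) ((Φ m).2.1.cls c) +
            omA a (c1 (Φ m).1) (c3 (Φ m).2.2) + omA a ((Φ m).2.1.cls c) (c3 (Φ m).2.2) := by
  obtain ⟨T1, c1, d1, b1, h1⟩ := main_fam k (Jp a η) fun _ => Jp_scale
  obtain ⟨T3, c3, d3, b3, h3⟩ := main_fam k (Jm a η) fun _ => Jm_scale
  obtain ⟨Γ, ⟨G⟩⟩ := exists_Gens a η k
  obtain ⟨d2, b2, h2', h2, w2⟩ := main_mid (sym_of_class hsym) G fun _ => rfl
  obtain ⟨G0, g1, g2⟩ := exists_freeGens k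
  obtain ⟨d0, b0, -, h0, w0⟩ := main_mid (fun _ _ _ _ => by simp [aS]) G0 (kΓ := k) fun i => by
    simp [g1, g2, etaC, aC]
  rw [show G0.c = fun i => Finsupp.single i 1 from funext g1] at h0 w0
  choose F hF using hn_basis a η k c1 d1 b1 _ d2 b2 c3 d3 b3 h1 h2 h2' h3
  choose e he using fun γ => GBas.equiv (J := ⊥) (fun f hf => by
    rw [Ideal.mem_bot.1 hf, map_zero]; exact zero_mem _)
    (J0_zero _ (std γ) ▸ h0 γ (by simp [etaC])) (hF γ)
  obtain ⟨s1, t1, u1, u1', u1''⟩ := main_supp h1 Jp_empty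
  obtain ⟨s3, t3, u3, u3', u3''⟩ := main_supp h3 Jm_empty
  refine ⟨T1, T3, Γ, c1, fun t => 2 * d1 t + etaC k (c1 t) - aC a (c1 t) (c1 t), c3,
    fun t => 2 * d3 t + etaC k (c3 t) - aC a (c3 t) (c3 t), G.c, _, Equiv.ofFiberEquiv e,
    fun t => (s1 t).imp_right fun h => lt_of_not_ge fun h' => h.2 (Jp_top h.1 (by rwa [etaS_eq, cl_std])),
    ⟨t1, u1, by simp [u1, u1', etaC, aC], u1''⟩,
    fun t => (s3 t).imp_right fun h => lt_of_not_ge fun h' => h.2 (Jm_top h.1 (by rwa [etaS_eq, cl_std])),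
    ⟨t3, u3, by simp [u3, u3', etaC, aC], u3''⟩, fun x => ⟨G.eta0 x, G.ne0 x⟩, fun m => ?_⟩
  have k1 := (Equiv.ofFiberEquiv_map e m).symm
  have k2 := he _ ⟨m, rfl⟩
  rw [show (e _ ⟨m, rfl⟩).1 = Equiv.ofFiberEquiv e m from rfl] at k2
  have k3 : ∀ β : V →₀ ℕ, aC (fun _ _ => 0) β β = 0 := fun β => by simp [aC]
  refine ⟨k1, ?_⟩
  rw [w0, w2, ← k2, k3, k1]
  simp only [etaC_add, aC_add_left, aC_add_right, omA]
  push_cast
  ring

end
end Vale.Agent.P066.A
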