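import Vale.Agent.P066.A.UB

/-!
P066 part A, file Ord (TASK A12): reordering and swapping blocks.
* `FL_of_own`: a difference of two `gel`s on the same partition and level lies in `FL (L-1)` as soon
  as the symbols along that partition agree (`gel_FL`, `gel_sy_other`, `FL_of_sy`, `lev_inj`).
* `gel_reorder`: `ko`, `glev` and `∏ w` do not change, and `Kt (B ∘ τ) = ± Kt B` because `a` is
  symmetric on weight zero sets (e.g. both squares, or compare pair by pair: write `Kt` as a product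
  over the unordered pairs).  To transport symbols along `image (B ∘ τ) = image B`, first state a
  version of `gel_sy` for an arbitrary `π` with `h : image B = π` (by `subst`).
* `gel_swap`: take `h` from `exists_swap`.  `act h (gel B i w) = gel (B ∘ σ) i (w ∘ σ)` with
  `σ = swap j1 j2`, and `i ∘ σ = i`.  It remains to show `Kt (B ∘ σ) = (-1)^(aS (B j1) (B j1)) Kt B`:
  `Kt (B ∘ σ)` is `Kt B` with `z_(B j1)` and `z_(B j2)` exchanged (the exponents only depend on
  classes), and `Kt B = ± (z1 - z2)^a * ∏ C, ((z1 - zC)(z2 - zC))^(a C) * rest`; apply the exchange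
  automorphism to this factorisation (use `gel_reorder`-type sign freedom: any factorisation of
  `Kt B` up to a scalar sign is enough).
* `el_boson`: induction on the number of points moved by `τ`.  If `τ = 1` equality holds exactly
  (`act_gel`, `act_prod_iso`).  Otherwise pick `j1` with `j2 = τ j1 ≠ j1`, take `h'` from `gel_swap`
  (`φ = g j2 * (g j1)⁻¹`, sign `+1` by evenness), apply the induction hypothesis to `h' * h` and
  `swap j1 j2 * τ`, and use that `FL` is stable under `GS S` (`act_FL'`).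
-/

namespace Vale.Agent.P066.A
open MvPolynomial Finset
noncomputable section

variable {V : Type} [DecidableEq V] {a : V → V → ℕ} {η k : V → ℤ} {M : ℕ}
  {S : Finset (Vx V)} {r : ℕ} {B : Fin r → Finset (Vx V)} {i : Fin r → ℕ} {w : Fin r → R V}

namespace OrdAux

/-- the set of increasing pairs -/
def lt2 (r : ℕ) : Finset (Fin r × Fin r) := univ.filter fun p => p.1 < p.2

lemma mem_lt2 {p : Fin r × Fin r} : p ∈ lt2 r ↔ p.1 < p.2 := by simp [lt2]

lemma prod_pairs {P : Type} [CommMonoid P] (F : Fin r → Fin r → P) :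
    ∏ j, ∏ j' ∈ Ioi j, F j j' = ∏ p ∈ lt2 r, F p.1 p.2 := by
  rw [lt2, Finset.prod_filter, ← Finset.univ_product_univ, Finset.prod_product]
  refine Finset.prod_congr rfl fun j _ => ?_
  rw [← Finset.prod_filter]
  refine Finset.prod_congr ?_ fun _ _ => rfl
  ext j'
  simp

/-- sort the image of a pair -/
def srt (τ : Equiv.Perm (Fin r)) (p : Fin r × Fin r) : Fin r × Fin r :=
  if τ p.1 < τ p.2 then (τ p.1, τ p.2) else (τ p.2, τ p.1)

lemma srt_mem (τ : Equiv.Perm (Fin r)) {p : Fin r × Fin r} (hp : p ∈ lt2 r) :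
    srt τ p ∈ lt2 r := by
  rw [mem_lt2] at hp ⊢
  unfold srt
  split_ifs with h
  · exact h
  · exact lt_of_le_of_ne (not_lt.1 h) fun e => hp.ne' (τ.injective e)

lemma srt_inv (τ : Equiv.Perm (Fin r)) {p : Fin r × Fin r} (hp : p ∈ lt2 r) :
    srt τ⁻¹ (srt τ p) = p := by
  rw [mem_lt2] at hp
  by_cases h : τ p.1 < τ p.2
  · have e : srt τ p = (τ p.1, τ p.2) := if_pos h
    rw [e, srt]
    simp [hp]
  · have e : srt τ p = (τ p.2, τ p.1) := if_neg h
    rw [e, srt]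
    simp [hp.not_gt]

lemma prod_srt {P : Type} [CommMonoid P] (F : Fin r × Fin r → P) (τ : Equiv.Perm (Fin r)) :
    ∏ p ∈ lt2 r, F (srt τ p) = ∏ p ∈ lt2 r, F p :=
  Finset.prod_nbij' (srt τ) (srt τ⁻¹) (fun _ hp => srt_mem τ hp) (fun _ hp => srt_mem _ hp)
    (fun _ hp => srt_inv τ hp) (fun _ hp => by simpa using srt_inv τ⁻¹ hp) fun _ _ => rfl

/-- the reordering sign -/
def sg (e : Fin r → Fin r → ℕ) (τ : Equiv.Perm (Fin r)) : ℚ :=
  ∏ p ∈ lt2 r, if τ p.1 < τ p.2 then 1 else (-1) ^ e (τ p.1) (τ p.2)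

lemma sg_sq (e : Fin r → Fin r → ℕ) (τ : Equiv.Perm (Fin r)) : sg e τ = 1 ∨ sg e τ = -1 := by
  rw [← mul_self_eq_one_iff, sg, ← Finset.prod_mul_distrib]
  refine Finset.prod_eq_one fun p _ => ?_
  split_ifs
  · exact one_mul _
  · rw [← mul_pow, neg_mul_neg, one_mul, one_pow]

lemma sg_swap {e : Fin r → Fin r → ℕ} (he : ∀ u v, e u v = e v u) {j1 j2 : Fin r} (hj : j1 < j2)
    (hσ : ∀ u v, e (Equiv.swap j1 j2 u) (Equiv.swap j1 j2 v) = e u v) :
    sg e (Equiv.swap j1 j2) = (-1) ^ e j1 j2 := by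
  have hm : (j1, j2) ∈ lt2 r := mem_lt2.2 hj
  rw [sg, ← Finset.mul_prod_erase _ _ hm]
  simp only [Equiv.swap_apply_left, Equiv.swap_apply_right, if_neg hj.not_gt, hσ]
  rw [he j2 j1]
  refine (mul_right_eq_self₀.2 (Or.inl ?_))
  rw [Finset.prod_ite, Finset.prod_const_one, one_mul]
  refine Finset.prod_involution
    (fun p _ => (Equiv.swap j1 j2 p.2, Equiv.swap j1 j2 p.1)) ?_ ?_ ?_ ?_
  · intro p _
    rw [hσ, he p.2 p.1, ← mul_pow, neg_mul_neg, one_mul, one_pow]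
  · intro p hp _ h
    obtain ⟨h1, h2⟩ := Finset.mem_filter.1 hp
    obtain ⟨h3, h4⟩ := Finset.mem_erase.1 h1
    rw [mem_lt2] at h4
    have h5 : Equiv.swap j1 j2 p.2 = p.1 := congrArg Prod.fst h
    apply h3
    by_cases k1 : p.2 = j1
    · rw [k1, Equiv.swap_apply_left] at h5
      rw [← h5, k1] at h4
      exact absurd h4 hj.not_gt
    by_cases k2 : p.2 = j2
    · rw [k2, Equiv.swap_apply_right] at h5
      exact Prod.ext h5.symm k2
    · rw [Equiv.swap_apply_of_ne_of_ne k1 k2] at h5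
      exact absurd h5 h4.ne'
  · intro p hp
    obtain ⟨h1, h2⟩ := Finset.mem_filter.1 hp
    obtain ⟨h3, h4⟩ := Finset.mem_erase.1 h1
    rw [mem_lt2] at h4
    refine Finset.mem_filter.2 ⟨Finset.mem_erase.2 ⟨fun h => h3 ?_, mem_lt2.2 ?_⟩, ?_⟩
    · have h5 : Equiv.swap j1 j2 p.2 = j1 := congrArg Prod.fst h
      have h6 : Equiv.swap j1 j2 p.1 = j2 := congrArg Prod.snd h
      rw [Equiv.swap_apply_eq_iff, Equiv.swap_apply_left] at h5
      rw [Equiv.swap_apply_eq_iff, Equiv.swap_apply_right] at h6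
      exact Prod.ext h6 h5
    · exact lt_of_le_of_ne (not_lt.1 h2) fun h => h4.ne' ((Equiv.swap j1 j2).injective h)
    · simpa using h4.le
  · intro p _
    simp

lemma Kt_perm (hs : Sym a η) (hB : OZ η S B) (τ : Equiv.Perm (Fin r)) :
    Kt a (fun j => B (τ j)) = sg (fun u v => aS a (B u) (B v)) τ • Kt a B := by
  rw [Kt, Kt, prod_pairs, prod_pairs, sg,
    ← prod_srt (fun p => (X (B p.1) - X (B p.2)) ^ aS a (B p.1) (B p.2)) τ, smul_eq_C_mul,
    map_prod, ← Finset.prod_mul_distrib]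
  refine Finset.prod_congr rfl fun p _ => ?_
  unfold srt
  split_ifs with h
  · rw [map_one, one_mul]
  · rw [hs (B (τ p.2)) (B (τ p.1)) (hB.2 _).2 (hB.2 _).2, map_pow, ← mul_pow, map_neg, map_one,
      neg_one_mul, neg_sub]

lemma image_perm (τ : Equiv.Perm (Fin r)) :
    (univ.image fun j => B (τ j)) = univ.image B := by
  ext U
  simp only [Finset.mem_image, Finset.mem_univ, true_and]
  exact ⟨fun ⟨j, h⟩ => ⟨τ j, h⟩, fun ⟨j, h⟩ => ⟨τ.symm j, by rw [Equiv.apply_symm_apply, h]⟩⟩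

lemma ko_perm (hs : Sym a η) (hB : OZ η S B) (τ : Equiv.Perm (Fin r)) :
    ko a (fun j => B (τ j)) = ko a B := by
  have h1 := two_ko hs (hB.comp τ)
  have h2 := two_ko hs hB
  rw [image_perm] at h1
  omega

lemma gel_sy' (hB : OZ η S B) (hw : ∀ j, w j ∈ W0 a η (B j)) {π : Finset (Finset (Vx V))}
    (hπ : univ.image B = π) {D : ℕ} (hD : ko a B + ∑ j, i j = D) :
    sy a η π D (gel a B i w) = (∏ j, ((B j).card : ℚ) ^ i j) •
      (MvPolynomial.map (algebraMap ℚ _) (Kt a B * ∏ j, X (B j) ^ i j) *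
        C (Ideal.Quotient.mk (Ipi a η π) (∏ j, w j))) := by
  subst hπ hD
  exact gel_sy hB hw

end OrdAux

open OrdAux

theorem glev_reorder (hs : Sym a η) (hB : OZ η S B) (τ : Equiv.Perm (Fin r)) :
    glev a M (fun j => B (τ j)) (fun j => i (τ j)) = glev a M B i := by
  rw [glev, glev, image_perm, ko_perm hs hB, Equiv.sum_comp τ i]

theorem glev_img (g : Gf V) : glev a M (fun j => img g (B j)) i = glev a M B i := by
  have e : (univ.image fun j => img g (B j)) = (univ.image B).image (img g) := by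
    rw [Finset.image_image]
    rfl
  have e2 : ko a (fun j => img g (B j)) = ko a B := by
    simp only [ko, aS_img]
  rw [glev, glev, e, e2, lev, lev, kap_img, Finset.card_image_of_injective _ (img_inj g)]

theorem gel_reorder' (hs : Sym a η) (hM : S.card < M) (hB : OZ η S B)
    (hw : ∀ j, w j ∈ W0 a η (B j)) (τ : Equiv.Perm (Fin r)) :
      gel a (fun j => B (τ j)) (fun j => i (τ j)) (fun j => w (τ j)) -
        sg (fun u v => aS a (B u) (B v)) τ • gel a B i w ∈ FL a η M S (glev a M B i - 1) := by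
  have hB' := hB.comp τ
  have hw' : ∀ j, w (τ j) ∈ W0 a η (B (τ j)) := fun j => hw _
  have hl := glev_reorder (M := M) (i := i) hs hB τ
  refine FL_of_sy (Submodule.sub_mem _ ?_ (Submodule.smul_mem _ _ (gel_FL hs hM hB hw))) ?_
  · rw [← hl]
    exact gel_FL hs hM hB' hw'
  intro π D hπ hD
  have e0 : ∀ (c : ℚ) (f f' : R V), sy a η π D f = c • sy a η π D f' →
      sy a η π D (f - c • f') = 0 := fun c f f' hf => by
    have := sy_add (a := a) (η := η) (π := π) D (f - c • f') (c • f')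
    rwa [sub_add_cancel, sy_smul, hf, right_eq_add] at this
  apply e0
  by_cases h : π = univ.image B
  · have hD' : ko a B + ∑ j, i j = D := by
      rw [h] at hD
      exact (lev_inj (by omega) hD).symm
    rw [gel_sy' hB hw h.symm hD', gel_sy' hB' hw' ((image_perm τ).trans h.symm)
      (by rw [ko_perm hs hB, Equiv.sum_comp τ i, hD']), Kt_perm hs hB,
      Equiv.prod_comp τ fun j => ((B j).card : ℚ) ^ i j, Equiv.prod_comp τ w,
      Equiv.prod_comp τ fun j => (X (B j) : MvPolynomial (Finset (Vx V)) ℚ) ^ i j,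
      smul_mul_assoc, smul_eq_C_mul, map_mul, map_C, mul_assoc, ← MvPolynomial.algebraMap_apply,
      ← Algebra.smul_def, smul_comm]
  · rw [gel_sy_other hs hM hB hw hπ h hD,
      gel_sy_other hs hM hB' hw' hπ (by rw [image_perm]; exact h) (hD.trans hl.symm),
      smul_zero]

theorem gel_reorder (hs : Sym a η) (hM : S.card < M) (hB : OZ η S B)
    (hw : ∀ j, w j ∈ W0 a η (B j)) (τ : Equiv.Perm (Fin r)) :
    ∃ ε : ℚ, (ε = 1 ∨ ε = -1) ∧
      gel a (fun j => B (τ j)) (fun j => i (τ j)) (fun j => w (τ j)) - ε • gel a B i w ∈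
        FL a η M S (glev a M B i - 1) :=
  ⟨_, sg_sq _ τ, gel_reorder' hs hM hB hw τ⟩

theorem gel_swap (hs : Sym a η) (hM : S.card < M) (hB : OZ η S B)
    (hw : ∀ j, w j ∈ W0 a η (B j)) {j1 j2 : Fin r} (hj : j1 ≠ j2) (hi : i j1 = i j2)
    (φ : Gf V) (hφ : img φ (B j1) = B j2) (hφw : act φ (w j1) = w j2) :
    ∃ h ∈ GS S, (∀ j, img h (B j) = B (Equiv.swap j1 j2 j)) ∧
      chi k h • act h (gel a B i w) -
        (-1 : ℚ) ^ (ferS k (B j1) + aS a (B j1) (B j1)) • gel a B i w ∈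
        FL a η M S (glev a M B i - 1) := by
  obtain ⟨h, h1, h2, h3, h4⟩ := exists_swap k φ (A := B j1) (by rw [hφ]; exact hB.1.1 _ _ hj)
  rw [hφ] at h1
  have hd : ∀ j, j ≠ j1 → j ≠ j2 → Disjoint (B j1 ∪ B j2) (B j) := fun j k1 k2 =>
    Finset.disjoint_union_left.2 ⟨hB.1.1 _ _ k1.symm, hB.1.1 _ _ k2.symm⟩
  have hfix : ∀ s ∈ B j1, (h * φ).1 s = s := fun s hs => h3 s hs
  have e1 : ∀ j, img h (B j) = B (Equiv.swap j1 j2 j) := by
    intro j
    by_cases k1 : j = j1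
    · rw [k1, Equiv.swap_apply_left, ← hφ]
      exact Finset.image_congr fun s hs => h2 s hs
    by_cases k2 : j = j2
    · rw [k2, Equiv.swap_apply_right, ← hφ, ← img_mul]
      exact (Finset.image_congr (g := id) fun s hs => hfix s hs).trans Finset.image_id
    · rw [Equiv.swap_apply_of_ne_of_ne k1 k2]
      exact img_of_disjoint h1 (hd j k1 k2)
  have e2 : ∀ j, act h (w j) = w (Equiv.swap j1 j2 j) := by
    intro j
    by_cases k1 : j = j1
    · rw [k1, Equiv.swap_apply_left, ← hφw]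
      exact act_congr (hw j1).1 h2
    by_cases k2 : j = j2
    · rw [k2, Equiv.swap_apply_right, ← hφw, ← act_mul]
      exact act_of_fix (hw j1).1 hfix
    · rw [Equiv.swap_apply_of_ne_of_ne k1 k2]
      exact act_of_disjoint (hw j).1 h1 (hd j k1 k2)
  have e3 : i = fun j => i (Equiv.swap j1 j2 j) :=
    funext fun j => (Equiv.apply_swap_eq_self hi j).symm
  have e4 : ∀ u v, aS a (B (Equiv.swap j1 j2 u)) (B (Equiv.swap j1 j2 v)) = aS a (B u) (B v) :=
    fun u v => by rw [← e1, ← e1, aS_img]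
  have e5 : ∀ u v, aS a (B u) (B v) = aS a (B v) (B u) :=
    fun u v => hs _ _ (hB.2 _).2 (hB.2 _).2
  have e6 : aS a (B j1) (B j2) = aS a (B j1) (B j1) := by
    have := aS_img (a := a) (A := B j1) (B := B j1) 1 φ
    rwa [img_one, hφ] at this
  have e7 : sg (fun u v => aS a (B u) (B v)) (Equiv.swap j1 j2) = (-1) ^ aS a (B j1) (B j1) := by
    rcases lt_or_gt_of_ne hj with k1 | k1
    · rw [sg_swap e5 k1 e4, e6]
    · rw [Equiv.swap_comm] at e4 ⊢
      rw [sg_swap e5 k1 e4, e5, e6]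
  refine ⟨h, GS_mono (Finset.union_subset (hB.1.subset _) (hB.1.subset _)) h1, e1, ?_⟩
  have key := gel_reorder' (i := i) hs hM hB hw (Equiv.swap j1 j2)
  rw [← e3, e7] at key
  rw [act_gel, h4, pow_add, mul_smul, ← smul_sub]
  simp only [e1, e2]
  exact Submodule.smul_mem _ _ key

variable {Γ : Type} {G : Gens a η k Γ}

theorem Gens.w_mem (G : Gens a η k Γ) (x : Γ) :
    G.w x ∈ Iso k (std (G.c x)) ∧ G.w x ∈ W0 a η (std (G.c x)) ∧
      (G.w x).IsHomogeneous (G.dg x) :=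
  ⟨((G.bas _ (G.eta0 x) (G.ne0 x)).mem ⟨x, rfl⟩).1, ((G.bas _ (G.eta0 x) (G.ne0 x)).mem ⟨x, rfl⟩).2,
    (G.bas _ (G.eta0 x) (G.ne0 x)).hom ⟨x, rfl⟩⟩
theorem LP.cl_B (Λ : LP G S) (j : Fin Λ.r) : cl (Λ.B j) = G.c (Λ.l j).1 := by
  rw [← Λ.img_eq j, cl_img, cl_std]
theorem LP.w_iso (Λ : LP G S) (j : Fin Λ.r) : Λ.w j ∈ Iso k (Λ.B j) := by
  rw [← Λ.img_eq j]
  exact iso_act _ (G.w_mem _).1
theorem LP.w_W0 (Λ : LP G S) (j : Fin Λ.r) : Λ.w j ∈ W0 a η (Λ.B j) := by
  rw [← Λ.img_eq j]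
  exact act_W0 _ (G.w_mem _).2.1
theorem LP.par_eq (Λ : LP G S) (j : Fin Λ.r) :
    ferS k (Λ.B j) + aS a (Λ.B j) (Λ.B j) = G.par (Λ.l j).1 := by
  rw [ferS_eq, aS_eq, Λ.cl_B, Gens.par]

theorem LP.swap (hs : Sym a η) (hM : S.card < M) (Λ : LP G S) {j1 j2 : Fin Λ.r}
    (hj : j1 ≠ j2) (hl : Λ.l j1 = Λ.l j2) :
    ∃ h ∈ GS S, (∀ j, img h (Λ.B j) = Λ.B (Equiv.swap j1 j2 j)) ∧
      chi k h • act h Λ.el - (-1 : ℚ) ^ G.par (Λ.l j1).1 • Λ.el ∈ FL a η M S (Λ.lev M - 1) := by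
  rw [← Λ.par_eq]
  refine gel_swap hs hM Λ.oz Λ.w_W0 hj (congrArg Prod.snd hl) (Λ.g j2 * (Λ.g j1)⁻¹) ?_ ?_
  · rw [← Λ.img_eq j1, ← img_mul, inv_mul_cancel_right, hl, Λ.img_eq]
  · rw [LP.w, ← act_mul, inv_mul_cancel_right, hl, LP.w]

theorem el_boson (hs : Sym a η) (hM : S.card < M) (Λ : LP G S)
    (hev : ∀ j j', j ≠ j' → Λ.l j = Λ.l j' → Even (G.par (Λ.l j).1))
    (τ : Equiv.Perm (Fin Λ.r)) (hτ : ∀ j, Λ.l (τ j) = Λ.l j) {h : Gf V} (hh : h ∈ GS S)
    (hB : ∀ j, img h (Λ.B j) = Λ.B (τ j)) :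
    chi k h • act h Λ.el - Λ.el ∈ FL a η M S (Λ.lev M - 1) := by
  have hsq : ∀ g : Gf V, chi k g * chi k g = 1 := fun g => mul_self_eq_one_iff.2 (chi_sq k g)
  induction hn : τ.support.card using Nat.strong_induction_on generalizing τ h with
  | _ n ih =>
  by_cases h1 : ∀ j, τ j = j
  · simp only [h1] at hB
    have e : act h Λ.el = chi k h • Λ.el := by
      rw [LP.el, act_gel]
      simp only [hB]
      rw [gel, gel, Finset.prod_mul_distrib, Finset.prod_mul_distrib, ← map_prod,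
        act_prod_iso Λ.oz.1 hh hB Λ.w_iso, mul_smul_comm, mul_smul_comm]
    rw [e, smul_smul, hsq, one_smul, sub_self]
    exact zero_mem _
  obtain ⟨j1, h2⟩ := not_forall.1 h1
  obtain ⟨h', k1, k2, k3⟩ := LP.swap hs hM Λ (Ne.symm h2) (hτ j1).symm
  rw [(hev _ _ (Ne.symm h2) (hτ j1).symm).neg_one_pow, one_smul] at k3
  have k4 := ih _ (hn ▸ Equiv.Perm.card_support_swap_mul h2) (Equiv.swap j1 (τ j1) * τ)
    (fun j => by
      rw [Equiv.Perm.mul_apply, Equiv.apply_swap_eq_self (hτ j1).symm, hτ])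
    (mul_mem_GS k1 hh) (fun j => by rw [img_mul, hB, k2, Equiv.Perm.mul_apply]) rfl
  have k5 := Submodule.smul_mem _ (chi k h') (act_FL' (inv_mem_GS k1) (Submodule.sub_mem _ k4 k3))
  have e : chi k h' • act h'⁻¹ (chi k (h' * h) • act (h' * h) Λ.el - Λ.el -
      (chi k h' • act h' Λ.el - Λ.el)) = chi k h • act h Λ.el - Λ.el := by
    rw [sub_sub_sub_cancel_right, map_sub, map_smul, map_smul, ← act_mul, ← act_mul,
      inv_mul_cancel_left, inv_mul_cancel, act_one, smul_sub, smul_smul, smul_smul, map_mul,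
      ← mul_assoc, hsq, one_mul, one_smul]
  rwa [e] at k5

theorem el_fermion (hs : Sym a η) (hM : S.card < M) (Λ : LP G S) {j1 j2 : Fin Λ.r}
    (hj : j1 ≠ j2) (hl : Λ.l j1 = Λ.l j2) (hodd : Odd (G.par (Λ.l j1).1)) :
    ∃ h ∈ GS S, chi k h • act h Λ.el + Λ.el ∈ FL a η M S (Λ.lev M - 1) := by
  obtain ⟨h, k1, -, k3⟩ := LP.swap hs hM Λ hj hl
  rw [hodd.neg_one_pow, neg_smul, one_smul, sub_neg_eq_add] at k3
  exact ⟨h, k1, k3⟩

end
end Vale.Agent.P066.A
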