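import Vale.Agent.P066.A.Span
import Vale.Agent.P066.A.Indep
import Vale.Agent.P066.A.HN

/-!
P066 part A, file PBW (TASK A16): PBW basis, existence of generators, the free case.
* `pbw_basis`: choose `Λm` by `exists_LP`; `pbw_span`, `pbw_indep`, `alt_mem_iso`, `alt_hom`,
  `LP.el_hom`, `LP.deg_formula`.
* `exists_Gens`: `exists_GBas` for every class (`iso_scale`, `scale_W0`, `J0_scale`); `Γ` is the sigma
  type over the classes `β ≠ 0` with `η β = 0`; `GBas.reindex`.
* `freeGens`: with `a = 0`, `η = 0` all ideals `J0`, `Ipi` vanish.  If `std β` has at least two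
  elements, the partition into singletons shows `W0 = 0` (`coeff_zero_sh`) and no `single i 1` equals
  `β`.  If `β = single i 1`, `std β = {s}`, the partition `{{s}}` shows that `f ∈ W0` satisfies
  `f(x + z) = f(x)`, so `f ∈ RS {s}` is constant (put `x = 0`, `z = x`); `Part {s} ρ` forces
  `ρ = {{s}}`; `GS {s} = {1}`.
-/

namespace Vale.Agent.P066.A
open MvPolynomial Finset
noncomputable section

variable {V : Type} [DecidableEq V] {a : V → V → ℕ} {η k : V → ℤ} {Γ : Type}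

theorem pbwAux_basis (hs : Sym a η) (G : Gens a η k Γ) (S : Finset (Vx V)) (γ : V →₀ ℕ)
    (h : cl S = γ) (hγ : etaC η γ = 0) :
    ∃ (F : {m // G.Adm m ∧ G.mcl m = γ} → R V) (dF : {m // G.Adm m ∧ G.mcl m = γ} → ℕ),
      GBas (Iso k S) (J0 a η S) F dF ∧
      ∀ m, 2 * (dF m : ℤ) - aC a γ γ = m.1.sum fun y n =>
        (n : ℤ) * (2 * ((G.dg y.1 : ℤ) + y.2) - aC a (G.c y.1) (G.c y.1)) := by
  subst h
  choose Λ hΛ using fun m : {m // G.Adm m ∧ G.mcl m = cl S} => exists_LP m.2.2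
  refine ⟨fun m => Alt k S (Λ m).el, fun m => (Λ m).deg, ⟨fun m => alt_mem_iso (Λ m).el_mem,
    fun m => alt_hom (Λ m).el_hom, pbw_indep hs Λ hΛ,
    fun f hf => pbw_span hs (by rwa [etaS_eq]) Λ hΛ hf⟩, fun m => ?_⟩
  rw [← hΛ m]
  exact (Λ m).deg_formula hs

theorem pbw_basis (hs : Sym a η) (G : Gens a η k Γ) (γ : V →₀ ℕ) (hγ : etaC η γ = 0) :
    ∃ (F : {m // G.Adm m ∧ G.mcl m = γ} → R V) (dF : {m // G.Adm m ∧ G.mcl m = γ} → ℕ),
      GBas (Iso k (std γ)) (J0 a η (std γ)) F dF ∧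
      ∀ m, 2 * (dF m : ℤ) - aC a γ γ = m.1.sum fun y n =>
        (n : ℤ) * (2 * ((G.dg y.1 : ℤ) + y.2) - aC a (G.c y.1) (G.c y.1)) :=
  pbwAux_basis hs G _ γ (cl_std γ) hγ

omit [DecidableEq V] in
theorem pbwAux_reindex {I I' : Type} {W : Submodule ℚ (R V)} {J : Ideal (R V)} {b : I' → R V}
    {dg : I' → ℕ} (e : I ≃ I') (h : GBas W J (fun i => b (e i)) fun i => dg (e i)) :
    GBas W J b dg := by
  classical
  simpa using h.reindex e.symm

theorem exists_Gens (a : V → V → ℕ) (η k : V → ℤ) : ∃ Γ : Type, Nonempty (Gens a η k Γ) := by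
  choose I b dg h using fun β : V →₀ ℕ => exists_GBas (W := Iso k (std β) ⊓ W0 a η (std β))
    (J := J0 a η (std β)) (fun f hf => ⟨iso_scale hf.1, scale_W0 hf.2⟩) J0_scale
  refine ⟨Σ β : {β // etaC η β = 0 ∧ β ≠ 0}, I β.1, ⟨⟨fun x => x.1.1, fun x => dg _ x.2,
    fun x => b _ x.2, fun x => x.1.2.1, fun x => x.1.2.2, fun β h0 h1 => ?_⟩⟩⟩
  refine pbwAux_reindex (Equiv.ofBijective (fun i : I β => ⟨⟨⟨β, h0, h1⟩, i⟩, rfl⟩)
    ⟨fun i j hij => ?_, ?_⟩) (h β)
  · simpa using hij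
  · rintro ⟨⟨⟨β', h'⟩, i⟩, rfl⟩
    exact ⟨i, rfl⟩

theorem J0_zero (a : V → V → ℕ) (S : Finset (Vx V)) : J0 a (fun _ => 0) S = ⊥ := by
  refine Ideal.span_eq_bot.2 ?_
  rintro _ ⟨U, -, h, -⟩
  simp [etaS] at h

theorem pbwAux_Ipi (a : V → V → ℕ) (π : Finset (Finset (Vx V))) : Ipi a (fun _ => 0) π = ⊥ := by
  simp [Ipi, J0_zero]

theorem pbwAux_kap (π : Finset (Finset (Vx V))) : kap (fun _ _ => 0) π = 0 := by
  simp [kap, aS]

theorem pbwAux_two {S : Finset (Vx V)} (hS : 1 < S.card) {f : R V}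
    (hf : f ∈ W0 (fun _ _ => 0) (fun _ => 0) S) : f = 0 := by
  have h1 : Part (fun _ => 0) S (S.image singleton) := by
    refine ⟨fun B hB => ?_, fun B hB B' hB' hne => ?_, ?_⟩
    · obtain ⟨s, -, rfl⟩ := mem_image.1 hB
      simp [etaS]
    · obtain ⟨s, -, rfl⟩ := mem_image.1 hB
      obtain ⟨t, -, rfl⟩ := mem_image.1 hB'
      simpa using hne
    · rw [image_biUnion]
      exact biUnion_singleton_eq_self
  have h2 := hf.2 _ h1 0 (by
    rw [pbwAux_kap, card_image_of_injective _ singleton_injective, map_zero]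
    omega)
  rwa [pbwAux_Ipi, coeff_zero_sh, Ideal.mem_bot] at h2

theorem pbwAux_one {s : Vx V} {f : R V} (hf : f ∈ W0 (fun _ _ => 0) (fun _ => 0) {s}) :
    f = C (constantCoeff f) := by
  have h1 : Part (fun _ => 0) {s} {{s}} := Part.single (singleton_nonempty s) (by simp [etaS])
  have h2 : sh {{s}} f = C f := by
    ext1 m
    rw [coeff_C]
    split_ifs with hm
    · rw [← hm, coeff_zero_sh]
    · have h3 := hf.2 _ h1 m (by
        have := (Finsupp.degree_eq_zero_iff m).not.2 (Ne.symm hm)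
        rw [pbwAux_kap, card_singleton]
        omega)
      rwa [pbwAux_Ipi, Ideal.mem_bot] at h3
  have h3 := basic_RS_ext (φ := AlgHom.id ℚ (R V))
    (ψ := (aevalTower (aeval fun _ => (0 : R V)) fun _ => X s).comp (sh {{s}}))
    (fun t ht => by
      rw [mem_singleton.1 ht, AlgHom.comp_apply,
        sh_X_of_mem h1 (mem_singleton_self _) (mem_singleton_self _)]
      simp) hf.1
  rwa [AlgHom.comp_apply, h2, aevalTower_C, aeval_zero'] at h3

theorem pbwAux_mem (k : V → ℤ) (s : Vx V) :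
    (1 : R V) ∈ Iso k {s} ⊓ W0 (fun _ _ => 0) (fun _ => 0) {s} := by
  refine ⟨⟨one_mem _, fun g hg => ?_⟩, one_mem _, fun ρ hρ m hm => ?_⟩
  · have h1 : ∀ t, t ≠ s → g.1 t = t := fun t ht => mem_GS.1 hg t (by simpa using ht)
    obtain rfl : g = 1 := Subtype.ext (Equiv.ext fun t => by
      by_cases ht : t = s
      · by_contra h
        rw [ht] at h
        exact h (g.1.injective (h1 _ h))
      · exact h1 t ht)
    simp
  · have h1 := hρ.card_le
    rw [pbwAux_kap] at hm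
    rw [card_singleton] at h1
    rw [map_one, coeff_one, if_neg]
    · exact zero_mem _
    · rintro rfl
      rw [map_zero] at hm
      omega

theorem exists_freeGens (k : V → ℤ) : ∃ G : Gens (fun _ _ => 0) (fun _ => 0) k V,
    (∀ i, G.c i = Finsupp.single i 1) ∧ ∀ i, G.dg i = 0 := by
  refine ⟨⟨fun i => Finsupp.single i 1, fun _ => 0, fun _ => 1, fun _ => by simp [etaC],
    fun _ => by simp, fun β _ h0 => ?_⟩, fun _ => rfl, fun _ => rfl⟩
  rw [J0_zero]
  have h1 : ∀ s, std β = {s} → β = Finsupp.single s.1 1 := fun s hs => by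
    rw [← cl_std β, hs, cl, sum_singleton]
  rcases lt_trichotomy (std β).card 1 with h | h | h
  · rw [Nat.lt_one_iff, card_eq_zero, ← cl_eq_zero, cl_std] at h
    exact absurd h h0
  · obtain ⟨s, hs⟩ := card_eq_one.1 h
    have : Unique {x : V // Finsupp.single x 1 = β} := ⟨⟨⟨s.1, (h1 s hs).symm⟩⟩, fun x =>
      Subtype.ext (Finsupp.single_left_injective one_ne_zero (x.2.trans (h1 s hs)))⟩
    rw [hs]
    refine ⟨fun _ => pbwAux_mem k s, fun _ => isHomogeneous_one _ _, fun c hc => ?_,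
      fun f hf => ⟨Finsupp.single default (constantCoeff f), ?_⟩⟩
    · rw [Finsupp.linearCombination_unique, Ideal.mem_bot, smul_eq_zero] at hc
      exact Finsupp.unique_ext (hc.resolve_right one_ne_zero)
    · rw [Finsupp.linearCombination_single, Ideal.mem_bot, sub_eq_zero, smul_eq_C_mul, mul_one]
      exact pbwAux_one hf.2
  · have : IsEmpty {x : V // Finsupp.single x 1 = β} := ⟨fun x => by
      rw [card_eq_degree, cl_std, ← x.2, Finsupp.degree_single] at h
      exact lt_irrefl _ h⟩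
    refine ⟨isEmptyElim, isEmptyElim, fun c _ => Subsingleton.elim _ _, fun f hf => ⟨0, ?_⟩⟩
    rw [pbwAux_two h hf.2]
    simp

end
end Vale.Agent.P066.A
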