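import Vale.Agent.P066.A.Ideals

/-!
P066 part A, file Shift (TASK A7): basic properties of shifts, the filtration `FL`, `W0`, symbols.
* `sh_eq_of_RS`: both sides are algebra maps agreeing on the variables of `B`
  (`supported_eq_adjoin_X`, `Algebra.adjoin_induction`).
* `coeff_sh_of_mem`: `sh π` fixes (as constants) the generators of `J0 B`, `B ∈ π`.
* `J0_coeff`: if `η U > 0` some block has `η (U ∩ B) > 0`, and `Kr (U ∩ B) (B \ (U ∩ B))` divides
  `Kr U (S \ U)`.
* `act_sh`: `sh (g π) (act g f) = rename (img g) (map (act g) (sh π f))` (algebra maps).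
* `scale_W0`: `coeff m (sh ρ (scale f)) = 2^|m| • scale (coeff m (sh ρ f))`.
* `kap_even`: order the blocks (`Part.exists_OZ`, `two_ko`).
* `FL_neg`: if `S` is nonempty use the partition `{S}` (all levels are `≥ 0`) and `coeff_zero_sh`;
  if `S = ∅` use the empty partition.
-/

namespace Vale.Agent.P066.A
open MvPolynomial Finset
noncomputable section

variable {V : Type} [DecidableEq V] {a : V → V → ℕ} {η k : V → ℤ} {M : ℕ} {L : ℤ}
  {A B S : Finset (Vx V)} {f : R V} {π ρ : Finset (Finset (Vx V))}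

theorem shift_sh_X (π : Finset (Finset (Vx V))) (s : Vx V) :
    sh π (X s) = C (X s) + ∑ B ∈ π.filter (fun B => s ∈ B), X B := by
  unfold sh; exact aeval_X _ s

theorem shift_filt_eq (hπ : Part η S π) (hB : B ∈ π) {s : Vx V} (hs : s ∈ B) :
    π.filter (fun U => s ∈ U) = {B} := by
  ext U
  simp only [mem_filter, mem_singleton]
  constructor
  · rintro ⟨hU, hsU⟩
    by_contra hne
    exact disjoint_left.1 (hπ.2.1 U hU B hB hne) hsU hs
  · rintro rfl; exact ⟨hB, hs⟩

theorem shift_sh_C (π : Finset (Finset (Vx V))) (c : ℚ) : sh π (C c) = C (C c) := by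
  have : (C c : R V) = algebraMap ℚ (R V) c := rfl
  rw [this, AlgHom.commutes]
  rfl

theorem sh_X_of_mem (hπ : Part η S π) (hB : B ∈ π) {s : Vx V} (hs : s ∈ B) :
    sh π (X s) = C (X s) + X B := by
  rw [shift_sh_X, shift_filt_eq hπ hB hs, sum_singleton]

theorem coeff_zero_sh (π : Finset (Finset (Vx V))) (f : R V) : coeff 0 (sh π f) = f := by
  change constantCoeff (sh π f) = f
  induction f using MvPolynomial.induction_on with
  | C c => rw [shift_sh_C, constantCoeff_C]
  | add p q hp hq => rw [map_add, map_add, hp, hq]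
  | mul_X p s hp =>
    rw [map_mul, map_mul, hp, shift_sh_X, map_add, map_sum, constantCoeff_C]
    simp

theorem shift_sh_mem_supported (π : Finset (Finset (Vx V))) (f : R V) :
    sh π f ∈ supported (R V) (π : Set (Finset (Vx V))) := by
  induction f using MvPolynomial.induction_on with
  | C c => rw [shift_sh_C]; exact Subalgebra.algebraMap_mem _ _
  | add p q hp hq => rw [map_add]; exact add_mem hp hq
  | mul_X p s hp =>
    rw [map_mul, shift_sh_X]
    refine mul_mem hp (add_mem (Subalgebra.algebraMap_mem _ _) (sum_mem fun U hU => ?_))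
    exact X_mem_supported.2 (mem_filter.1 hU).1

theorem coeff_sh_supp {m : Finset (Vx V) →₀ ℕ} (h : coeff m (sh π f) ≠ 0) : m.support ⊆ π := by
  have h1 := mem_supported.1 (shift_sh_mem_supported π f)
  intro U hU
  have : U ∈ (sh π f).vars := (mem_vars_iff_mem_support U).2 ⟨m, mem_support_iff.2 h, hU⟩
  exact_mod_cast h1 this

/-- polynomials with coefficients in a subalgebra -/
def shift_coefIn (T : Subalgebra ℚ (R V)) : Subalgebra ℚ (MvPolynomial (Finset (Vx V)) (R V)) where
  carrier := {p | ∀ m, coeff m p ∈ T}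
  mul_mem' := fun {p q} hp hq m => by
    classical
    rw [coeff_mul]
    exact sum_mem fun x _ => mul_mem (hp _) (hq _)
  add_mem' := fun {p q} hp hq m => by rw [coeff_add]; exact add_mem (hp m) (hq m)
  algebraMap_mem' := fun c m => by
    classical
    change coeff m (C (algebraMap ℚ (R V) c)) ∈ T
    rw [coeff_C]
    split_ifs
    · exact T.algebraMap_mem c
    · exact zero_mem _

theorem coeff_sh_RS (hf : f ∈ RS S) (π : Finset (Finset (Vx V))) (m : Finset (Vx V) →₀ ℕ) :
    coeff m (sh π f) ∈ RS S := by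
  have h : RS S ≤ (shift_coefIn (RS S)).comap (sh π) := by
    unfold RS
    rw [supported_eq_adjoin_X, Algebra.adjoin_le_iff]
    rintro _ ⟨s, hs, rfl⟩
    change sh π (X s) ∈ shift_coefIn _
    rw [shift_sh_X]
    refine add_mem (fun m => ?_) (sum_mem fun U _ m => ?_)
    · rw [coeff_C]
      split_ifs
      · exact Algebra.subset_adjoin ⟨s, hs, rfl⟩
      · exact zero_mem _
    · rw [coeff_X]
      split_ifs
      · exact one_mem _
      · exact zero_mem _
  exact h hf m

/-- on `RS B` the shift only depends on the traces on `B` -/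
theorem sh_eq_of_RS (hf : f ∈ RS B)
    (h : ∀ s ∈ B, π.filter (fun U => s ∈ U) = ρ.filter fun U => s ∈ U) : sh π f = sh ρ f := by
  have h1 : RS B ≤ AlgHom.equalizer (sh π) (sh ρ) := by
    unfold RS
    rw [supported_eq_adjoin_X, Algebra.adjoin_le_iff]
    rintro _ ⟨s, hs, rfl⟩
    change sh π (X s) = sh ρ (X s)
    rw [shift_sh_X, shift_sh_X, h s hs]
  exact h1 hf

theorem sh_of_RC (hf : f ∈ RC A) (h : ∀ U ∈ π, U ⊆ A) : sh π f = C f := by
  have h1 : RC A ≤ AlgHom.equalizer (sh π)
      (IsScalarTower.toAlgHom ℚ (R V) (MvPolynomial (Finset (Vx V)) (R V))) := by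
    unfold RC
    rw [supported_eq_adjoin_X, Algebra.adjoin_le_iff]
    rintro _ ⟨s, hs, rfl⟩
    change sh π (X s) = C (X s)
    rw [shift_sh_X, filter_eq_empty_iff.2 fun U hU hsU => hs (h U hU hsU), sum_empty, add_zero]
  exact h1 hf

theorem sh_Kr_same (hπ : Part η S π) (hB : B ∈ π) {U U' : Finset (Vx V)} (hU : U ⊆ B)
    (hU' : U' ⊆ B) : sh π (Kr a U U') = C (Kr a U U') := by
  unfold Kr
  simp only [map_prod, map_pow, map_sub]
  refine prod_congr rfl fun s hs => prod_congr rfl fun t ht => ?_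
  rw [sh_X_of_mem hπ hB (hU hs), sh_X_of_mem hπ hB (hU' ht), add_sub_add_right_eq_sub]

theorem J0_le_Ipi (hB : B ∈ π) : J0 a η B ≤ Ipi a η π :=
  le_iSup₂ (f := fun B (_ : B ∈ π) => J0 a η B) B hB

theorem shift_Ipi_le {J : Ideal (R V)} (h : ∀ B ∈ π, J0 a η B ≤ J) : Ipi a η π ≤ J := iSup₂_le h

theorem Ipi_singleton : Ipi a η {B} = J0 a η B := by
  unfold Ipi; exact Finset.iSup_singleton B _

theorem Ipi_union : Ipi a η (π ∪ ρ) = Ipi a η π ⊔ Ipi a η ρ := by
  unfold Ipi; exact Finset.iSup_union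

theorem Ipi_gen (h : ∀ U ∈ π, U ⊆ A) : GenIn (RS A) (Ipi a η π) := by
  unfold Ipi
  rw [iSup_subtype']
  exact GenIn.iSup fun U => J0_gen.mono (RS_mono (h U.1 U.2))

theorem Ipi_scale : ∀ f ∈ Ipi a η π, scale f ∈ Ipi a η π := by
  have h : Ipi a η π ≤ (Ipi a η π).comap (scale : R V →ₐ[ℚ] R V) :=
    shift_Ipi_le fun B hB f hf => J0_le_Ipi hB (J0_scale f hf)
  exact fun f hf => h hf

theorem Ipi_act (g : Gf V) (hf : f ∈ Ipi a η π) : act g f ∈ Ipi a η (π.image (img g)) := by
  have h : Ipi a η π ≤ (Ipi a η (π.image (img g))).comap (act g) :=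
    shift_Ipi_le fun B hB f hf => J0_le_Ipi (mem_image_of_mem _ hB) (J0_act g hf)
  exact h hf

theorem coeff_sh_of_mem (hπ : Part η S π) (hf : f ∈ Ipi a η π) (m : Finset (Vx V) →₀ ℕ) :
    coeff m (sh π f) ∈ Ipi a η π := by
  have h : Ipi a η π ≤ ((Ipi a η π).map
      (C : R V →+* MvPolynomial (Finset (Vx V)) (R V))).comap (sh π) := by
    refine shift_Ipi_le fun B hB => ?_
    unfold J0
    rw [Ideal.span_le]
    rintro _ ⟨U, hU, hη, rfl⟩
    change sh π (Kr a U (B \ U)) ∈ Ideal.map _ _
    rw [sh_Kr_same hπ hB hU sdiff_subset]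
    exact Ideal.mem_map_of_mem _ (J0_le_Ipi hB (Ideal.subset_span ⟨U, hU, hη, rfl⟩))
  exact mem_map_C_iff.1 (h hf) m

theorem Part.subset (hπ : Part η S π) (hB : B ∈ π) : B ⊆ S := by
  rw [← hπ.2.2]
  exact subset_biUnion_of_mem id hB

theorem J0_le_Ipi_part (hπ : Part η S π) : J0 a η S ≤ Ipi a η π := by
  conv_lhs => unfold J0
  rw [Ideal.span_le]
  rintro _ ⟨U, hU, hη, rfl⟩
  have h1 : U = π.biUnion fun B => U ∩ B := by
    ext s
    simp only [mem_biUnion, mem_inter]
    constructor
    · intro hs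
      have := hU hs
      rw [← hπ.2.2, mem_biUnion] at this
      obtain ⟨B, hB, hsB⟩ := this
      exact ⟨B, hB, hs, hsB⟩
    · rintro ⟨B, _, hs, _⟩; exact hs
  have h2 : etaS η U = ∑ B ∈ π, etaS η (U ∩ B) := by
    conv_lhs => rw [h1]
    unfold etaS
    refine sum_biUnion fun B hB B' hB' hne => ?_
    exact (hπ.2.1 B hB B' hB' hne).mono inter_subset_right inter_subset_right
  obtain ⟨B, hB, hpos⟩ : ∃ B ∈ π, 0 < etaS η (U ∩ B) := by
    by_contra hc
    push Not at hc
    have := sum_nonpos hc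
    omega
  have h3 : Kr a (U ∩ B) (B \ (U ∩ B)) ∣ Kr a U (S \ U) := by
    refine Kr_dvd inter_subset_left fun s hs => ?_
    simp only [mem_sdiff, mem_inter, not_and] at hs ⊢
    exact ⟨hπ.subset hB hs.1, fun h => hs.2 h hs.1⟩
  refine Ideal.mem_of_dvd _ h3 (J0_le_Ipi hB (Ideal.subset_span ⟨_, inter_subset_right, hpos, rfl⟩))

theorem J0_le_FL (hf : f ∈ J0 a η S) : f ∈ FL a η M S L :=
  fun _ hπ m _ => coeff_sh_of_mem hπ (J0_le_Ipi_part hπ hf) m

theorem Part.card_le (hπ : Part η S π) : π.card ≤ S.card := by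
  rw [← hπ.2.2, card_biUnion (t := id) fun B hB B' hB' hne => hπ.2.1 B hB B' hB' hne,
    card_eq_sum_ones π]
  exact sum_le_sum fun B hB => (hπ.1 B hB).1.card_pos

theorem Part.single (hS : S.Nonempty) (h : etaS η S = 0) : Part η S {S} := by
  refine ⟨fun B hB => ?_, fun B hB B' hB' hne => ?_, by simp⟩
  · rw [mem_singleton.1 hB]; exact ⟨hS, h⟩
  · exact absurd ((mem_singleton.1 hB).trans (mem_singleton.1 hB').symm) hne

theorem Part.img (hπ : Part η S π) (g : Gf V) : Part η (img g S) (π.image (img g)) := by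
  refine ⟨fun B hB => ?_, fun B hB B' hB' hne => ?_, ?_⟩
  · obtain ⟨U, hU, rfl⟩ := mem_image.1 hB
    exact ⟨(hπ.1 U hU).1.image _, by rw [etaS_img]; exact (hπ.1 U hU).2⟩
  · obtain ⟨U, hU, rfl⟩ := mem_image.1 hB
    obtain ⟨U', hU', rfl⟩ := mem_image.1 hB'
    exact (img_disjoint g).2 (hπ.2.1 U hU U' hU' fun h => hne (by rw [h]))
  · rw [← hπ.2.2]
    ext s
    simp only [mem_biUnion, mem_image, id, mem_img]
    constructor
    · rintro ⟨_, ⟨U, hU, rfl⟩, hs⟩
      exact ⟨U, hU, mem_img.1 hs⟩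
    · rintro ⟨U, hU, hs⟩
      exact ⟨_, ⟨U, hU, rfl⟩, mem_img.2 hs⟩

theorem Part.finite (η : V → ℤ) (S : Finset (Vx V)) : {π | Part η S π}.Finite := by
  refine (S.powerset.powerset).finite_toSet.subset fun π hπ => ?_
  simp only [coe_powerset, Set.mem_preimage, Set.mem_powerset_iff]
  intro B hB
  exact Part.subset hπ hB

theorem kap_img (g : Gf V) : kap a (π.image (img g)) = kap a π := by
  unfold kap
  rw [sum_image fun _ _ _ _ h => img_inj g h]
  refine sum_congr rfl fun B _ => ?_
  rw [← image_erase (img_inj g), sum_image fun _ _ _ _ h => img_inj g h]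
  exact sum_congr rfl fun B' _ => aS_img g g

theorem act_sh (g : Gf V) (π : Finset (Finset (Vx V))) (f : R V) :
    sh (π.image (img g)) (act g f) =
      rename (img g) (MvPolynomial.map (act g).toRingHom (sh π f)) := by
  induction f using MvPolynomial.induction_on with
  | C c =>
    have : act g (C c : R V) = C c := by unfold act; exact rename_C _ _
    rw [this, shift_sh_C, shift_sh_C, map_C, rename_C]
    exact congrArg _ this.symm
  | add p q hp hq => simp only [map_add, hp, hq]
  | mul_X p s hp =>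
    simp only [map_mul]
    rw [hp, act_X, shift_sh_X, shift_sh_X]
    simp only [map_add, map_sum, map_C, rename_C, map_X, rename_X]
    have h1 : (act g).toRingHom (X s : R V) = X (g.1 s) := act_X g s
    rw [h1, filter_image, sum_image fun _ _ _ _ h => img_inj g h]
    have h2 : (π.filter fun U => g.1 s ∈ img g U) = π.filter fun U => s ∈ U := by
      refine filter_congr fun U _ => ?_
      rw [mem_img]
      simp
    rw [h2]

theorem shift_image_img_inv (g : Gf V) (π : Finset (Finset (Vx V))) :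
    (π.image (img g⁻¹)).image (img g) = π := by
  rw [image_image]
  conv_rhs => rw [← image_id (s := π)]
  refine image_congr fun U _ => ?_
  simp only [Function.comp, id]
  rw [← img_mul, mul_inv_cancel, img_one]

theorem shift_img_inv_img (g : Gf V) (S : Finset (Vx V)) : img g⁻¹ (img g S) = S := by
  rw [← img_mul, inv_mul_cancel, img_one]

theorem shift_coeff_act_sh (g : Gf V) (π : Finset (Finset (Vx V))) (f : R V)
    (m : Finset (Vx V) →₀ ℕ) :
    coeff m (sh π (act g f)) =
      act g (coeff (m.mapDomain (img g⁻¹)) (sh (π.image (img g⁻¹)) f)) := by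
  have h1 : m = (m.mapDomain (img g⁻¹)).mapDomain (img g) := by
    rw [← Finsupp.mapDomain_comp]
    have : img g ∘ img g⁻¹ = id := by
      funext U
      simp only [Function.comp, id]
      rw [← img_mul, mul_inv_cancel, img_one]
    rw [this, Finsupp.mapDomain_id]
  conv_lhs => rw [← shift_image_img_inv g π, act_sh, h1, coeff_rename_mapDomain _ (img_inj g),
    coeff_map]
  rfl

theorem shift_lev_img (g : Gf V) (D : ℕ) : lev a M (π.image (img g)) D = lev a M π D := by
  unfold lev
  rw [kap_img, card_image_of_injective _ (img_inj g)]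

theorem act_FL (g : Gf V) (hf : f ∈ FL a η M S L) : act g f ∈ FL a η M (img g S) L := by
  intro π hπ m hm
  have hπ' := hπ.img g⁻¹
  rw [shift_img_inv_img] at hπ'
  rw [shift_coeff_act_sh]
  have := Ipi_act g (hf _ hπ' (m.mapDomain (img g⁻¹))
    (by rw [shift_lev_img, Finsupp.degree_mapDomain]; exact hm))
  rwa [shift_image_img_inv] at this

theorem act_FL' {g : Gf V} (hg : g ∈ GS S) (hf : f ∈ FL a η M S L) : act g f ∈ FL a η M S L := by
  have := act_FL g hf
  rwa [img_of_mem_GS hg] at this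

theorem act_W0 (g : Gf V) (hf : f ∈ W0 a η B) : act g f ∈ W0 a η (img g B) := by
  refine ⟨act_mem_RS g hf.1, fun π hπ m hm => ?_⟩
  have hπ' := hπ.img g⁻¹
  rw [shift_img_inv_img] at hπ'
  rw [shift_coeff_act_sh]
  have := Ipi_act g (hf.2 _ hπ' (m.mapDomain (img g⁻¹))
    (by rw [kap_img, card_image_of_injective _ (img_inj g⁻¹), Finsupp.degree_mapDomain]; exact hm))
  rwa [shift_image_img_inv] at this

/-- doubling the shift variables -/
def shift_scZ : MvPolynomial (Finset (Vx V)) (R V) →ₐ[R V] MvPolynomial (Finset (Vx V)) (R V) :=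
  aeval fun U => (2 : R V) • X U

theorem shift_coeff_scZ (p : MvPolynomial (Finset (Vx V)) (R V)) (m : Finset (Vx V) →₀ ℕ) :
    coeff m (shift_scZ p) = (2 : R V) ^ m.degree * coeff m p := by
  induction p using MvPolynomial.induction_on' with
  | monomial u c =>
    have h : shift_scZ (monomial u c) = (2 : R V) ^ u.degree • monomial u c := by
      unfold shift_scZ
      rw [aeval_monomial, monomial_eq]
      simp only [Finsupp.prod, smul_pow]
      rw [Finset.prod_smul, prod_pow_eq_pow_sum, Finsupp.degree_apply, mul_smul_comm]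
      rfl
    rw [h, coeff_smul, coeff_monomial]
    split_ifs with hu
    · rw [hu, smul_eq_mul]
    · simp
  | add p q hp hq => rw [map_add, coeff_add, coeff_add, hp, hq, mul_add]

theorem shift_sh_scale (π : Finset (Finset (Vx V))) (f : R V) :
    sh π (scale f) = shift_scZ (MvPolynomial.map (scale : R V →ₐ[ℚ] R V).toRingHom (sh π f)) := by
  induction f using MvPolynomial.induction_on with
  | C c =>
    have : scale (C c : R V) = C c := by unfold scale; exact aeval_C _ _
    rw [this, shift_sh_C, map_C]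
    have h2 : (scale : R V →ₐ[ℚ] R V).toRingHom (C c) = C c := this
    rw [h2]
    exact (shift_scZ.commutes (C c)).symm
  | add p q hp hq => simp only [map_add, hp, hq]
  | mul_X p s hp =>
    simp only [map_mul]
    have h0 : scale (X s : R V) = (2 : ℚ) • X s := by unfold scale; exact aeval_X _ _
    have h1 : (scale : R V →ₐ[ℚ] R V).toRingHom (X s) = (2 : ℚ) • X s := h0
    rw [hp, h0, map_smul, shift_sh_X]
    simp only [map_add, map_sum, map_C, map_X, h1]
    have h2 : shift_scZ (C ((2 : ℚ) • X s : R V)) = C ((2 : ℚ) • X s : R V) := shift_scZ.commutes _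
    have h3 : ∀ U : Finset (Vx V), shift_scZ (X U) = (2 : R V) • X U := fun U => by
      unfold shift_scZ; exact aeval_X _ _
    rw [h2]
    simp only [h3]
    congr 1
    rw [two_smul, two_smul, ← smul_sum, two_smul, map_add]
    ring

theorem scale_W0 (hf : f ∈ W0 a η B) : scale f ∈ W0 a η B := by
  refine ⟨scale_mem_RS hf.1, fun π hπ m hm => ?_⟩
  rw [shift_sh_scale, shift_coeff_scZ, coeff_map]
  exact Ideal.mul_mem_left _ _ (Ipi_scale _ (hf.2 π hπ m hm))

theorem FL_mono {L' : ℤ} (h : L ≤ L') : FL a η M S L ≤ FL a η M S L' :=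
  fun _ hf π hπ m hm => hf π hπ m (lt_of_le_of_lt h hm)

theorem exists_FL (a : V → V → ℕ) (η : V → ℤ) (M : ℕ) (S : Finset (Vx V)) (f : R V) :
    ∃ L, f ∈ FL a η M S L := by
  have hfin : (⋃ π ∈ {π | Part η S π},
      (fun m : Finset (Vx V) →₀ ℕ => lev a M π m.degree) '' ((sh π f).support : Set _)).Finite :=
    (Part.finite η S).biUnion fun π _ => (sh π f).support.finite_toSet.image _
  obtain ⟨L, hL⟩ := hfin.bddAbove
  refine ⟨L, fun π hπ m hm => ?_⟩
  by_cases h0 : coeff m (sh π f) = 0
  · rw [h0]; exact zero_mem _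
  · exfalso
    have : lev a M π m.degree ≤ L := by
      apply hL
      simp only [Set.mem_iUnion]
      exact ⟨π, hπ, m, mem_support_iff.2 h0, rfl⟩
    omega

theorem FL_neg (hM : 1 ≤ M) (hS : etaS η S = 0) (hL : L < 0) (hf : f ∈ FL a η M S L) :
    f ∈ J0 a η S := by
  rcases S.eq_empty_or_nonempty with rfl | hne
  · have hπ : Part η (∅ : Finset (Vx V)) ∅ := ⟨by simp, by simp, by simp⟩
    have := hf ∅ hπ 0 (by simpa [lev, kap] using hL)
    rw [coeff_zero_sh] at this
    exact shift_Ipi_le (π := ∅) (by simp) this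
  · have := hf {S} (Part.single hne hS) 0 (by
      simp only [lev, kap, sum_singleton, erase_singleton, sum_empty, map_zero, card_singleton]
      have : (1 : ℤ) ≤ M := by exact_mod_cast hM
      push_cast
      linarith)
    rwa [coeff_zero_sh, Ipi_singleton] at this

theorem two_ko (hs : Sym a η) {r : ℕ} {B : Fin r → Finset (Vx V)} (hB : OZ η S B) :
    2 * ko a B = kap a (univ.image B) := by
  unfold kap ko
  rw [sum_image fun _ _ _ _ h => hB.inj h]
  have h1 : ∀ j, ∑ B' ∈ (univ.image B).erase (B j), aS a (B j) B' =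
      ∑ j' ∈ ({j}ᶜ : Finset (Fin r)), aS a (B j') (B j) := by
    intro j
    rw [← image_erase hB.inj, sum_image fun _ _ _ _ h => hB.inj h, compl_singleton]
    exact sum_congr rfl fun j' _ => hs _ _ (hB.2 j).2 (hB.2 j').2
  rw [sum_congr rfl fun j _ => h1 j,
    ← sum_sum_Ioi_add_eq_sum_sum_off_diag fun i j => aS a (B i) (B j), mul_sum]
  refine sum_congr rfl fun j _ => ?_
  rw [mul_sum]
  refine sum_congr rfl fun j' _ => ?_
  rw [hs _ _ (hB.2 j').2 (hB.2 j).2, two_mul]

theorem kap_even (hs : Sym a η) (hπ : Part η S π) : Even (kap a π) := by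
  obtain ⟨r, B, hB, rfl⟩ := hπ.exists_OZ
  rw [← two_ko hs hB]
  exact even_two_mul _

theorem lev_inj (hM : 1 ≤ M) {D D' : ℕ} (h : lev a M π D = lev a M π D') : D = D' := by
  unfold lev at h
  have h1 : (M : ℤ) * (2 * (D : ℤ) - kap a π) = (M : ℤ) * (2 * (D' : ℤ) - kap a π) := by linarith
  have h2 : (M : ℤ) ≠ 0 := by omega
  have := mul_left_cancel₀ h2 h1
  omega

theorem sy_add (D : ℕ) (f f' : R V) : sy a η π D (f + f') = sy a η π D f + sy a η π D f' := by
  unfold sy
  rw [map_add, map_add, map_add]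

theorem coeff_sy (D : ℕ) (f : R V) (m : Finset (Vx V) →₀ ℕ) : coeff m (sy a η π D f) =
    if m.degree = D then Ideal.Quotient.mk _ (coeff m (sh π f)) else 0 := by
  unfold sy
  rw [coeff_homogeneousComponent, coeff_map]

theorem sy_smul (D : ℕ) (c : ℚ) (f : R V) : sy a η π D (c • f) = c • sy a η π D f := by
  ext m
  rw [coeff_smul, coeff_sy, coeff_sy, map_smul, coeff_smul]
  split_ifs
  · rfl
  · rw [smul_zero]

theorem FL_of_sy (hf : f ∈ FL a η M S L)
    (h : ∀ π D, Part η S π → lev a M π D = L → sy a η π D f = 0) :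
    f ∈ FL a η M S (L - 1) := by
  intro π hπ m hm
  rcases lt_or_eq_of_le (show L ≤ lev a M π m.degree by omega) with h1 | h1
  · exact hf π hπ m h1
  · have h2 := congrArg (coeff m) (h π m.degree hπ h1.symm)
    rw [coeff_sy, if_pos rfl, coeff_zero] at h2
    exact Ideal.Quotient.eq_zero_iff_mem.1 h2

theorem sy_of_FL (hf : f ∈ FL a η M S (L - 1)) (hπ : Part η S π) {D : ℕ}
    (hD : lev a M π D = L) : sy a η π D f = 0 := by
  ext m
  rw [coeff_sy, coeff_zero]
  split_ifs with h
  · refine Ideal.Quotient.eq_zero_iff_mem.2 (hf π hπ m ?_)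
    rw [h, hD]
    omega
  · rfl

end
end Vale.Agent.P066.A
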