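import Vale.Agent.P066.A.Shift

/-!
P066 part A, file TT (TASK A10): an element that is primitive in every tensor factor is a sum of
products of primitive elements.
Induction on `π` (generalising `S`, `x`).  Let `π = insert B π0`, `S = B ∪ S0`, `I0 = Ipi π0`.
(1) Choose a basis `c_l` of `RS S0` modulo `I0` (`exists_bas`), write `x ≡ ∑ x_l c_l` modulo `I0`,
`x_l ∈ RS B` (`span_prod_union`).  Apply `sh ρ` (`sh_of_RC`: it is linear over `RC B` and keeps
`I0`-coefficients), take a coefficient and apply the contraction (`exists_contr S0`) with the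
functional dual to `c_l`: each `x_l ∈ W0 B`.
(2) Choose a basis `w_n` of `W0 B` modulo `J0 B`, rewrite `x ≡ ∑ w_n y_n` modulo `Ipi π`,
`y_n ∈ RS S0`; the contraction along `B` with the functional dual to `w_n` shows that each `y_n`
satisfies the hypothesis for `π0`.  Apply the induction hypothesis.
-/

namespace Vale.Agent.P066.A
open MvPolynomial Finset
noncomputable section

variable {V : Type} [DecidableEq V] {a : V → V → ℕ} {η : V → ℤ}

omit [DecidableEq V] in
theorem tt_decomp {I : Type} {T W : Submodule ℚ (R V)} {J : Ideal (R V)} {b : I → R V}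
    (hb : ∀ w ∈ W, ∃ c : I →₀ ℚ, w - Finsupp.linearCombination ℚ b c ∈ J) {x : R V}
    (hx : x ∈ Submodule.span ℚ {y | ∃ f ∈ T, ∃ h ∈ W, y = f * h}) :
    ∃ Y : I →₀ R V, (∀ l, Y l ∈ T) ∧ x - Finsupp.linearCombination (R V) b Y ∈ J := by
  induction hx using Submodule.span_induction with
  | mem y hy =>
    obtain ⟨f, hf, h, hh, rfl⟩ := hy
    obtain ⟨c, hc⟩ := hb h hh
    refine ⟨c.mapRange (fun t => t • f) (zero_smul _ _), fun l => T.smul_mem _ hf, ?_⟩
    have e : Finsupp.linearCombination (R V) b (c.mapRange (fun t => t • f) (zero_smul _ _)) =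
        f * Finsupp.linearCombination ℚ b c := by
      rw [Finsupp.linearCombination_apply, Finsupp.linearCombination_apply,
        Finsupp.sum_mapRange_index (by simp), Finsupp.mul_sum]
      exact Finsupp.sum_congr fun l _ => by rw [smul_eq_mul, smul_mul_assoc, mul_smul_comm]
    rw [e, ← mul_sub]
    exact J.mul_mem_left _ hc
  | zero => exact ⟨0, fun _ => zero_mem _, by simp⟩
  | add x y _ _ hx hy =>
    obtain ⟨Y, h1, h2⟩ := hx
    obtain ⟨Y', h1', h2'⟩ := hy
    exact ⟨Y + Y', fun l => add_mem (h1 l) (h1' l), by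
      rw [map_add, add_sub_add_comm]; exact add_mem h2 h2'⟩
  | smul c x _ hx =>
    obtain ⟨Y, h1, h2⟩ := hx
    refine ⟨(C c : R V) • Y, fun l => ?_, ?_⟩
    · rw [Finsupp.smul_apply, smul_eq_mul, C_mul']; exact T.smul_mem _ (h1 l)
    · rw [map_smul, smul_eq_mul, ← C_mul', ← mul_sub]; exact J.mul_mem_left _ h2

theorem tt_keep {A : Finset (Vx V)} {ρ : Finset (Finset (Vx V))} (hρ : ∀ U ∈ ρ, U ⊆ A)
    {J : Ideal (R V)} (hJ : GenIn (RC A) J) {z : R V} (hz : z ∈ J) (m : Finset (Vx V) →₀ ℕ) :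
    coeff m (sh ρ z) ∈ J := by
  obtain ⟨G, rfl, hG⟩ := hJ
  refine Submodule.mem_comap.1 (ideal_span_le (W := Submodule.comap
    (((lcoeff (R V) m).restrictScalars ℚ).comp (sh ρ).toLinearMap)
    ((Ideal.span G).restrictScalars ℚ)) (fun g hg r => ?_) hz)
  change coeff m (sh ρ (r * g)) ∈ Ideal.span G
  rw [map_mul, sh_of_RC (hG g hg) hρ, mul_comm, coeff_C_mul]
  exact Ideal.mul_mem_right _ _ (Ideal.subset_span hg)

theorem tt_extract {I : Type} {A A' : Finset (Vx V)} (hd : Disjoint A A') {b : I → R V}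
    (hb : ∀ l, b l ∈ RS A) {J K : Ideal (R V)} (hi : IndMod J b) (hJ : GenIn (RS A) J)
    (hK : GenIn (RC A) K) {Y : I →₀ R V} (hY : ∀ l, Y l ∈ RS A')
    {ρ : Finset (Finset (Vx V))} (hρ : ∀ U ∈ ρ, U ⊆ A') {m : Finset (Vx V) →₀ ℕ}
    (h : coeff m (sh ρ (Finsupp.linearCombination (R V) b Y)) ∈ J ⊔ K) (l : I) :
    coeff m (sh ρ (Y l)) ∈ K := by
  classical
  obtain ⟨φ, h1, h2⟩ := hi.exists_dual l
  obtain ⟨Φ, k1, k2, k3⟩ := exists_contr A φ
  obtain ⟨u, hu, v, hv, e⟩ := Submodule.mem_sup.1 h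
  have h3 := congrArg Φ e
  rw [map_add, k2 J hJ h1 u hu, zero_add, Finsupp.linearCombination_apply, Finsupp.sum, map_sum,
    coeff_sum, map_sum, sum_eq_single l] at h3
  · rw [smul_eq_mul, map_mul, sh_of_RC (RS_le_RC hd (hb l)) hρ, mul_comm, coeff_C_mul,
      k1 _ (hb l) _ (RS_le_RC hd.symm (coeff_sh_RS (hY l) ρ m)), h2, if_pos rfl, one_smul] at h3
    exact h3 ▸ k3 K hK v hv
  · intro l' _ hl
    rw [smul_eq_mul, map_mul, sh_of_RC (RS_le_RC hd (hb l')) hρ, mul_comm, coeff_C_mul,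
      k1 _ (hb l') _ (RS_le_RC hd.symm (coeff_sh_RS (hY l') ρ m)), h2, if_neg hl, zero_smul]
  · intro hl
    simp [Finsupp.notMem_support_iff.1 hl]

theorem tt_insert (B : Finset (Vx V)) (π : Finset (Finset (Vx V))) :
    Ipi a η (insert B π) = J0 a η B ⊔ Ipi a η π := by
  rw [insert_eq, Ipi_union, Ipi_singleton]

theorem tensor_W0 {S : Finset (Vx V)} {π : Finset (Finset (Vx V))} (hπ : Part η S π) {x : R V}
    (hx : x ∈ RS S)
    (h : ∀ B ∈ π, ∀ ρ, Part η B ρ → ∀ m : Finset (Vx V) →₀ ℕ,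
      (kap a ρ : ℤ) - 2 * ρ.card + 2 < 2 * m.degree →
      coeff m (sh ρ x) ∈ Ipi a η (π.erase B) ⊔ Ipi a η ρ) :
    ∃ y ∈ Submodule.span ℚ {y | ∃ w : Finset (Vx V) → R V, (∀ B ∈ π, w B ∈ W0 a η B) ∧
      y = ∏ B ∈ π, w B}, x - y ∈ Ipi a η π := by
  suffices x ∈ Submodule.span ℚ {y | ∃ w : Finset (Vx V) → R V, (∀ B ∈ π, w B ∈ W0 a η B) ∧
      y = ∏ B ∈ π, w B} ⊔ (Ipi a η π).restrictScalars ℚ by
    obtain ⟨y, hy, z, hz, rfl⟩ := Submodule.mem_sup.1 this
    exact ⟨y, hy, by rwa [add_sub_cancel_left]⟩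
  induction π using Finset.induction_on generalizing S x with
  | empty =>
    rw [← hπ.2.2, biUnion_empty, RS, coe_empty, supported_empty, Algebra.mem_bot] at hx
    obtain ⟨c, rfl⟩ := hx
    rw [Algebra.algebraMap_eq_smul_one]
    exact Submodule.mem_sup_left (Submodule.smul_mem _ _
      (Submodule.subset_span ⟨1, by simp, by simp⟩))
  | insert B π hB ih =>
    have hπ0 : Part η (π.biUnion id) π := ⟨fun U hU => hπ.1 U (mem_insert_of_mem hU),
      fun U hU U' hU' => hπ.2.1 U (mem_insert_of_mem hU) U' (mem_insert_of_mem hU'), rfl⟩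
    have hdB : ∀ U ∈ π, Disjoint B U := fun U hU =>
      hπ.2.1 B (mem_insert_self _ _) U (mem_insert_of_mem hU) fun e => hB (e ▸ hU)
    have hd : Disjoint B (π.biUnion id) := (disjoint_biUnion_right _ _ _).2 hdB
    rw [← hπ.2.2, biUnion_insert, id] at hx
    have hI0 : GenIn (RS (π.biUnion id)) (Ipi a η π) := Ipi_gen fun U hU => hπ0.subset hU
    obtain ⟨I, c, hc1, hc2, hc3⟩ := exists_bas (RS (π.biUnion id)).toSubmodule (Ipi a η π)
    obtain ⟨Y, hY1, hY2⟩ := tt_decomp (T := (RS B).toSubmodule) hc3 (span_prod_union hx)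
    have hY3 : ∀ l, Y l ∈ W0 a η B := fun l => ⟨hY1 l, fun ρ hρ m hm => by
      have hρ' : ∀ U ∈ ρ, U ⊆ B := fun U hU => hρ.subset hU
      refine tt_extract hd.symm hc1 hc2 hI0 ((Ipi_gen hρ').mono (RS_le_RC hd)) hY1 hρ' ?_ l
      have h1 := h B (mem_insert_self _ _) ρ hρ m hm
      rw [erase_insert hB] at h1
      have h2 := sub_mem h1
        (Submodule.mem_sup_left (tt_keep hρ' (hI0.mono (RS_le_RC hd.symm)) hY2 m))
      rwa [← coeff_sub, ← map_sub, sub_sub_cancel] at h2⟩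
    obtain ⟨I', w, hw1, hw2, hw3⟩ := exists_bas (W0 a η B) (J0 a η B)
    obtain ⟨Z, hZ1, hZ2⟩ := tt_decomp (T := (RS (π.biUnion id)).toSubmodule) hw3
      (x := Finsupp.linearCombination (R V) c Y) (sum_mem fun l _ =>
        Submodule.subset_span ⟨c l, hc1 l, Y l, hY3 l, mul_comm _ _⟩)
    have hxZ : x - Finsupp.linearCombination (R V) w Z ∈ J0 a η B ⊔ Ipi a η π := by
      rw [← sub_add_sub_cancel x (Finsupp.linearCombination (R V) c Y)]
      exact add_mem (Submodule.mem_sup_right hY2) (Submodule.mem_sup_left hZ2)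
    have hZ3 := fun n => ih hπ0 (hZ1 n) fun B' hB' ρ hρ m hm => by
      have hρ' : ∀ U ∈ ρ, U ⊆ B' := fun U hU => hρ.subset hU
      have hρ'' : ∀ U ∈ ρ, U ⊆ π.biUnion id := fun U hU => (hρ' U hU).trans (hπ0.subset hB')
      refine tt_extract hd (fun l => (hw1 l).1) hw2 J0_gen
        (((Ipi_gen fun U hU => hπ0.subset (mem_of_mem_erase hU)).sup (Ipi_gen hρ'')).mono
          (RS_le_RC hd.symm)) hZ1 hρ'' ?_ n
      have h1 := h B' (mem_insert_of_mem hB') ρ hρ m hm
      rw [erase_insert_of_ne (a := B) (b := B') fun e => hB (e ▸ hB'), tt_insert] at h1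
      have h2 : coeff m (sh ρ (x - Finsupp.linearCombination (R V) w Z)) ∈
          J0 a η B ⊔ Ipi a η (π.erase B') ⊔ Ipi a η ρ := by
        have h3 := hxZ
        rw [← insert_erase hB', tt_insert, sup_comm (J0 a η B'), ← sup_assoc] at h3
        obtain ⟨u, hu, v, hv, e⟩ := Submodule.mem_sup.1 h3
        rw [← e, map_add, coeff_add]
        refine add_mem (Submodule.mem_sup_left (tt_keep hρ'
          ((J0_gen.mono (RS_le_RC (hdB B' hB'))).sup ?_) hu m))
          (Submodule.mem_sup_right (coeff_sh_of_mem hρ (J0_le_Ipi_part hρ hv) m))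
        refine (Ipi_gen (A := (π.erase B').biUnion id) fun U hU =>
          subset_biUnion_of_mem id hU).mono (RS_le_RC ((disjoint_biUnion_left _ _ _).2
            fun U hU => hπ0.2.1 U (mem_of_mem_erase hU) B' hB' (ne_of_mem_erase hU)))
      have h4 := sub_mem h1 h2
      rwa [← coeff_sub, ← map_sub, sub_sub_cancel, sup_assoc] at h4
    rw [← sub_add_cancel x (Finsupp.linearCombination (R V) w Z)]
    refine add_mem (Submodule.mem_sup_right (by rwa [tt_insert])) (sum_mem fun n _ => ?_)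
    obtain ⟨u, hu, v, hv, e⟩ := Submodule.mem_sup.1 (hZ3 n)
    change Z n * w n ∈ _
    rw [← e, add_mul]
    refine add_mem (Submodule.mem_sup_left ?_) (Submodule.mem_sup_right (by
      rw [tt_insert]; exact Submodule.mem_sup_right (Ideal.mul_mem_right _ _ hv)))
    refine Submodule.mem_comap.1
      (Submodule.span_le (p := Submodule.comap (LinearMap.mulRight ℚ (w n)) _) |>.2 ?_ hu)
    rintro _ ⟨w', hw', rfl⟩
    refine Submodule.subset_span ⟨Function.update w' B (w n), fun U hU => ?_, ?_⟩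
    · rcases mem_insert.1 hU with rfl | hU
      · rw [Function.update_self]; exact hw1 n
      · rw [Function.update_of_ne (ne_of_mem_of_not_mem hU hB)]; exact hw' U hU
    · rw [prod_insert hB, Function.update_self, prod_update_of_notMem hB, mul_comm]
      rfl

end
end Vale.Agent.P066.A
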