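import Vale.Agent.P066.A.UB
import Vale.Agent.P066.A.Div
import Vale.Agent.P066.A.TT

/-!
P066 part A, file Top (TASK A11): the symbol of an element of the filtration.
* `span_of_dvd` (pure algebra): choose a basis `μ_l` of the subspace `M'` with dual functionals
  `ψ_l` on `Q`; apply `ψ_l` coefficientwise: `T = ∑ l, map (T_l) * C μ_l` with `T_l` rational
  polynomials, homogeneous of degree `D`, in the variables of `π`, each divisible by every `p n`
  (coefficientwise `ψ_l` commutes with multiplication by rational polynomials); in the UFD of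
  rational polynomials the product divides (`Finset.prod_dvd_of_isRelPrime`); the quotient may be
  replaced by its homogeneous component and its variables restricted to `π`; expand in monomials.
* `sy_mem_span`: coefficients of the symbol lie in `M' = span of mk (∏ w)` by `coeff_refine` and
  `tensor_W0`; divisibility from `sy_dvd`; the powers of the distinct linear forms
  `X (B j) - X (B j')`, `j < j'`, are pairwise relatively prime (each is prime, not associated).
* `step`: for every `Part π` having a degree `D` with `lev π D = L` (unique, `lev_inj`) pick an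
  ordering (`Part.exists_OZ`) and a combination of `gel`s with the same symbol (`gel_sy`, the scalar
  is nonzero); sum over the finitely many `π`; use `gel_FL`, `gel_sy_other`, `FL_of_sy`.
-/

namespace Vale.Agent.P066.A
open MvPolynomial Finset
noncomputable section

theorem top_quot {σ : Type} [DecidableEq σ] {π : Finset σ} {D e : ℕ} {P U : MvPolynomial σ ℚ}
    (hP : ∀ i, coeff i P ≠ 0 → i.support ⊆ π ∧ i.degree = e)
    (hT : ∀ k, coeff k (P * U) ≠ 0 → k.support ⊆ π ∧ k.degree = D) :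
    P * U = ∑ m ∈ U.support.filter (fun m => m.support ⊆ π ∧ e + m.degree = D),
      coeff m U • (P * monomial m 1) := by
  have h1 : ∀ j, coeff j (∑ m ∈ U.support.filter (fun m => m.support ⊆ π ∧ e + m.degree = D),
      coeff m U • monomial m (1 : ℚ)) =
      if j.support ⊆ π ∧ e + j.degree = D then coeff j U else 0 := fun j => by
    simp only [coeff_sum, coeff_smul, coeff_monomial, smul_eq_mul, mul_ite, mul_one, mul_zero,
      sum_ite_eq', mem_filter, mem_support_iff]
    by_cases h : coeff j U = 0 <;> simp [h]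
  simp only [← mul_smul_comm, ← mul_sum]
  ext k
  by_cases hk : k.support ⊆ π ∧ k.degree = D
  · rw [coeff_mul, coeff_mul]
    refine sum_congr rfl fun x hx => ?_
    by_cases h : coeff x.1 P = 0
    · rw [h, zero_mul, zero_mul]
    have e1 := mem_antidiagonal.1 hx
    rw [h1, if_pos ⟨(Finsupp.support_mono (e1 ▸ le_add_self)).trans hk.1,
      by rw [← (hP _ h).2, ← map_add, e1, hk.2]⟩]
  · rw [not_not.1 fun h => hk (hT k h), coeff_mul]
    refine (sum_eq_zero fun x hx => ?_).symm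
    by_cases h : coeff x.1 P = 0
    · rw [h, zero_mul]
    have e1 := mem_antidiagonal.1 hx
    rw [h1, if_neg, mul_zero]
    refine fun h2 => hk ⟨?_, by rw [← e1, map_add, (hP _ h).2, h2.2]⟩
    rw [← e1]
    exact Finsupp.support_add.trans (union_subset (hP _ h).1 h2.1)

theorem top_coef {σ Q : Type} [CommRing Q] [Algebra ℚ Q] (ψ : Q →ₗ[ℚ] ℚ) (T : MvPolynomial σ Q) :
    ∃ T' : MvPolynomial σ ℚ, (∀ m, coeff m T' = ψ (coeff m T)) ∧
      ∀ p : MvPolynomial σ ℚ, MvPolynomial.map (algebraMap ℚ Q) p ∣ T → p ∣ T' := by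
  classical
  have h : ∀ T : MvPolynomial σ Q, ∃ T' : MvPolynomial σ ℚ, ∀ m, coeff m T' = ψ (coeff m T) :=
    fun T => ⟨∑ m ∈ T.support, monomial m (ψ (coeff m T)), fun m => by
      simp only [coeff_sum, coeff_monomial, sum_ite_eq', mem_support_iff]
      by_cases h : coeff m T = 0 <;> simp [h]⟩
  obtain ⟨T', hT⟩ := h T
  refine ⟨T', hT, ?_⟩
  rintro p ⟨U, rfl⟩
  obtain ⟨U', hU⟩ := h U
  refine ⟨U', MvPolynomial.ext _ _ fun m => ?_⟩
  rw [hT, coeff_mul, coeff_mul, map_sum]
  exact sum_congr rfl fun x _ => by rw [coeff_map, ← Algebra.smul_def, map_smul, hU, smul_eq_mul]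

theorem top_relPrime {σ : Type} {u v u' v' : σ} (h : u ≠ v) (h' : u' ≠ v')
    (hne : u' ≠ u ∧ u' ≠ v ∨ v' ≠ u ∧ v' ≠ v) :
    IsRelPrime (X u - X v : MvPolynomial σ ℚ) (X u' - X v') := by
  classical
  have h1 : Irreducible (X u - X v : MvPolynomial σ ℚ) := by
    have := irreducible_mul_X_add (1 : MvPolynomial σ ℚ) (-X v) u one_ne_zero (by simp)
      (by simpa using h) isRelPrime_one_left
    rwa [one_mul, ← sub_eq_add_neg] at this
  rw [h1.isRelPrime_iff_not_dvd]
  intro hd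
  rcases hne with k | k
  · simpa [k.1.symm, k.2.symm, h'.symm] using
      map_dvd (eval fun s => if s = u' then (1 : ℚ) else 0) hd
  · simpa [k.1.symm, k.2.symm, h'] using
      map_dvd (eval fun s => if s = v' then (1 : ℚ) else 0) hd

theorem top_C {σ Q : Type} [CommRing Q] [Algebra ℚ Q] {G : Set Q} {P : MvPolynomial σ Q}
    {W : Submodule ℚ (MvPolynomial σ Q)} (h : ∀ g ∈ G, P * C g ∈ W) {μ : Q}
    (hμ : μ ∈ Submodule.span ℚ G) : P * C μ ∈ W :=
  Submodule.span_le (p := W.comap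
    ((LinearMap.mulLeft ℚ P).comp (IsScalarTower.toAlgHom ℚ Q _).toLinearMap)) |>.2 h hμ

theorem span_of_dvd {σ ι Q : Type} [DecidableEq σ] [CommRing Q] [Algebra ℚ Q] (π : Finset σ)
    (M' : Submodule ℚ Q) (T : MvPolynomial σ Q) (D e : ℕ) (hT : T.IsHomogeneous D)
    (hc : ∀ m, coeff m T ∈ M') (hv : ∀ m, coeff m T ≠ 0 → m.support ⊆ π)
    (s : Finset ι) (p : ι → MvPolynomial σ ℚ)
    (hp : (s : Set ι).Pairwise fun n n' => IsRelPrime (p n) (p n'))
    (hd : ∀ n ∈ s, MvPolynomial.map (algebraMap ℚ Q) (p n) ∣ T)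
    (he : (∏ n ∈ s, p n).IsHomogeneous e) (h0 : ∏ n ∈ s, p n ≠ 0)
    (hpv : ∀ n ∈ s, p n ∈ supported ℚ (π : Set σ)) :
    T ∈ Submodule.span ℚ {y | ∃ (m : σ →₀ ℕ) (μ : Q), μ ∈ M' ∧ m.support ⊆ π ∧ e + m.degree = D ∧
      y = MvPolynomial.map (algebraMap ℚ Q) ((∏ n ∈ s, p n) * monomial m 1) * C μ} := by
  let N : Submodule ℚ Q := Submodule.span ℚ (T.coeffs : Set Q)
  have hN : N ≤ M' := Submodule.span_le.2 fun x hx => by
    obtain ⟨m, -, rfl⟩ := mem_coeffs_iff.1 hx
    exact hc m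
  have hm : ∀ m, coeff m T ∈ N := fun m => by
    by_cases h : coeff m T = 0
    · rw [h]; exact zero_mem _
    · exact Submodule.subset_span (coeff_mem_coeffs m h)
  have : FiniteDimensional ℚ N := FiniteDimensional.span_finset ℚ _
  let b := Module.finBasis ℚ N
  choose ψ hψ using fun l => LinearMap.exists_extend (b.coord l)
  choose T' h1 h2 using fun l => top_coef (ψ l) T
  have e1 : T = ∑ l, MvPolynomial.map (algebraMap ℚ Q) (T' l) * C (b l : Q) := by
    ext m
    rw [coeff_sum]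
    refine (congrArg Subtype.val (b.sum_repr ⟨_, hm m⟩)).symm.trans ?_
    rw [Submodule.coe_sum]
    refine sum_congr rfl fun l _ => ?_
    rw [mul_comm, coeff_C_mul, coeff_map, h1, mul_comm, ← Algebra.smul_def, Submodule.coe_smul]
    exact congrArg (· • _) (LinearMap.congr_fun (hψ l) ⟨_, hm m⟩).symm
  rw [e1]
  refine sum_mem fun l _ => ?_
  obtain ⟨U, hU⟩ := Finset.prod_dvd_of_isRelPrime hp fun n hn => h2 l _ (hd n hn)
  rw [hU, top_quot (π := π) (D := D) (e := e) (fun i hi => ⟨fun v hv => ?_, ?_⟩) fun k hk => ?_,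
    map_sum, sum_mul]
  · refine sum_mem fun m hm => ?_
    rw [smul_eq_C_mul, map_mul, map_C, mul_assoc, C_mul', algebraMap_smul]
    exact Submodule.smul_mem _ _ (Submodule.subset_span
      ⟨m, b l, hN (b l).2, (mem_filter.1 hm).2.1, (mem_filter.1 hm).2.2, rfl⟩)
  · exact mem_supported.1 (prod_mem hpv)
      ((mem_vars_iff_mem_support v).2 ⟨i, mem_support_iff.2 hi, hv⟩)
  · rw [Finsupp.degree_eq_weight_one]; exact he hi
  · have h3 : coeff k T ≠ 0 := fun h => hk (by rw [← hU, h1, h, map_zero])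
    exact ⟨hv k h3, by rw [Finsupp.degree_eq_weight_one]; exact hT h3⟩

variable {V : Type} [DecidableEq V] {a : V → V → ℕ} {η : V → ℤ} {M : ℕ} {L : ℤ}
  {S : Finset (Vx V)} {f : R V}

theorem sy_mem_span (hs : Sym a η) (hM : S.card < M) (hf : f ∈ FL a η M S L) (hS : f ∈ RS S)
    {r : ℕ} {B : Fin r → Finset (Vx V)} (hB : OZ η S B) {D : ℕ}
    (hD : lev a M (univ.image B) D = L) :
    sy a η (univ.image B) D f ∈ Submodule.span ℚ {y | ∃ (i : Fin r → ℕ) (w : Fin r → R V),
      (∀ j, w j ∈ W0 a η (B j)) ∧ ko a B + ∑ j, i j = D ∧ y = tsy a η B i w} := by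
  have hπ := hB.part
  have hinj : Set.InjOn B (univ : Finset (Fin r)) := hB.inj.injOn
  have hmem : ∀ j, B j ∈ univ.image B := fun j => mem_image_of_mem _ (mem_univ j)
  have hK : Kt a B = ∏ n ∈ univ.sigma fun j : Fin r => Ioi j,
      (X (B n.1) - X (B n.2)) ^ aS a (B n.1) (B n.2) := prod_sigma' _ _ _
  have hlt : ∀ n ∈ univ.sigma fun j : Fin r => Ioi j, n.1 < n.2 := fun n hn =>
    mem_Ioi.1 (mem_sigma.1 hn).2
  have hne : ∀ n ∈ univ.sigma fun j : Fin r => Ioi j, B n.1 ≠ B n.2 := fun n hn =>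
    hB.inj.ne (hlt n hn).ne
  have key := span_of_dvd (univ.image B) (Submodule.span ℚ {μ | ∃ w : Fin r → R V,
      (∀ j, w j ∈ W0 a η (B j)) ∧ μ = Ideal.Quotient.mk (Ipi a η (univ.image B)) (∏ j, w j)})
    (sy a η (univ.image B) D f) D (ko a B) (homogeneousComponent_isHomogeneous _ _)
    (fun m => ?_) (fun m hm => ?_) (univ.sigma fun j : Fin r => Ioi j)
    (fun n => (X (B n.1) - X (B n.2)) ^ aS a (B n.1) (B n.2)) (fun n hn n' hn' hnn => ?_)
    (fun n hn => ?_) ?_ ?_ fun n _ => ?_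
  · refine Submodule.span_le.2 ?_ key
    rintro _ ⟨m, μ, hμ, hm, hd, rfl⟩
    refine top_C ?_ hμ
    rintro _ ⟨w, hw, rfl⟩
    refine Submodule.subset_span ⟨fun j => m (B j), w, hw, ?_, ?_⟩
    · rw [← hd, Finsupp.degree_apply, sum_subset hm fun _ _ => Finsupp.notMem_support_iff.1,
        sum_image hinj]
    · rw [tsy, hK, monomial_eq, C_1, one_mul,
        Finsupp.prod_of_support_subset _ hm _ fun _ _ => pow_zero _, prod_image hinj]
  · rw [coeff_sy]
    split_ifs with hm
    · obtain ⟨y, hy, hx⟩ := tensor_W0 hπ (coeff_sh_RS hS _ m)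
        fun U hU ρ hρ m' hm' => coeff_refine hs hM hf hπ hD hm hU hρ m' hm'
      rw [Ideal.Quotient.eq.2 hx]
      refine Submodule.mem_comap.1 (Submodule.span_le (p := Submodule.comap
        (Ideal.Quotient.mkₐ ℚ _).toLinearMap _) |>.2 ?_ hy)
      rintro _ ⟨w, hw, rfl⟩
      exact Submodule.subset_span ⟨fun j => w (B j), fun j => hw _ (hmem j),
        by rw [prod_image hinj]; rfl⟩
    · exact zero_mem _
  · refine coeff_sh_supp (f := f) fun h => hm ?_
    rw [coeff_sy, h, map_zero, ite_self]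
  · refine (top_relPrime (hne n hn) (hne n' hn') ?_).pow
    have h1 := hlt n hn
    have h2 := hlt n' hn'
    simp only [ne_eq, hB.inj.eq_iff]
    obtain ⟨j, k⟩ := n
    obtain ⟨j', k'⟩ := n'
    have h3 : ¬ (j = j' ∧ k = k') := by rintro ⟨rfl, rfl⟩; exact hnn rfl
    dsimp only at h1 h2 ⊢
    omega
  · simpa using sy_dvd hs (by omega) hf hπ hD (hmem n.1) (hmem n.2) (hne n hn)
  · rw [ko, sum_sigma']
    exact IsHomogeneous.prod _ _ _ fun n _ => by
      simpa using ((isHomogeneous_X ℚ (B n.1)).sub (isHomogeneous_X ℚ (B n.2))).pow _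
  · exact prod_ne_zero_iff.2 fun n hn =>
      pow_ne_zero _ (sub_ne_zero.2 (X_injective.ne (hne n hn)))
  · exact pow_mem (sub_mem (X_mem_supported.2 (hmem _)) (X_mem_supported.2 (hmem _))) _

theorem step (hs : Sym a η) (hM : S.card < M) (hf : f ∈ FL a η M S L) (hS : f ∈ RS S) :
    ∃ x ∈ Submodule.span ℚ {y | ∃ (r : ℕ) (B : Fin r → Finset (Vx V)) (i : Fin r → ℕ)
      (w : Fin r → R V), OZ η S B ∧ (∀ j, w j ∈ W0 a η (B j)) ∧ glev a M B i = L ∧
      y = gel a B i w}, f - x ∈ FL a η M S (L - 1) := by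
  let sl : ∀ (π : Finset (Finset (Vx V))) (D : ℕ),
      R V →ₗ[ℚ] MvPolynomial (Finset (Vx V)) (R V ⧸ Ipi a η π) := fun π D =>
    { toFun := sy a η π D, map_add' := sy_add D, map_smul' := sy_smul D }
  let Y : Finset (Finset (Vx V)) → Set (R V) := fun π => {y | ∃ (r : ℕ)
    (B : Fin r → Finset (Vx V)) (i : Fin r → ℕ) (w : Fin r → R V), OZ η S B ∧
      (∀ j, w j ∈ W0 a η (B j)) ∧ glev a M B i = L ∧ y = gel a B i w ∧ univ.image B = π}
  have h1 : ∀ π, ∃ x ∈ Submodule.span ℚ (Y π), Part η S π → ∀ D, lev a M π D = L →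
      sl π D x = sl π D f := by
    intro π
    by_cases h : Part η S π ∧ ∃ D, lev a M π D = L
    swap
    · exact ⟨0, zero_mem _, fun hπ D hD => absurd ⟨hπ, D, hD⟩ h⟩
    obtain ⟨hπ, D, hD⟩ := h
    obtain ⟨r, B, hB, rfl⟩ := hπ.exists_OZ
    have h2 : sl (univ.image B) D f ∈
        (Submodule.span ℚ (Y (univ.image B))).map (sl (univ.image B) D) := by
      refine Submodule.span_le.2 ?_ (sy_mem_span hs hM hf hS hB hD)
      rintro _ ⟨i, w, hw, rfl, rfl⟩
      have hc : (∏ j, ((B j).card : ℚ) ^ i j) ≠ 0 := prod_ne_zero_iff.2 fun j _ =>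
        pow_ne_zero _ (Nat.cast_ne_zero.2 (hB.2 j).1.card_ne_zero)
      rw [SetLike.mem_coe, ← Submodule.smul_mem_iff _ hc, ← gel_sy hB hw]
      exact Submodule.mem_map_of_mem (f := sl _ _)
        (Submodule.subset_span ⟨r, B, i, w, hB, hw, hD, rfl, rfl⟩)
    obtain ⟨x, hx, e⟩ := h2
    exact ⟨x, hx, fun _ D' hD' => by rwa [lev_inj (by omega) (hD'.trans hD.symm)]⟩
  choose x hx1 hx2 using h1
  refine ⟨∑ π ∈ (Part.finite η S).toFinset, x π, sum_mem fun π _ => Submodule.span_mono ?_ (hx1 π),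
    FL_of_sy (sub_mem hf (sum_mem fun π _ => Submodule.span_le.2 ?_ (hx1 π)))
      fun π D hπ hD => ?_⟩
  · rintro _ ⟨r, B, i, w, k1, k2, k3, k4, -⟩
    exact ⟨r, B, i, w, k1, k2, k3, k4⟩
  · rintro _ ⟨r, B, i, w, k1, k2, rfl, rfl, -⟩
    exact gel_FL hs hM k1 k2
  · change sl π D _ = 0
    rw [map_sub, map_sum, sum_eq_single π, hx2 π hπ D hD, sub_self]
    · intro π' _ hne
      refine LinearMap.mem_ker.1 (Submodule.span_le.2 ?_ (hx1 π'))
      rintro _ ⟨r, B, i, w, k1, k2, rfl, rfl, rfl⟩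
      exact gel_sy_other hs hM k1 k2 hπ hne.symm hD
    · exact fun h => absurd ((Part.finite η S).mem_toFinset.2 hπ) h

end
end Vale.Agent.P066.A
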