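import Vale.Agent.P066.A.LPart
import Vale.Agent.P066.A.Top

/-!
P066 part A, file Span (TASK A14): the PBW elements span.
Let `M = S.card + 1`, `Sp = span of Alt (Λm m).el` plus `J0 S` (as a submodule).  Prove by induction
on `L` (base `L < 0`: `FL_neg`, `alt_mem_ideal`, `J0_act`) that `f ∈ FL L`, `f ∈ RS S` implies
`Alt f ∈ Sp`.  By `step` it suffices to treat `f = gel B i w` of level `L`.
(1) `alt_prod` (with `h = Ko B * ∏ pw^i`) replaces `w j` by `Alt (B j) (w j) ∈ Iso ⊓ W0`.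
(2) choose `g j` with `img (g j) (std (cl (B j))) = B j`; by `G.bas` and `GBas.act`, `w j` is a
combination of the `act (g j) (G.w x)`, `c x = cl (B j)`, plus an element of `J0 (B j)`; expand the
product (`Finset.prod_add`-like induction over the blocks, or `Finset.prod_univ_sum`); errors lie
in `J0 S` by `Ko_mul_J0`.
(3) each term is `Λ.el` for a labelled partition `Λ` of level `L`.  If `Λ.mon` is admissible use
`LP.cmp` with `Λm`, `alt_act` and the induction hypothesis; otherwise (`mon_two`) `el_fermion` gives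
`2 • Alt Λ.el ∈ Sp`.
-/

namespace Vale.Agent.P066.A
open MvPolynomial Finset
noncomputable section

variable {V : Type} [DecidableEq V] {a : V → V → ℕ} {η k : V → ℤ}
  {S : Finset (Vx V)} {Γ : Type} {G : Gens a η k Γ}

namespace SpanAux

omit [DecidableEq V] in
open Pointwise in
theorem prod_mem_span {r : ℕ} (T : Fin r → Set (R V)) (w : Fin r → R V)
    (hw : ∀ j, w j ∈ Submodule.span ℚ (T j)) :
    ∏ j, w j ∈ Submodule.span ℚ {y | ∃ u : Fin r → R V, (∀ j, u j ∈ T j) ∧ ∏ j, u j = y} := by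
  have h1 : ∀ s : Finset (Fin r), ∏ j ∈ s, w j ∈ ∏ j ∈ s, Submodule.span ℚ (T j) := by
    intro s
    induction s using Finset.induction_on with
    | empty =>
      rw [prod_empty, prod_empty]
      exact Submodule.one_le.1 le_rfl
    | insert j s hj ih =>
      rw [prod_insert hj, prod_insert hj]
      exact Submodule.mul_mem_mul (hw j) ih
  have h2 := h1 univ
  rw [Submodule.prod_span] at h2
  refine Submodule.span_mono ?_ h2
  intro y hy
  obtain ⟨u, hu, e⟩ := (Set.mem_fintype_prod _ _).1 hy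
  exact ⟨u, hu, e⟩

theorem act_RS {g : Gf V} (hg : g ∈ GS S) {f : R V} (hf : f ∈ RS S) : act g f ∈ RS S := by
  have h := act_mem_RS g hf
  rwa [img_of_mem_GS hg] at h

theorem alt_J0 {f : R V} (hf : f ∈ J0 a η S) : Alt k S f ∈ J0 a η S := by
  refine alt_mem_ideal _ (fun g hg f hf => ?_) hf
  have h := J0_act g hf
  rwa [img_of_mem_GS hg] at h

theorem chi_mul_self (g : Gf V) : chi k g * chi k g = 1 := by
  rcases chi_sq k g with h | h <;> rw [h] <;> norm_num

theorem chi_ne (g : Gf V) : chi k g ≠ 0 := by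
  rcases chi_sq k g with h | h <;> rw [h] <;> norm_num

omit [DecidableEq V] in
theorem gel_eq {r : ℕ} (B : Fin r → Finset (Vx V)) (i : Fin r → ℕ) (w : Fin r → R V) :
    gel a B i w = (Ko a B * ∏ j, pw (B j) ^ i j) * ∏ j, w j := by
  rw [gel, prod_mul_distrib, mul_assoc]

theorem lp_mem (hs : Sym a η) {M : ℕ} (hM : S.card < M)
    (Λm : {m // G.Adm m ∧ G.mcl m = cl S} → LP G S) (hΛ : ∀ m, (Λm m).mon = m.1)
    (Sp : Submodule ℚ (R V)) (h1 : ∀ m, Alt k S (Λm m).el ∈ Sp) (Λ : LP G S)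
    (ih : ∀ f ∈ FL a η M S (Λ.lev M - 1), f ∈ RS S → Alt k S f ∈ Sp) : Alt k S Λ.el ∈ Sp := by
  by_cases hA : G.Adm Λ.mon
  · obtain ⟨-, g, hg, ε, -, h2⟩ := LP.cmp hs hM Λ (Λm ⟨Λ.mon, hA, Λ.mcl_mon⟩)
      (hΛ ⟨Λ.mon, hA, Λ.mcl_mon⟩).symm
    have h3 := ih _ h2 (sub_mem (act_RS hg Λ.el_mem) (Subalgebra.smul_mem _ (LP.el_mem _) ε))
    rw [map_sub, map_smul, alt_act hg] at h3
    have h4 := add_mem h3 (Sp.smul_mem ε (h1 ⟨Λ.mon, hA, Λ.mcl_mon⟩))
    rw [sub_add_cancel] at h4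
    exact (Sp.smul_mem_iff (chi_ne g)).1 h4
  · simp only [Gens.Adm, not_forall, not_le] at hA
    obtain ⟨y, hy, hy'⟩ := hA
    obtain ⟨j, j', hj, e, e'⟩ := (mon_two Λ.l y).1 hy'
    obtain ⟨g, hg, h2⟩ := el_fermion hs hM Λ hj (e.trans e'.symm) (by rw [e]; exact hy)
    have h3 := ih _ h2 (add_mem (Subalgebra.smul_mem _ (act_RS hg Λ.el_mem) _) Λ.el_mem)
    rw [map_add, map_smul, alt_act hg, smul_smul, chi_mul_self, one_smul, ← two_smul ℚ] at h3
    exact (Sp.smul_mem_iff two_ne_zero).1 h3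

theorem mem_span_gen (G : Gens a η k Γ) {B : Finset (Vx V)} (hB : B.Nonempty)
    (hη : etaS η B = 0) {g : Gf V} (hg : img g (std (cl B)) = B) {w : R V}
    (hw : w ∈ Iso k B) (hw' : w ∈ W0 a η B) :
    w ∈ Submodule.span ℚ {u | (∃ x, G.c x = cl B ∧ u = act g (G.w x)) ∨ u ∈ J0 a η B} := by
  have hg' : img g⁻¹ B = std (cl B) := by
    apply img_inj g
    rw [← img_mul, mul_inv_cancel, img_one, hg]
  have h1 := iso_act g⁻¹ hw
  have h2 := act_W0 g⁻¹ hw'
  rw [hg'] at h1 h2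
  obtain ⟨c, hc⟩ := (G.bas (cl B) (by rw [← etaS_eq, hη])
    (fun h => hB.ne_empty (cl_eq_zero.1 h))).span _ ⟨h1, h2⟩
  have h3 := J0_act g hc
  rw [hg, map_sub, ← act_mul, mul_inv_cancel, act_one] at h3
  have h4 := Submodule.subset_span (R := ℚ)
    (s := {u | (∃ x, G.c x = cl B ∧ u = act g (G.w x)) ∨ u ∈ J0 a η B}) (Or.inr h3)
  refine (Submodule.sub_mem_iff_left _ ?_).1 h4
  rw [Finsupp.linearCombination_apply, Finsupp.sum, map_sum]
  refine sum_mem fun x _ => ?_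
  rw [map_smul]
  exact Submodule.smul_mem _ _ (Submodule.subset_span (Or.inl ⟨x.1, x.2, rfl⟩))

theorem gel_mem_Sp {M : ℕ} {L : ℤ} (Sp : Submodule ℚ (R V)) (h0 : ∀ f ∈ J0 a η S, f ∈ Sp)
    (h1 : ∀ Λ : LP G S, Λ.lev M = L → Alt k S Λ.el ∈ Sp) {r : ℕ} {B : Fin r → Finset (Vx V)}
    (hB : OZ η S B) {i : Fin r → ℕ} (hL : glev a M B i = L) {w : Fin r → R V}
    (hw : ∀ j, w j ∈ W0 a η (B j)) : Alt k S (gel a B i w) ∈ Sp := by
  have hinv : ∀ j, ∀ g ∈ GS (B j), act g (Ko a B * ∏ j, pw (B j) ^ i j) =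
      Ko a B * ∏ j, pw (B j) ^ i j := by
    intro j g hg
    have h2 : ∀ j', img g (B j') = B j' := by
      intro j'
      by_cases e : j = j'
      · subst e
        exact img_of_mem_GS hg
      · exact img_of_disjoint hg (hB.1.1 j j' e)
    simp only [map_mul, map_prod, map_pow, act_Ko, act_pw, h2]
  rw [gel_eq, alt_prod hB.1 hinv fun j => (hw j).1]
  choose g hg using fun j => exists_img (cl_std (cl (B j)))
  have h3 := prod_mem_span _ _ fun j => mem_span_gen G (hB.2 j).1 (hB.2 j).2 (hg j)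
    (alt_mem_iso (k := k) (hw j).1) (alt_mem (W0 a η (B j)) (fun g hg f hf => by
      have h := act_W0 g hf
      rwa [img_of_mem_GS hg] at h) (hw j))
  have h4 := Submodule.span_le.2 (show _ ⊆ ((Sp.comap ((Alt k S).comp
    (LinearMap.mulLeft ℚ (Ko a B * ∏ j, pw (B j) ^ i j))) : Submodule ℚ (R V)) : Set (R V))
    from ?_) h3
  · exact h4
  rintro _ ⟨u, hu, rfl⟩
  change Alt k S ((Ko a B * ∏ j, pw (B j) ^ i j) * ∏ j, u j) ∈ Sp
  by_cases hJ : ∃ j, u j ∈ J0 a η (B j)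
  · obtain ⟨j, hj⟩ := hJ
    refine h0 _ (alt_J0 ?_)
    rw [mul_assoc]
    refine Ko_mul_J0 hB j (Ideal.mul_mem_left _ _ ?_)
    exact Ideal.prod_mem _ (mem_univ j) hj
  · choose x hx hx' using fun j => (hu j).resolve_right fun h => hJ ⟨j, h⟩
    have h5 := h1 ⟨r, B, fun j => (x j, i j), g, hB, fun j => by rw [hx j]; exact hg j⟩ hL
    rw [← gel_eq, funext hx']
    exact h5

end SpanAux

open SpanAux in
theorem pbw_span (hs : Sym a η) (hS : etaS η S = 0)
    (Λm : {m // G.Adm m ∧ G.mcl m = cl S} → LP G S) (hΛ : ∀ m, (Λm m).mon = m.1)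
    {f : R V} (hf : f ∈ Iso k S) :
    ∃ c : {m // G.Adm m ∧ G.mcl m = cl S} →₀ ℚ,
      f - Finsupp.linearCombination ℚ (fun m => Alt k S (Λm m).el) c ∈ J0 a η S := by
  set Sp : Submodule ℚ (R V) := Submodule.span ℚ (Set.range fun m => Alt k S (Λm m).el) ⊔
    (J0 a η S).restrictScalars ℚ with hSp
  have h0 : ∀ f ∈ J0 a η S, f ∈ Sp := fun f hf => Submodule.mem_sup_right hf
  have h1 : ∀ m, Alt k S (Λm m).el ∈ Sp := fun m =>
    Submodule.mem_sup_left (Submodule.subset_span ⟨m, rfl⟩)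
  have hM : S.card < S.card + 1 := Nat.lt_succ_self _
  have key : ∀ n : ℕ, ∀ f ∈ FL a η (S.card + 1) S ((n : ℤ) - 1), f ∈ RS S → Alt k S f ∈ Sp := by
    intro n
    induction n with
    | zero =>
      intro f hf _
      exact h0 _ (alt_J0 (FL_neg (by omega) hS (by norm_num) hf))
    | succ n ih =>
      intro f hf hfS
      rw [Nat.cast_succ, add_sub_cancel_right] at hf
      obtain ⟨x, hx, hfx⟩ := step hs hM hf hfS
      have h2 : x ∈ RS S ∧ Alt k S x ∈ Sp := by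
        refine Submodule.span_induction (p := fun x _ => x ∈ RS S ∧ Alt k S x ∈ Sp) ?_ ?_ ?_ ?_ hx
        · rintro _ ⟨r, B, i, w, hB, hw, hL, rfl⟩
          refine ⟨gel_mem hB.1 fun j => (hw j).1, gel_mem_Sp (G := G) Sp h0 ?_ hB hL hw⟩
          intro Λ hΛL
          exact lp_mem hs hM Λm hΛ Sp h1 Λ (by rw [hΛL]; exact ih)
        · exact ⟨zero_mem _, by rw [map_zero]; exact zero_mem _⟩
        · intro x y _ _ hx hy
          exact ⟨add_mem hx.1 hy.1, by rw [map_add]; exact add_mem hx.2 hy.2⟩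
        · intro c x _ hx
          exact ⟨Subalgebra.smul_mem _ hx.1 c, by rw [map_smul]; exact Sp.smul_mem c hx.2⟩
      have h3 := ih _ hfx (sub_mem hfS h2.1)
      rw [map_sub] at h3
      exact (Submodule.sub_mem_iff_left _ h2.2).1 h3
  obtain ⟨L, hL⟩ := exists_FL a η (S.card + 1) S f
  have h4 := key (L.toNat + 1) f (FL_mono (by omega) hL) hf.1
  rw [alt_of_iso hf] at h4
  obtain ⟨y, hy, z, hz, rfl⟩ := Submodule.mem_sup.1 h4
  rw [← Finsupp.range_linearCombination] at hy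
  obtain ⟨c, rfl⟩ := hy
  exact ⟨c, by rw [add_sub_cancel_left]; exact hz⟩

end
end Vale.Agent.P066.A
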