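import Vale.Agent.P066.A.Div

/-!
P066 part A, file UB (TASK A8): degree bounds for PBW elements.
Work in `MvPolynomial (Finset _) (R ⧸ I)` with `totalDegree` (or: a predicate `all coefficients of
degree > e vanish`, multiplicative).
* `gel_own`, `gel_sy` (`π = image B`): `sh π (w j) ≡ C (w j)` modulo `Ipi π` (definition of `W0`
  with `ρ = {B j}`, `sh_eq_of_RS`), `sh π (pw (B j)) = C _ + card • X (B j)`,
  `sh π (X s - X t) = C _ + (X (B j) - X (B j'))`; top components multiply.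
* `gel_other` (`π' ≠ π`): if for some block `B' ∈ π'` and some `j` the set
  `U = B' ∩ (B 0 ∪ … ∪ B j)` has `η U > 0` then `Ko B` is divisible by `Kr U (B' \ U) ∈ Ipi π'` and
  `coeff_sh_of_mem` applies.  Otherwise all these weights are `≤ 0` with sum over `B'` zero, so all
  `B j ∩ B'` have weight zero.  Let `ρ j` be the set of nonempty `B j ∩ B'`, a `Part` of `B j`.
  Up to renaming `z_(B j ∩ B') ↦ z_(B')`, `sh π' (w j) = sh (ρ j) (w j)`, whose coefficients of degree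
  `e` with `2e > kap (ρ j) - 2|ρ j| + 2` lie in `Ipi (ρ j)`.  Write `Ko B = K1 * K2`, `K1` = pairs
  inside one block of `π'` (so `sh π' K1 = C K1` and `K1 * Ipi (ρ j) ⊆ Ipi π'`, as in `Ko_mul_J0`),
  `K2` = the other pairs, of shifted degree `≤ n2`.  By symmetry of `a` on weight zero sets,
  `2 n2 + ∑ j kap (ρ j) = kap π'`.  So coefficients of degree `D` vanish modulo `Ipi π'` unless
  `2D - kap π' ≤ 2 ∑ i - 2 σ + 2 r`, `σ = ∑ |ρ j| ≥ |π'|`.  Then
  `lev π' D - glev ≤ 2 r - 2|π'| - 2 M (σ - |π'|) < 0`: if `σ > |π'|` use `M > |S| ≥ r`; if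
  `σ = |π'|` every block of `π'` lies in one `B j`, and `π' ≠ π` forces `|π'| > r`.
-/

namespace Vale.Agent.P066.A
open MvPolynomial Finset
noncomputable section

variable {V : Type} [DecidableEq V] {a : V → V → ℕ} {η k : V → ℤ} {M : ℕ}
  {S : Finset (Vx V)} {r : ℕ} {B : Fin r → Finset (Vx V)} {i : Fin r → ℕ} {w : Fin r → R V}

namespace UBAux

section Bd
variable {σ K : Type} [CommRing K] {I : Ideal K} {c c' : ℤ} {p q t u : MvPolynomial σ K}

/-- coefficients of degree above `c / 2` lie in `I` -/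
def Bd (I : Ideal K) (c : ℤ) (p : MvPolynomial σ K) : Prop :=
  ∀ m : σ →₀ ℕ, c < 2 * m.degree → coeff m p ∈ I

lemma Bd.mono (h : Bd I c p) (hc : c ≤ c') : Bd I c' p := fun m hm => h m (hc.trans_lt hm)

lemma Bd.add (h : Bd I c p) (h' : Bd I c q) : Bd I c (p + q) := fun m hm => by
  rw [coeff_add]
  exact add_mem (h m hm) (h' m hm)

lemma Bd.sum {ι : Type} {s : Finset ι} {f : ι → MvPolynomial σ K} (h : ∀ x ∈ s, Bd I c (f x)) :
    Bd I c (∑ x ∈ s, f x) := fun m hm => by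
  rw [coeff_sum]
  exact Ideal.sum_mem _ fun x hx => h x hx m hm

lemma Bd.mul (h : Bd I c p) (h' : Bd I c' q) : Bd I (c + c') (p * q) := by
  classical
  intro m hm
  rw [coeff_mul]
  refine Ideal.sum_mem _ fun x hx => ?_
  rw [← Finset.HasAntidiagonal.mem_antidiagonal.1 hx, map_add] at hm
  by_cases k : c < 2 * x.1.degree
  · exact Ideal.mul_mem_right _ _ (h _ k)
  · exact Ideal.mul_mem_left _ _ (h' _ (by push_cast at hm; omega))

lemma Bd.of_hom {e : ℕ} (h : t.IsHomogeneous e) : Bd I (2 * e) t := fun m hm => by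
  rw [h.coeff_eq_zero (by omega)]
  exact zero_mem _

lemma Bd.C (x : K) : Bd I 0 (C x : MvPolynomial σ K) := Bd.of_hom (isHomogeneous_C σ x)

lemma Bd.prod {ι : Type} {s : Finset ι} {f : ι → MvPolynomial σ K} {e : ι → ℤ}
    (h : ∀ x ∈ s, Bd I (e x) (f x)) : Bd I (∑ x ∈ s, e x) (∏ x ∈ s, f x) := by
  classical
  induction s using Finset.induction_on with
  | empty => exact Bd.C 1
  | insert x s hx ih =>
    rw [Finset.sum_insert hx, Finset.prod_insert hx]
    exact (h x (mem_insert_self _ _)).mul (ih fun y hy => h y (mem_insert_of_mem hy))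

lemma Bd.pow (h : Bd I c p) (n : ℕ) : Bd I (n * c) (p ^ n) := by
  simpa using Bd.prod (s := Finset.range n) fun _ _ => h

lemma Bd.rename (h : Bd I c p) (ν : σ → σ) : Bd I c (rename ν p) := by
  rw [p.as_sum, map_sum]
  refine Bd.sum fun n _ => ?_
  classical
  intro m hm
  rw [rename_monomial, coeff_monomial]
  split_ifs with k
  · exact h n (by rwa [← k, Finsupp.degree_mapDomain] at hm)
  · exact zero_mem _

/-- `t` is the top component of `p` modulo `I` -/
def Tp (I : Ideal K) (e : ℕ) (p t : MvPolynomial σ K) : Prop :=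
  t.IsHomogeneous e ∧ Bd I (2 * e - 1) (p - t)

lemma Tp.bd {e : ℕ} (h : Tp I e p t) : Bd I (2 * e) p := by
  rw [← sub_add_cancel p t]
  exact (h.2.mono (by omega)).add (Bd.of_hom h.1)

lemma Tp.mul {e e' : ℕ} (h : Tp I e p t) (h' : Tp I e' q u) : Tp I (e + e') (p * q) (t * u) := by
  refine ⟨h.1.mul h'.1, ?_⟩
  rw [show p * q - t * u = (p - t) * q + t * (q - u) by ring]
  exact ((h.2.mul h'.bd).mono (by omega)).add (((Bd.of_hom h.1).mul h'.2).mono (by omega))

lemma Tp.prod {ι : Type} {s : Finset ι} {f g : ι → MvPolynomial σ K} {e : ι → ℕ}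
    (h : ∀ x ∈ s, Tp I (e x) (f x) (g x)) :
    Tp I (∑ x ∈ s, e x) (∏ x ∈ s, f x) (∏ x ∈ s, g x) := by
  classical
  induction s using Finset.induction_on with
  | empty => exact ⟨isHomogeneous_one _ _, fun m _ => by simp⟩
  | insert x s hx ih =>
    rw [Finset.sum_insert hx, Finset.prod_insert hx, Finset.prod_insert hx]
    exact (h x (mem_insert_self _ _)).mul (ih fun y hy => h y (mem_insert_of_mem hy))

lemma Tp.pow (h : Tp I 1 p t) (n : ℕ) : Tp I n (p ^ n) (t ^ n) := by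
  simpa using Tp.prod (s := Finset.range n) fun _ _ => h

lemma Tp.lin (x : K) (h : t.IsHomogeneous 1) : Tp I 1 (MvPolynomial.C x + t) t :=
  ⟨h, by rw [add_sub_cancel_right]; exact (Bd.C x).mono (by norm_num)⟩

end Bd

open DivAux

variable {π : Finset (Finset (Vx V))}

lemma sh_pw (hπ : Part η S π) {U : Finset (Vx V)} (hU : U ∈ π) :
    sh π (pw U) = C (pw U) + (U.card : ℚ) • X U := by
  rw [pw, map_sum, map_sum, Finset.sum_congr rfl fun s hs => sh_X_of_mem hπ hU hs,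
    Finset.sum_add_distrib, Finset.sum_const, Nat.cast_smul_eq_nsmul]

lemma tp_gel (hB : OZ η S B) (hw : ∀ j, w j ∈ W0 a η (B j)) :
    Tp (Ipi a η (univ.image B)) (ko a B + ∑ j, i j) (sh (univ.image B) (gel a B i w))
      ((∏ j, ∏ j' ∈ Ioi j, (X (B j) - X (B j')) ^ aS a (B j) (B j')) *
        ∏ j, ((((B j).card : ℚ) • X (B j)) ^ i j * C (w j))) := by
  have hπ := hB.part
  have hm : ∀ j, B j ∈ univ.image B := fun j => Finset.mem_image_of_mem B (mem_univ j)
  simp only [gel, Ko, ko, Kr, aS, map_mul, map_prod, map_pow, ← Finset.prod_pow_eq_pow_sum]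
  refine Tp.mul (Tp.prod fun j _ => Tp.prod fun j' _ => Tp.prod fun s hs => Tp.prod fun t ht =>
    Tp.pow ?_ _) (Tp.prod fun j _ => ?_)
  · rw [map_sub, sh_X_of_mem hπ (hm j) hs, sh_X_of_mem hπ (hm j') ht, add_sub_add_comm, ← map_sub]
    exact Tp.lin _ ((isHomogeneous_X _ _).sub (isHomogeneous_X _ _))
  · refine Tp.mul (e' := 0) (Tp.pow ?_ _) ⟨isHomogeneous_C _ _, fun m _ => ?_⟩
    · rw [sh_pw hπ (hm j)]
      refine Tp.lin _ ?_
      rw [Nat.cast_smul_eq_nsmul]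
      exact nsmul_mem (S := homogeneousSubmodule _ _ 1) (isHomogeneous_X _ _) _
    · rw [coeff_sub, coeff_C]
      split_ifs with h
      · rw [← h, coeff_zero_sh, sub_self]
        exact zero_mem _
      · rw [sub_zero, sh_eq_of_RS (ρ := {B j}) (hw j).1 fun s hs => ?_]
        · refine J0_le_Ipi (hm j) ?_
          rw [← Ipi_singleton]
          refine (hw j).2 _ (Part.single (hB.2 j).1 (hB.2 j).2) m ?_
          have : m.degree ≠ 0 := fun k => h ((Finsupp.degree_eq_zero_iff m).1 k).symm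
          simp only [kap, Finset.sum_singleton, Finset.erase_singleton, Finset.sum_empty,
            Finset.card_singleton]
          omega
        · ext U
          simp only [Finset.mem_filter, Finset.mem_singleton]
          exact ⟨fun k => ⟨eq_of_mem hπ k.1 (hm j) k.2 hs, k.2⟩, fun k => ⟨k.1 ▸ hm j, k.2⟩⟩

lemma dvd_cover {ι α N : Type} [CommMonoid N] (s : Finset ι) (E : ι → Finset α) (φ : α → N)
    (E0 : Finset α) (h : ∀ p ∈ E0, ∃ q ∈ s, p ∈ E q) :
    ∏ p ∈ E0, φ p ∣ ∏ q ∈ s, ∏ p ∈ E q, φ p := by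
  classical
  induction s using Finset.induction_on generalizing E0 with
  | empty =>
    rw [Finset.eq_empty_of_forall_notMem (s := E0) fun p hp => by simpa using h p hp]
    simp
  | insert q s hq ih =>
    rw [Finset.prod_insert hq, ← Finset.prod_inter_mul_prod_sdiff E0 (E q)]
    refine mul_dvd_mul (Finset.prod_dvd_prod_of_subset _ _ _ Finset.inter_subset_right)
      (ih _ fun p hp => ?_)
    obtain ⟨q', h1, h2⟩ := h p (Finset.mem_sdiff.1 hp).1
    rcases Finset.mem_insert.1 h1 with rfl | h1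
    · exact absurd h2 (Finset.mem_sdiff.1 hp).2
    · exact ⟨q', h1, h2⟩

omit [DecidableEq V] in
lemma Kr_eq (A A' : Finset (Vx V)) :
    Kr a A A' = ∏ p ∈ A ×ˢ A', (X p.1 - X p.2) ^ a p.1.1 p.2.1 := by
  rw [Finset.prod_product]
  rfl

omit [DecidableEq V] in
lemma aS_eq' (A A' : Finset (Vx V)) : aS a A A' = ∑ p ∈ A ×ˢ A', a p.1.1 p.2.1 := by
  rw [Finset.sum_product]
  rfl

lemma Kr_dvd_Ko {U W U' W' : Finset (Vx V)} (h : ∀ s ∈ U', ∀ t ∈ W',
    (∃ j j', j < j' ∧ s ∈ B j ∧ t ∈ B j') ∨ (s ∈ U ∧ t ∈ W)) :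
    Kr a U' W' ∣ Ko a B * Kr a U W := by
  rw [Kr_eq, Kr_eq U, ← Finset.prod_sdiff (Finset.inter_subset_left (s₂ := U ×ˢ W))]
  refine mul_dvd_mul ?_ (Finset.prod_dvd_prod_of_subset _ _ _ Finset.inter_subset_right)
  simp only [Ko, Kr_eq]
  rw [Finset.prod_sigma']
  refine dvd_cover _ (fun x : (_ : Fin r) × Fin r => B x.1 ×ˢ B x.2) _ _ fun p hp => ?_
  obtain ⟨h1, h2⟩ := Finset.mem_sdiff.1 hp
  obtain ⟨h3, h4⟩ := Finset.mem_product.1 h1
  rcases h _ h3 _ h4 with ⟨j, j', k1, k2, k3⟩ | k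
  · exact ⟨⟨j, j'⟩, by simpa using k1, Finset.mem_product.2 ⟨k2, k3⟩⟩
  · exact absurd (Finset.mem_inter.2 ⟨h1, Finset.mem_product.2 k⟩) h2

lemma two_ko' (hs : Sym a η) (hB : OP S B) (h0 : ∀ j, etaS η (B j) = 0) :
    2 * ko a B + ∑ j, aS a (B j) (B j) = aS a S S := by
  have hd : ((univ : Finset (Fin r)) : Set (Fin r)).PairwiseDisjoint B :=
    fun j _ j' _ => hB.1 j j'
  have e : aS a S S = ∑ j, ∑ j', aS a (B j') (B j) := by
    rw [← hB.2, aS, Finset.sum_biUnion hd, Finset.sum_comm (f := fun j j' => aS a (B j') (B j))]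
    refine Finset.sum_congr rfl fun U _ => ?_
    simp only [Finset.sum_biUnion hd, aS]
    exact Finset.sum_comm
  have k := Finset.sum_sum_Ioi_add_eq_sum_sum_off_diag fun j j' => aS a (B j) (B j')
  have k2 : ∑ j, ∑ j' ∈ Ioi j, (aS a (B j') (B j) + aS a (B j) (B j')) = 2 * ko a B := by
    rw [ko, Finset.mul_sum]
    refine Finset.sum_congr rfl fun j _ => ?_
    rw [Finset.mul_sum]
    exact Finset.sum_congr rfl fun j' _ => by rw [hs _ _ (h0 j') (h0 j), two_mul]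
  rw [e, ← k2, k, ← Finset.sum_add_distrib]
  refine Finset.sum_congr rfl fun j _ => ?_
  rw [← Finset.sum_compl_add_sum {j}, Finset.sum_singleton]

lemma filter_same (A A' : Finset (Vx V)) :
    (A ×ˢ A').filter (fun p => ∃ U ∈ π, p.1 ∈ U ∧ p.2 ∈ U) =
      π.biUnion fun U => (A ∩ U) ×ˢ (A' ∩ U) := by
  ext p
  simp only [Finset.mem_filter, Finset.mem_product, Finset.mem_biUnion, Finset.mem_inter]
  exact ⟨fun ⟨h, U, h1, h2⟩ => ⟨U, h1, ⟨h.1, h2.1⟩, h.2, h2.2⟩,
    fun ⟨U, h1, h2, h3⟩ => ⟨⟨h2.1, h3.1⟩, U, h1, h2.2, h3.2⟩⟩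

lemma Kr_split (hπ : Part η S π) (I : Ideal (R V)) {A A' : Finset (Vx V)} (hA : A ⊆ S)
    (hA' : A' ⊆ S) : ∃ K, Kr a A A' = (∏ U ∈ π, Kr a (A ∩ U) (A' ∩ U)) * K ∧
      Bd I (2 * (aS a A A' - ∑ U ∈ π, (aS a (A ∩ U) (A' ∩ U) : ℤ))) (sh π K) := by
  have hd : (π : Set (Finset (Vx V))).PairwiseDisjoint fun U => (A ∩ U) ×ˢ (A' ∩ U) :=
    fun U hU W hW hne => Finset.disjoint_left.2 fun p h1 h2 => hne (eq_of_mem hπ hU hW
      (Finset.mem_inter.1 (Finset.mem_product.1 h1).1).2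
      (Finset.mem_inter.1 (Finset.mem_product.1 h2).1).2)
  refine ⟨∏ p ∈ (A ×ˢ A').filter fun p => ¬ ∃ U ∈ π, p.1 ∈ U ∧ p.2 ∈ U,
    (X p.1 - X p.2) ^ a p.1.1 p.2.1, ?_, ?_⟩
  · simp only [Kr_eq]
    rw [← Finset.prod_biUnion hd, ← filter_same, Finset.prod_filter_mul_prod_filter_not]
  · simp only [map_prod, map_pow]
    refine (Bd.prod (e := fun p : Vx V × Vx V => (a p.1.1 p.2.1 : ℤ) * 2)
      fun p hp => Bd.pow ?_ _).mono (le_of_eq ?_)
    · obtain ⟨h1, h2⟩ := Finset.mem_product.1 (Finset.mem_filter.1 hp).1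
      obtain ⟨U, hU, k1⟩ := (mem_iff hπ).1 (hA h1)
      obtain ⟨W, hW, k2⟩ := (mem_iff hπ).1 (hA' h2)
      rw [map_sub, sh_X_of_mem hπ hU k1, sh_X_of_mem hπ hW k2, add_sub_add_comm, ← map_sub]
      exact (Tp.lin _ ((isHomogeneous_X _ _).sub (isHomogeneous_X _ _))).bd
    · rw [← Nat.cast_sum, ← Finset.sum_mul, ← Nat.cast_sum]
      simp only [aS_eq']
      rw [← Finset.sum_biUnion hd, ← filter_same, ← Finset.sum_filter_add_sum_filter_not (A ×ˢ A')
        fun p => ∃ U ∈ π, p.1 ∈ U ∧ p.2 ∈ U]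
      push_cast
      ring

lemma eta_inter (hπ : Part η S π) {A : Finset (Vx V)} (hA : A ⊆ S) :
    ∑ U ∈ π, etaS η (A ∩ U) = etaS η A := by
  have hd : (π : Set (Finset (Vx V))).PairwiseDisjoint fun U => A ∩ U := fun U hU W hW hne =>
    (hπ.2.1 U hU W hW hne).mono Finset.inter_subset_right Finset.inter_subset_right
  simp only [etaS]
  rw [← Finset.sum_biUnion hd, ← Finset.inter_biUnion]
  change ∑ s ∈ A ∩ π.biUnion id, _ = _
  rw [hπ.2.2, Finset.inter_eq_left.2 hA]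

lemma eta_low (hB : OP S B) (U : Finset (Vx V)) (n : ℕ) :
    etaS η ((univ.filter fun j : Fin r => j.val < n).biUnion fun j => B j ∩ U) =
      ∑ j with j.val < n, etaS η (B j ∩ U) :=
  Finset.sum_biUnion fun j _ j' _ hne =>
    (hB.1 j j' hne).mono Finset.inter_subset_left Finset.inter_subset_left

lemma mem_B (hB : OP S B) {s : Vx V} (hs : s ∈ S) : ∃ j, s ∈ B j := by
  rw [← hB.2] at hs
  simpa using hs

/-- either the kernel vanishes or all intersections have weight zero -/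
lemma dichotomy (hB : OZ η S B) (hπ : Part η S π) :
    Ko a B ∈ Ipi a η π ∨ ∀ j, ∀ U ∈ π, etaS η (B j ∩ U) = 0 := by
  by_cases h : ∀ n : ℕ, ∀ U ∈ π, ∑ j : Fin r with j.val < n, etaS η (B j ∩ U) ≤ 0
  · right
    have k : ∀ n : ℕ, ∀ U ∈ π, ∑ j : Fin r with j.val < n, etaS η (B j ∩ U) = 0 := by
      intro n
      refine (Finset.sum_eq_zero_iff_of_nonpos (h n)).1 ?_
      rw [Finset.sum_comm]
      exact Finset.sum_eq_zero fun j _ => (eta_inter hπ (hB.1.subset j)).trans (hB.2 j).2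
    intro j U hU
    have e : (univ.filter fun j' : Fin r => j'.val < j.val + 1) =
        insert j (univ.filter fun j' : Fin r => j'.val < j.val) := by
      ext j'
      simp only [Finset.mem_filter, Finset.mem_univ, true_and, Finset.mem_insert, Fin.ext_iff]
      omega
    have k1 := k (j + 1) U hU
    rwa [e, Finset.sum_insert (by simp), k j U hU, add_zero] at k1
  · left
    push Not at h
    obtain ⟨n, U, hU, h⟩ := h
    rw [← eta_low hB.1] at h
    refine J0_le_Ipi hU (Ideal.mem_of_dvd _ ?_ (Ideal.subset_span ⟨_, Finset.biUnion_subset.2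
      fun j _ => Finset.inter_subset_right, h, rfl⟩))
    have k := Kr_dvd_Ko (a := a) (B := B) (U := ∅) (W := ∅)
      (U' := (univ.filter fun j : Fin r => j.val < n).biUnion fun j => B j ∩ U)
      (W' := U \ (univ.filter fun j : Fin r => j.val < n).biUnion fun j => B j ∩ U)
      fun s hs t ht => ?_
    · rwa [Kr_empty_left, mul_one] at k
    obtain ⟨j, h1, h2⟩ := Finset.mem_biUnion.1 hs
    obtain ⟨h3, h4⟩ := Finset.mem_sdiff.1 ht
    obtain ⟨j', h5⟩ := mem_B hB.1 (hπ.subset hU h3)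
    refine Or.inl ⟨j, j', lt_of_not_ge fun k => h4 (Finset.mem_biUnion.2 ⟨j', ?_,
      Finset.mem_inter.2 ⟨h5, h3⟩⟩), (Finset.mem_inter.1 h2).1, h5⟩
    exact Finset.mem_filter.2 ⟨mem_univ _, lt_of_le_of_lt k (Finset.mem_filter.1 h1).2⟩

/-- the trace of `π` on `A` -/
def tr (π : Finset (Finset (Vx V))) (A : Finset (Vx V)) : Finset (Finset (Vx V)) :=
  (π.filter fun U => (A ∩ U).Nonempty).image fun U => A ∩ U

lemma mem_tr {A W : Finset (Vx V)} : W ∈ tr π A ↔ ∃ U ∈ π, (A ∩ U).Nonempty ∧ A ∩ U = W := by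
  simp only [tr, Finset.mem_image, Finset.mem_filter, and_assoc]

lemma tr_inj (hπ : Part η S π) (A : Finset (Vx V)) :
    Set.InjOn (fun U => A ∩ U) (π.filter fun U => (A ∩ U).Nonempty : Finset _) := by
  intro U hU W hW h
  obtain ⟨h1, s, hs⟩ := Finset.mem_filter.1 hU
  have h' : A ∩ U = A ∩ W := h
  exact eq_of_mem hπ h1 (Finset.mem_filter.1 hW).1 (Finset.mem_inter.1 hs).2
    (Finset.mem_inter.1 (h' ▸ hs)).2

lemma part_tr (hπ : Part η S π) {A : Finset (Vx V)} (hA : A ⊆ S)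
    (h0 : ∀ U ∈ π, etaS η (A ∩ U) = 0) : Part η A (tr π A) := by
  refine ⟨fun W hW => ?_, fun W hW W' hW' hne => ?_, ?_⟩
  · obtain ⟨U, h1, h2, rfl⟩ := mem_tr.1 hW
    exact ⟨h2, h0 U h1⟩
  · obtain ⟨U, h1, -, rfl⟩ := mem_tr.1 hW
    obtain ⟨U', h2, -, rfl⟩ := mem_tr.1 hW'
    exact (hπ.2.1 U h1 U' h2 fun k => hne (k ▸ rfl)).mono Finset.inter_subset_right
      Finset.inter_subset_right
  · ext s
    simp only [Finset.mem_biUnion, mem_tr, id]
    refine ⟨?_, fun hs => ?_⟩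
    · rintro ⟨_, ⟨U, -, -, rfl⟩, h⟩
      exact (Finset.mem_inter.1 h).1
    · obtain ⟨U, h1, h2⟩ := (mem_iff hπ).1 (hA hs)
      exact ⟨_, ⟨U, h1, ⟨s, Finset.mem_inter.2 ⟨hs, h2⟩⟩, rfl⟩, Finset.mem_inter.2 ⟨hs, h2⟩⟩

lemma kap_tr (hπ : Part η S π) {A : Finset (Vx V)} (hA : A ⊆ S)
    (h0 : ∀ U ∈ π, etaS η (A ∩ U) = 0) :
    kap a (tr π A) + ∑ U ∈ π, aS a (A ∩ U) (A ∩ U) = aS a A A := by
  rw [← kap_add (part_tr hπ hA h0), tr, Finset.sum_image (tr_inj hπ A), Finset.sum_filter_of_ne]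
  intro U _ h
  by_contra k
  rw [Finset.not_nonempty_iff_eq_empty.1 k] at h
  exact h rfl

lemma bd_w (hπ : Part η S π) {A : Finset (Vx V)} (hA : A ⊆ S)
    (h0 : ∀ U ∈ π, etaS η (A ∩ U) = 0) {x : R V} (hx : x ∈ W0 a η A) :
    Bd (Ipi a η (tr π A)) (kap a (tr π A) - 2 * (tr π A).card + 2) (sh π x) := by
  have h1 : ∀ W, ∃ U, W ∈ tr π A → U ∈ π ∧ W ⊆ U := fun W => by
    by_cases h : W ∈ tr π A
    · obtain ⟨U, k1, -, rfl⟩ := mem_tr.1 h
      exact ⟨U, fun _ => ⟨k1, Finset.inter_subset_right⟩⟩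
    · exact ⟨W, fun k => absurd k h⟩
  choose ν hν using h1
  have hρ := part_tr hπ hA h0
  have k : RS A ≤ AlgHom.equalizer (sh π)
      (((rename ν).restrictScalars ℚ).comp (sh (tr π A))) := by
    rw [RS, supported_eq_adjoin_X]
    refine Algebra.adjoin_le ?_
    rintro _ ⟨s, hs, rfl⟩
    obtain ⟨W, k1, k2⟩ := (mem_iff hρ).1 hs
    change sh π (X s) = rename ν (sh (tr π A) (X s))
    rw [sh_X_of_mem hρ k1 k2, sh_X_of_mem hπ (hν W k1).1 ((hν W k1).2 k2), map_add, rename_C,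
      rename_X]
  have e : sh π x = rename ν (sh (tr π A) x) := k hx.1
  rw [e]
  exact Bd.rename (hx.2 _ hρ) ν

lemma K1_mul (hB : OP S B) (hπ : Part η S π) (h0 : ∀ j, ∀ U ∈ π, etaS η (B j ∩ U) = 0) :
    (⨆ j, Ipi a η (tr π (B j))) ≤
      (Ipi a η π).colon {∏ U ∈ π, Ko a fun j => B j ∩ U} := by
  refine iSup_le fun j => iSup₂_le fun W hW => Ideal.span_le.2 ?_
  rintro _ ⟨T, h1, h2, rfl⟩
  obtain ⟨U, hU, -, rfl⟩ := mem_tr.1 hW
  rw [SetLike.mem_coe, Submodule.mem_colon_singleton, smul_eq_mul, mul_comm]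
  have hd : Disjoint T ((univ.filter fun j' : Fin r => j'.val < j.val).biUnion fun j => B j ∩ U) :=
    (Finset.disjoint_biUnion_right _ _ _).2 fun j' hj' => (hB.1 j j' fun e => by
      simp [e] at hj').mono (h1.trans Finset.inter_subset_left) Finset.inter_subset_left
  refine J0_le_Ipi hU (Ideal.mem_of_dvd _ ((Kr_dvd_Ko (B := fun j => B j ∩ U)
    fun s hs t ht => ?_).trans (mul_dvd_mul_right
      (Finset.dvd_prod_of_mem (fun U => Ko a fun j => B j ∩ U) hU) _)) (Ideal.subset_span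
      ⟨T ∪ (univ.filter fun j' : Fin r => j'.val < j.val).biUnion fun j => B j ∩ U,
      Finset.union_subset (h1.trans Finset.inter_subset_right)
        (Finset.biUnion_subset.2 fun j _ => Finset.inter_subset_right), ?_, rfl⟩))
  · obtain ⟨h3, h4⟩ := Finset.mem_sdiff.1 ht
    obtain ⟨j', h5⟩ := mem_B hB (hπ.subset hU h3)
    have h6 := Finset.mem_inter.2 ⟨h5, h3⟩
    have h7 : j ≤ j' := le_of_not_gt fun k => h4 (Finset.mem_union_right _
      (Finset.mem_biUnion.2 ⟨j', Finset.mem_filter.2 ⟨mem_univ _, k⟩, h6⟩))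
    rcases Finset.mem_union.1 hs with k | k
    · rcases h7.eq_or_lt with rfl | k2
      · exact Or.inr ⟨k, Finset.mem_sdiff.2 ⟨h6, fun k3 => h4 (Finset.mem_union_left _ k3)⟩⟩
      · exact Or.inl ⟨j, j', k2, h1 k, h6⟩
    · obtain ⟨j'', k1, k2⟩ := Finset.mem_biUnion.1 k
      exact Or.inl ⟨j'', j', lt_of_lt_of_le (Finset.mem_filter.1 k1).2 h7, k2, h6⟩
  · rw [etaS_union hd, eta_low hB, Finset.sum_eq_zero fun j _ => h0 j U hU, add_zero]
    exact h2

lemma count (hB : OZ η S B) (hπ : Part η S π) (hne : π ≠ univ.image B) :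
    π.card ≤ ∑ j, (tr π (B j)).card ∧ (π.card = ∑ j, (tr π (B j)).card → r < π.card) := by
  have e : ∑ j, (tr π (B j)).card = ∑ j, (π.filter fun U => (B j ∩ U).Nonempty).card :=
    Finset.sum_congr rfl fun j _ => Finset.card_image_of_injOn (tr_inj hπ _)
  have e2 : ∑ j, (π.filter fun U => (B j ∩ U).Nonempty).card =
      ∑ U ∈ π, (univ.filter fun j => (B j ∩ U).Nonempty).card := by
    simp only [Finset.card_filter]
    exact Finset.sum_comm
  have c1 : ∀ j ∈ (univ : Finset (Fin r)), 1 ≤ (π.filter fun U => (B j ∩ U).Nonempty).card := by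
    intro j _
    obtain ⟨s, hs⟩ := (hB.2 j).1
    obtain ⟨U, h1, h2⟩ := (mem_iff hπ).1 (hB.1.subset j hs)
    exact Finset.card_pos.2 ⟨U, Finset.mem_filter.2 ⟨h1, s, Finset.mem_inter.2 ⟨hs, h2⟩⟩⟩
  have c2 : ∀ U ∈ π, 1 ≤ (univ.filter fun j => (B j ∩ U).Nonempty).card := by
    intro U hU
    obtain ⟨s, hs⟩ := (hπ.1 U hU).1
    obtain ⟨j, h1⟩ := mem_B hB.1 (hπ.subset hU hs)
    exact Finset.card_pos.2 ⟨j, Finset.mem_filter.2 ⟨mem_univ _, s, Finset.mem_inter.2 ⟨h1, hs⟩⟩⟩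
  have d1 := Finset.sum_le_sum c1
  have d2 := Finset.sum_le_sum c2
  have d3 := Finset.sum_eq_sum_iff_of_le c1
  have d4 := Finset.sum_eq_sum_iff_of_le c2
  simp only [Finset.sum_const, Finset.card_univ, Fintype.card_fin, smul_eq_mul, mul_one]
    at d1 d2 d3 d4
  rw [e]
  refine ⟨e2 ▸ d2, fun h => lt_of_not_ge fun h' => hne (Finset.eq_of_subset_of_card_le
    (fun U hU => ?_) (by rw [Finset.card_image_of_injective _ hB.inj]; simp; omega))⟩
  have d5 := fun j => Finset.card_le_one.1 (d3.1 (by omega) j (mem_univ j)).ge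
  have d6 := Finset.card_le_one.1 (d4.1 (h.trans e2) U hU).ge
  obtain ⟨s, hs⟩ := (hπ.1 U hU).1
  obtain ⟨j, h1⟩ := mem_B hB.1 (hπ.subset hU hs)
  have h2 : (B j ∩ U).Nonempty := ⟨s, Finset.mem_inter.2 ⟨h1, hs⟩⟩
  refine Finset.mem_image.2 ⟨j, mem_univ j, Finset.ext fun t => ⟨fun ht => ?_, fun ht => ?_⟩⟩
  · obtain ⟨W, k1, k2⟩ := (mem_iff hπ).1 (hB.1.subset j ht)
    rwa [d5 j U (Finset.mem_filter.2 ⟨hU, h2⟩) W
      (Finset.mem_filter.2 ⟨k1, t, Finset.mem_inter.2 ⟨ht, k2⟩⟩)]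
  · obtain ⟨j', k1⟩ := mem_B hB.1 (hπ.subset hU ht)
    rwa [d6 j (Finset.mem_filter.2 ⟨mem_univ _, h2⟩) j'
      (Finset.mem_filter.2 ⟨mem_univ _, t, Finset.mem_inter.2 ⟨k1, ht⟩⟩)]

end UBAux

open UBAux DivAux

theorem gel_mem (hB : OP S B) (hw : ∀ j, w j ∈ RS (B j)) : gel a B i w ∈ RS S :=
  mul_mem (Ko_mem hB) (prod_mem fun j _ =>
    RS_mono (hB.subset j) (mul_mem (pow_mem (pw_mem _) _) (hw j)))

theorem gel_own (hB : OZ η S B) (hw : ∀ j, w j ∈ W0 a η (B j)) (m : Finset (Vx V) →₀ ℕ)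
    (hm : ko a B + ∑ j, i j < m.degree) :
    coeff m (sh (univ.image B) (gel a B i w)) ∈ Ipi a η (univ.image B) :=
  (tp_gel hB hw).bd m (by omega)

theorem gel_sy (hB : OZ η S B) (hw : ∀ j, w j ∈ W0 a η (B j)) :
    sy a η (univ.image B) (ko a B + ∑ j, i j) (gel a B i w) =
      (∏ j, ((B j).card : ℚ) ^ i j) • tsy a η B i w := by
  obtain ⟨h1, h2⟩ := tp_gel (i := i) hB hw
  have e : (∏ j, ((B j).card : ℚ) ^ i j) • tsy a η B i w =
      MvPolynomial.map (Ideal.Quotient.mk (Ipi a η (univ.image B)))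
        ((∏ j, ∏ j' ∈ Ioi j, (X (B j) - X (B j')) ^ aS a (B j) (B j')) *
          ∏ j, ((((B j).card : ℚ) • X (B j)) ^ i j * C (w j))) := by
    simp only [tsy, Kt, map_mul, map_prod, map_pow, map_sub,
      map_X, map_C, map_natCast, Algebra.smul_def, mul_pow, Finset.prod_mul_distrib]
    ring
  rw [e]
  ext m
  rw [coeff_sy, coeff_map]
  split_ifs with h
  · rw [Ideal.Quotient.eq, ← coeff_sub]
    exact h2 m (by omega)
  · rw [h1.coeff_eq_zero h, map_zero]

theorem gel_other (hs : Sym a η) (hM : S.card < M) (hB : OZ η S B)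
    (hw : ∀ j, w j ∈ W0 a η (B j)) {π : Finset (Finset (Vx V))} (hπ : Part η S π)
    (hne : π ≠ univ.image B) (m : Finset (Vx V) →₀ ℕ) (hm : glev a M B i ≤ lev a M π m.degree) :
    coeff m (sh π (gel a B i w)) ∈ Ipi a η π := by
  rcases dichotomy (a := a) hB hπ with h0 | h0
  · exact coeff_sh_of_mem hπ (Ideal.mul_mem_right _ _ h0) m
  choose K hK1 hK2 using fun j j' => Kr_split (a := a) hπ (⨆ j, Ipi a η (tr π (B j)))
    (hB.1.subset j) (hB.1.subset j')
  have e1 : Ko a B = (∏ U ∈ π, Ko a fun j => B j ∩ U) * ∏ j, ∏ j' ∈ Ioi j, K j j' := by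
    simp only [Ko, hK1, Finset.prod_mul_distrib]
    rw [Finset.prod_comm (s := π)]
    exact congrArg (· * _) (Finset.prod_congr rfl fun j _ => Finset.prod_comm)
  have e2 : sh π (∏ U ∈ π, Ko a fun j => B j ∩ U) = C (∏ U ∈ π, Ko a fun j => B j ∩ U) := by
    simp only [Ko, map_prod]
    exact Finset.prod_congr rfl fun U hU => Finset.prod_congr rfl fun j _ =>
      Finset.prod_congr rfl fun j' _ =>
        sh_Kr_same hπ hU Finset.inter_subset_right Finset.inter_subset_right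
  rw [gel, e1, mul_assoc, map_mul, e2, coeff_C_mul, mul_comm]
  refine Submodule.mem_colon_singleton.1 (K1_mul hB.1 hπ h0 ?_)
  simp only [map_mul, map_prod, map_pow]
  refine ((Bd.prod fun j _ => Bd.prod fun j' _ => hK2 j j').mul (Bd.prod fun j _ =>
    (Bd.pow (c := 2) ?_ (i j)).mul fun m hm => le_iSup (fun j => Ipi a η (tr π (B j))) j
      (bd_w hπ (hB.1.subset j) (h0 j) (hw j) m hm))) m ?_
  · rw [pw, map_sum]
    refine Bd.sum fun s hs => ?_
    obtain ⟨U, hU, k⟩ := (mem_iff hπ).1 (hB.1.subset j hs)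
    rw [sh_X_of_mem hπ hU k]
    exact (Tp.lin _ (isHomogeneous_X _ _)).bd
  have c1 := two_ko' hs hB.1 fun j => (hB.2 j).2
  have c2 := kap_add (a := a) hπ
  have c3 := Finset.sum_congr rfl fun j (_ : j ∈ univ) => kap_tr (a := a) hπ (hB.1.subset j) (h0 j)
  have c4 := Finset.sum_congr rfl fun U (hU : U ∈ π) => two_ko' (B := fun j => B j ∩ U) (S := U) hs
    ⟨fun j j' hne => (hB.1.1 j j' hne).mono Finset.inter_subset_left Finset.inter_subset_left, by
      rw [← Finset.biUnion_inter, hB.1.2, Finset.inter_eq_right.2 (hπ.subset hU)]⟩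
    fun j => h0 j U hU
  rw [Finset.sum_add_distrib] at c3 c4
  rw [Finset.sum_comm (s := π), ← Finset.mul_sum] at c4
  have c5 : ∑ j, ∑ j' ∈ Ioi j, 2 * ((aS a (B j) (B j') : ℤ) -
      ∑ U ∈ π, (aS a (B j ∩ U) (B j' ∩ U) : ℤ)) =
      2 * (ko a B - (∑ U ∈ π, ko a fun j => B j ∩ U : ℕ)) := by
    simp only [ko, ← Finset.mul_sum, Finset.sum_sub_distrib, Nat.cast_sum]
    rw [Finset.sum_comm (s := π)]
    exact congrArg (fun z => 2 * (_ - z)) (Finset.sum_congr rfl fun j _ => Finset.sum_comm)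
  obtain ⟨c6, c7⟩ := count hB hπ hne
  have c8 : r ≤ S.card := by
    have := hB.part.card_le
    rwa [Finset.card_image_of_injective _ hB.inj, Finset.card_fin] at this
  rw [glev, lev, lev, ← two_ko hs hB, Finset.card_image_of_injective _ hB.inj,
    Finset.card_fin] at hm
  rw [c5]
  simp only [Finset.sum_add_distrib, Finset.sum_sub_distrib, ← Finset.sum_mul,
    ← Finset.mul_sum, ← Nat.cast_sum, Finset.sum_const, Finset.card_fin, nsmul_eq_mul]
  generalize ∑ j, (tr π (B j)).card = σ at c6 c7 ⊢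
  generalize ∑ j, i j = n at hm ⊢
  by_contra hc
  have k1 : 2 * (m.degree : ℤ) - kap a π ≤ 2 * n - 2 * σ + 2 * r := by omega
  have k2 := mul_le_mul_of_nonneg_left k1 (Nat.cast_nonneg M)
  have k3 : (M : ℤ) * (σ - π.card) ≤ r - π.card := by
    push_cast at hm
    linarith
  rcases c6.eq_or_lt with k | k
  · have := c7 k
    rw [k, sub_self, mul_zero] at k3
    omega
  · have k4 : (M : ℤ) * 1 ≤ M * (σ - π.card) :=
      mul_le_mul_of_nonneg_left (by omega) (Nat.cast_nonneg M)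
    omega

theorem gel_FL (hs : Sym a η) (hM : S.card < M) (hB : OZ η S B)
    (hw : ∀ j, w j ∈ W0 a η (B j)) : gel a B i w ∈ FL a η M S (glev a M B i) := by
  intro π hπ m hm
  by_cases h : π = univ.image B
  · subst h
    refine gel_own hB hw m (lt_of_not_ge fun k => ?_)
    have k1 : (m.degree : ℤ) ≤ (ko a B + ∑ j, i j : ℕ) := by exact_mod_cast k
    have k2 := mul_le_mul_of_nonneg_left k1 (Nat.cast_nonneg M)
    rw [glev, lev, lev] at hm
    linarith
  · exact gel_other hs hM hB hw hπ h m hm.le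

theorem gel_sy_other (hs : Sym a η) (hM : S.card < M) (hB : OZ η S B)
    (hw : ∀ j, w j ∈ W0 a η (B j)) {π : Finset (Finset (Vx V))} (hπ : Part η S π)
    (hne : π ≠ univ.image B) {D : ℕ} (hD : lev a M π D = glev a M B i) :
    sy a η π D (gel a B i w) = 0 := by
  ext m
  rw [coeff_sy, coeff_zero]
  split_ifs with h
  · exact Ideal.Quotient.eq_zero_iff_mem.2 (gel_other hs hM hB hw hπ hne m (by rw [h, hD]))
  · rfl

end
end Vale.Agent.P066.A
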